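import Crest.Agent.R213.Ea.Sub

/-! Row 213, shrinker: the checker for the finite part.  Integers are in units of `1/ONE`.  On a piece
`y = (dn/dd) (N + u)`, `u ∈ [0,1]`; index `0` is the base solution, `1`, `2` the two variations. -/

set_option autoImplicit false
open Set Filter Topology

namespace Crest.Agent.R213.Ea

def ONE : ℤ := 5192296858534827628530496329220096

structure V3 where
  a : ℤ
  b : ℤ
  c : ℤ
  deriving DecidableEq

/-- enclosure of `(pp S, rr S, S)` at a node -/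
structure St where
  p : V3
  r : V3
  s : V3
  e : V3

structure Pc where
  N : ℕ
  dn : ℕ
  dd : ℕ
  w0 : List ℤ
  w1 : List ℤ
  w2 : List ℤ
  R1 : ℤ
  R2 : ℤ
  R3 : ℤ
  S0 : ℤ
  S12 : ℤ
  P : ℤ
  L : ℤ
  subs : List V3

noncomputable def V3.val (v : V3) (x1 x2 : ℝ) : ℝ := (v.a + x1 * v.b + x2 * v.c) / ONE

def Inv (S : ℝ → ℝ) (x1 x2 y : ℝ) (st : St) : Prop :=
  (∀ t ∈ Icc 0 y, Rng t (FF S t)) ∧ |pp S y - st.p.val x1 x2| ≤ st.e.a / ONE ∧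
    |rr S y - st.r.val x1 x2| ≤ st.e.b / ONE ∧ |S y - st.s.val x1 x2| ≤ st.e.c / ONE

def sP (c : Pc) (s b : ℤ) (w : List ℤ) : List ℤ := pint s c.dn (2 * c.dd) (psub [2 * b] w)
def rP (c : Pc) (r : ℤ) (s : List ℤ) : List ℤ :=
  pint r ((c.dn : ℤ) ^ 10) ((c.dd : ℤ) ^ 10) (pmul (ppow c.N 9) s)
def pP (c : Pc) (p : ℤ) (r : List ℤ) : List ℤ := pint p c.dn c.dd r
def res1 (c : Pc) (p r : List ℤ) : ℤ := pabs (psub (psm c.dd (pder p)) (psm c.dn r))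
def res2 (c : Pc) (r s : List ℤ) : ℤ :=
  pabs (psub (psm ((c.dd : ℤ) ^ 10) (pder r)) (psm ((c.dn : ℤ) ^ 10) (pmul (ppow c.N 9) s)))
def res3 (c : Pc) (s : List ℤ) (b : ℤ) (w : List ℤ) : ℤ :=
  pabs (psub (psm (2 * c.dd) (pder s)) (psm c.dn (psub [2 * b] w)))
/-- `dd^10 ONE (y^10 - p0)` -/
def phiP (c : Pc) (p0 : List ℤ) : List ℤ :=
  psub (psm ((c.dn : ℤ) ^ 10 * ONE) (ppow c.N 10)) (psm ((c.dd : ℤ) ^ 10) p0)

def chkPoly3 (c : Pc) (B : V3) (st' : St) (s0 s1 s2 r0 r1 r2 p0 p1 p2 : List ℤ) : Bool :=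
  decide (0 < c.dn) && decide (0 < c.dd) &&
  decide (res1 c p0 r0 + res1 c p1 r1 + res1 c p2 r2 ≤ c.R1 * c.dn) &&
  decide (res2 c r0 s0 + res2 c r1 s1 + res2 c r2 s2 ≤ c.R2 * c.dn * (c.dd : ℤ) ^ 9) &&
  decide (res3 c s0 B.a c.w0 + res3 c s1 B.b c.w1 + res3 c s2 B.c c.w2 ≤ c.R3 * (2 * c.dn)) &&
  decide (pabs (psub (pmul c.w0 (phiP c p0)) (psm ((c.dn : ℤ) ^ 10 * ONE * ONE) (ppow c.N 10))) ≤
    c.S0 * (c.dd : ℤ) ^ 10 * ONE) &&
  decide (pabs (psub (pmul c.w1 (phiP c p0)) (psm ((c.dd : ℤ) ^ 10) (pmul c.w0 p1))) +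
    pabs (psub (pmul c.w2 (phiP c p0)) (psm ((c.dd : ℤ) ^ 10) (pmul c.w0 p2))) ≤
    c.S12 * (c.dd : ℤ) ^ 10 * ONE) &&
  decide (pabs p1 + pabs p2 ≤ c.P) && decide (pabs (pder c.w0) ≤ c.L) &&
  decide (st'.p = ⟨pone p0, pone p1, pone p2⟩) && decide (st'.r = ⟨pone r0, pone r1, pone r2⟩) &&
  decide (st'.s = ⟨pone s0, pone s1, pone s2⟩)

def chkPoly2 (c : Pc) (B : V3) (st st' : St) (s0 s1 s2 r0 r1 r2 : List ℤ) : Bool :=
  chkPoly3 c B st' s0 s1 s2 r0 r1 r2 (pP c st.p.a r0) (pP c st.p.b r1) (pP c st.p.c r2)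
def chkPoly1 (c : Pc) (B : V3) (st st' : St) (s0 s1 s2 : List ℤ) : Bool :=
  chkPoly2 c B st st' s0 s1 s2 (rP c st.r.a s0) (rP c st.r.b s1) (rP c st.r.c s2)
def chkPoly (c : Pc) (B : V3) (st st' : St) : Bool :=
  chkPoly1 c B st st' (sP c st.s.a B.a c.w0) (sP c st.s.b B.b c.w1) (sP c st.s.c B.c c.w2)

/-- node number `i` of the `m` sub-steps -/
def node (c : Pc) (m i : ℕ) : ℚ := (c.dn : ℚ) / c.dd * (c.N + (i : ℚ) / m)
/-- lower bound of `w0` and upper bound of `w0 (1 + 2^-20)` on sub-step `i`, rounded to `2^-24` -/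
def wLo (c : Pc) (m i : ℕ) : ℚ := (⌊(pevq c.w0 ((i : ℚ) / m) - c.L / m) / ONE * 2 ^ 24⌋ : ℤ) / 2 ^ 24
def wHi (c : Pc) (m i : ℕ) : ℚ :=
  (⌈(pevq c.w0 ((i : ℚ) / m) + c.L / m) / ONE * (1 + 1 / 2 ^ 20) * 2 ^ 24⌉ : ℤ) / 2 ^ 24

def subLoop (c : Pc) (m : ℕ) (ef : V3) : ℕ → V3 → List V3 → Bool
  | i, e, [] => decide (i = m) && decide (e = ef)
  | i, e, w :: l =>
    decide (i < m) && numOK (node c m i) (node c m (i + 1)) (wLo c m i) (wHi c m i)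
      (e.a / ONE) (e.b / ONE) (e.c / ONE) (w.a / ONE) (w.b / ONE) (w.c / ONE)
      (c.R1 / ONE) (c.R2 / ONE) (c.R3 / ONE) (c.S0 / ONE) (c.S12 / ONE) (c.P / ONE) &&
    subLoop c m ef (i + 1) w l

def chkSubs (c : Pc) (st st' : St) : Bool :=
  decide (0 < c.subs.length) && subLoop c c.subs.length st'.e 0 st.e c.subs

/-- real function on the piece attached to a list -/
noncomputable def Pc.fn (c : Pc) (l : List ℤ) (y : ℝ) : ℝ := pev l (y * c.dd / c.dn - c.N) / ONE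
noncomputable def Pc.fn3 (c : Pc) (x1 x2 : ℝ) (l0 l1 l2 : List ℤ) (y : ℝ) : ℝ :=
  c.fn l0 y + x1 * c.fn l1 y + x2 * c.fn l2 y

lemma chka_ONE : (0 : ℝ) < ONE := by norm_num [ONE]

lemma chka_u {c : Pc} (hn : 0 < c.dn) (hd : 0 < c.dd) {y a b : ℝ}
    (hy : y ∈ Icc ((c.dn : ℝ) / c.dd * (c.N + a)) ((c.dn : ℝ) / c.dd * (c.N + b))) :
    y * c.dd / c.dn - c.N ∈ Icc a b := by
  have hn' : (0 : ℝ) < c.dn := by exact_mod_cast hn
  have hd' : (0 : ℝ) < c.dd := by exact_mod_cast hd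
  obtain ⟨h1, h2⟩ := hy
  rw [div_mul_eq_mul_div, div_le_iff₀ hd'] at h1
  rw [div_mul_eq_mul_div, le_div_iff₀ hd'] at h2
  exact ⟨by rw [le_sub_iff_add_le, le_div_iff₀ hn']; linarith,
    by rw [sub_le_iff_le_add, div_le_iff₀ hn']; linarith⟩

lemma chka_der (c : Pc) (l : List ℤ) (y : ℝ) :
    HasDerivAt (c.fn l) (pev (pder l) (y * c.dd / c.dn - c.N) * (c.dd / c.dn) / ONE) y := by
  have h : HasDerivAt (fun y : ℝ => y * c.dd / c.dn - c.N) (c.dd / c.dn) y := by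
    simpa using (((hasDerivAt_id y).mul_const (c.dd : ℝ)).div_const (c.dn : ℝ)).sub_const (c.N : ℝ)
  exact ((hasDerivAt_pev l _).comp y h).div_const _

lemma chka_der3 (c : Pc) (x1 x2 : ℝ) (l0 l1 l2 : List ℤ) (y : ℝ) :
    HasDerivAt (c.fn3 x1 x2 l0 l1 l2) (pev (pder l0) (y * c.dd / c.dn - c.N) * (c.dd / c.dn) / ONE +
      x1 * (pev (pder l1) (y * c.dd / c.dn - c.N) * (c.dd / c.dn) / ONE) +
      x2 * (pev (pder l2) (y * c.dd / c.dn - c.N) * (c.dd / c.dn) / ONE)) y :=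
  ((chka_der c l0 y).add ((chka_der c l1 y).const_mul x1)).add ((chka_der c l2 y).const_mul x2)

lemma chka_div {A E K : ℝ} {R : ℤ} (hK : 0 < K) (h : A ≤ R * K) (hE : E * (K * ONE) ≤ A) :
    E ≤ ((R / ONE : ℚ) : ℝ) := by
  push_cast
  rw [le_div_iff₀ chka_ONE]
  nlinarith

lemma chka_comb {l0 l1 l2 : List ℤ} {x1 x2 u E K : ℝ} {R : ℤ} (hx1 : |x1| ≤ 1) (hx2 : |x2| ≤ 1)
    (hu : |u| ≤ 1) (hK : 0 < K) (h : (pabs l0 + pabs l1 + pabs l2 : ℝ) ≤ R * K)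
    (hE : E * (K * ONE) = pev l0 u + x1 * pev l1 u + x2 * pev l2 u) : |E| ≤ ((R / ONE : ℚ) : ℝ) := by
  refine chka_div hK h ?_
  rw [← abs_of_pos (mul_pos hK chka_ONE), ← abs_mul, hE]
  refine (abs_add_three _ _ _).trans ?_
  rw [abs_mul, abs_mul]
  have h0 := abs_pev_le l0 hu
  have h1 := abs_pev_le l1 hu
  have h2 := abs_pev_le l2 hu
  nlinarith [abs_nonneg (pev l1 u), abs_nonneg (pev l2 u)]

lemma chka_one {l : List ℤ} {u E K : ℝ} (hu : |u| ≤ 1) (hK : 0 < K) (hE : E * (K * ONE) = pev l u) :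
    |E| * (K * ONE) ≤ pabs l := by
  rw [← abs_of_pos (mul_pos hK chka_ONE), ← abs_mul, hE]
  exact abs_pev_le l hu

/-- `pev_*`, `abs_pev_le`, chain rule; `y = (dn/dd) (N + u)` with `u ∈ [0,1]` -/
lemma chkPoly3_sound {c : Pc} {B : V3} {st' : St} {s0 s1 s2 r0 r1 r2 p0 p1 p2 : List ℤ}
    (h : chkPoly3 c B st' s0 s1 s2 r0 r1 r2 p0 p1 p2 = true) {x1 x2 : ℝ} (hx1 : |x1| ≤ 1)
    (hx2 : |x2| ≤ 1) :
    PcOK (B.val x1 x2) x1 x2 ((c.dn : ℝ) / c.dd * c.N) ((c.dn : ℝ) / c.dd * (c.N + 1))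
      (c.fn3 x1 x2 p0 p1 p2) (c.fn3 x1 x2 r0 r1 r2) (c.fn3 x1 x2 s0 s1 s2)
      (c.fn p0) (c.fn p1) (c.fn p2) (c.fn c.w0) (c.fn c.w1) (c.fn c.w2)
      ((c.R1 / ONE : ℚ) : ℝ) ((c.R2 / ONE : ℚ) : ℝ) ((c.R3 / ONE : ℚ) : ℝ) ((c.S0 / ONE : ℚ) : ℝ)
      ((c.S12 / ONE : ℚ) : ℝ) ((c.P / ONE : ℚ) : ℝ) := by
  simp only [chkPoly3, Bool.and_eq_true, decide_eq_true_eq] at h
  obtain ⟨⟨⟨⟨⟨⟨⟨⟨⟨⟨⟨hn, hd⟩, h1⟩, h2⟩, h3⟩, h4⟩, h5⟩, h6⟩, -⟩, -⟩, -⟩, -⟩ := h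
  have hn' : (0 : ℝ) < c.dn := by exact_mod_cast hn
  have hd' : (0 : ℝ) < c.dd := by exact_mod_cast hd
  have hO := chka_ONE
  have hu : ∀ y ∈ Icc ((c.dn : ℝ) / c.dd * c.N) ((c.dn : ℝ) / c.dd * (c.N + 1)),
      |y * c.dd / c.dn - c.N| ≤ 1 := fun y hy => by
    have := chka_u hn hd (a := 0) (b := 1) (y := y) (by simpa using hy)
    exact abs_le.2 ⟨by linarith [this.1], this.2⟩
  refine ⟨fun _ => rfl, fun y hy => ⟨_, chka_der3 .., ?_⟩, fun y hy => ⟨_, chka_der3 .., ?_⟩,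
    fun y hy => ⟨_, chka_der3 .., ?_⟩, fun y hy => ?_, fun y hy => ?_, fun y hy => ?_⟩
  · refine chka_comb hx1 hx2 (hu y hy) hn' (by exact_mod_cast h1) ?_
    simp only [pev_psub, pev_psm, Pc.fn3, Pc.fn]
    push_cast
    field_simp
    ring
  · refine chka_comb hx1 hx2 (hu y hy) (mul_pos hn' (pow_pos hd' 9))
      (by rw [← mul_assoc]; exact_mod_cast h2) ?_
    simp only [pev_psub, pev_psm, pev_pmul, pev_ppow, Pc.fn3, Pc.fn]
    push_cast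
    rw [add_sub_cancel]
    field_simp
    ring
  · refine chka_comb hx1 hx2 (hu y hy) (mul_pos two_pos hn') (by exact_mod_cast h3) ?_
    simp only [pev_psub, pev_psm, pev_cons, pev_nil, Pc.fn, V3.val]
    push_cast
    field_simp
    ring
  · refine chka_div (mul_pos (pow_pos hd' 10) hO) (by rw [← mul_assoc]; exact_mod_cast h4)
      (chka_one (hu y hy) (mul_pos (pow_pos hd' 10) hO) ?_)
    simp only [phiP, pev_psub, pev_psm, pev_pmul, pev_ppow, Pc.fn]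
    push_cast
    rw [add_sub_cancel]
    field_simp
  · have h5' := (Int.cast_le (R := ℝ)).2 h5
    rw [Int.cast_add] at h5'
    refine chka_div (mul_pos (pow_pos hd' 10) hO) (h5'.trans_eq (by push_cast; ring)) ?_
    rw [add_mul]
    refine add_le_add (chka_one (hu y hy) (mul_pos (pow_pos hd' 10) hO) ?_)
      (chka_one (hu y hy) (mul_pos (pow_pos hd' 10) hO) ?_) <;>
    · simp only [phiP, pev_psub, pev_psm, pev_pmul, pev_ppow, Pc.fn]
      push_cast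
      rw [add_sub_cancel]
      field_simp
  · have h6' := (Int.cast_le (R := ℝ)).2 h6
    rw [Int.cast_add] at h6'
    refine chka_div one_pos (h6'.trans_eq (mul_one _).symm) ?_
    rw [add_mul]
    refine add_le_add (chka_one (hu y hy) one_pos ?_) (chka_one (hu y hy) one_pos ?_) <;>
    · simp only [Pc.fn]
      field_simp

/-- `pev_lip`, `pevq_cast`, `Int.floor_le`, `Int.le_ceil` -/
lemma w_range {c : Pc} (hn : 0 < c.dn) (hd : 0 < c.dd) (hL : pabs (pder c.w0) ≤ c.L) {m i : ℕ}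
    (hi : i < m) : ∃ whi : ℝ, whi * (1 + 1 / 2 ^ 20) ≤ wHi c m i ∧
      ∀ y ∈ Icc (node c m i : ℝ) (node c m (i + 1) : ℝ), wLo c m i ≤ c.fn c.w0 y ∧ c.fn c.w0 y ≤ whi := by
  have hm : (0 : ℝ) < m := by exact_mod_cast (Nat.zero_le i).trans_lt hi
  have him : (i : ℝ) + 1 ≤ m := by exact_mod_cast hi
  have hO := chka_ONE
  refine ⟨(pev c.w0 (i / m) + c.L / m) / ONE, ?_, fun y hy => ?_⟩
  · have := Int.le_ceil ((pevq c.w0 ((i : ℚ) / m) + c.L / m) / ONE * (1 + 1 / 2 ^ 20) * 2 ^ 24)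
    rw [← le_div_iff₀ (by norm_num), ← Rat.cast_le (K := ℝ)] at this
    refine le_trans (le_of_eq ?_) this
    push_cast [pevq_cast]
    rfl
  · have hu := chka_u hn hd (a := i / m) (b := (i + 1) / m) (y := y) (by simpa [node] using hy)
    have h0 : (0 : ℝ) ≤ i / m := by positivity
    have h1 : ((i : ℝ) + 1) / m ≤ 1 := by rwa [div_le_one hm]
    have h2 := pev_lip c.w0 ⟨h0.trans hu.1, hu.2.trans h1⟩ ⟨h0, hu.1.trans (hu.2.trans h1)⟩
    have h3 : |y * c.dd / c.dn - c.N - i / m| ≤ 1 / m := by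
      rw [abs_of_nonneg (sub_nonneg.2 hu.1), sub_le_iff_le_add', ← add_div]
      exact hu.2
    have h4 : (0 : ℝ) ≤ pabs (pder c.w0) := (abs_nonneg _).trans (abs_pev_le _ (u := 0) (by simp))
    have h5 : (pabs (pder c.w0) : ℝ) ≤ c.L := by exact_mod_cast hL
    have h6 := abs_le.1 (h2.trans (mul_le_mul h5 h3 (abs_nonneg _) (h4.trans h5)))
    rw [mul_one_div] at h6
    refine ⟨?_, div_le_div_of_nonneg_right (by linarith [h6.2]) hO.le⟩
    have := Int.floor_le ((pevq c.w0 ((i : ℚ) / m) - c.L / m) / ONE * 2 ^ 24)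
    rw [← div_le_iff₀ (by norm_num), ← Rat.cast_le (K := ℝ)] at this
    refine this.trans ?_
    push_cast [pevq_cast]
    exact div_le_div_of_nonneg_right (by linarith [h6.1]) hO.le

def bInv (S pt rt st : ℝ → ℝ) (y : ℝ) (e : V3) : Prop :=
  (∀ t ∈ Icc 0 y, Rng t (FF S t)) ∧ |pp S y - pt y| ≤ e.a / ONE ∧
    |rr S y - rt y| ≤ e.b / ONE ∧ |S y - st y| ≤ e.c / ONE

lemma b_loop {c : Pc} {m : ℕ} {ef : V3} {a b x1 x2 : ℝ} {S pt rt st p0 p1 p2 : ℝ → ℝ} (hS : IsSol a b S)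
    (hx1 : |x1| ≤ 1) (hx2 : |x2| ≤ 1)
    (hp : PcOK b x1 x2 ((c.dn : ℝ) / c.dd * c.N) ((c.dn : ℝ) / c.dd * (c.N + 1)) pt rt st p0 p1 p2
      (c.fn c.w0) (c.fn c.w1) (c.fn c.w2)
      ((c.R1 / ONE : ℚ) : ℝ) ((c.R2 / ONE : ℚ) : ℝ) ((c.R3 / ONE : ℚ) : ℝ) ((c.S0 / ONE : ℚ) : ℝ)
      ((c.S12 / ONE : ℚ) : ℝ) ((c.P / ONE : ℚ) : ℝ))
    (hn : 0 < c.dn) (hd : 0 < c.dd) (hL : pabs (pder c.w0) ≤ c.L) (l : List V3) :
    ∀ (i : ℕ) (e : V3), subLoop c m ef i e l = true → bInv S pt rt st (node c m i) e →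
      bInv S pt rt st (node c m m) ef := by
  induction l with
  | nil =>
    intro i e h hI
    simp only [subLoop, Bool.and_eq_true, decide_eq_true_eq] at h
    obtain ⟨rfl, rfl⟩ := h
    exact hI
  | cons w l ih =>
    intro i e h hI
    simp only [subLoop, Bool.and_eq_true, decide_eq_true_eq] at h
    obtain ⟨⟨hi, hnum⟩, hl⟩ := h
    refine ih (i + 1) w hl ?_
    obtain ⟨whi, hH, hw⟩ := w_range hn hd hL hi
    have hm : (0 : ℝ) < m := by exact_mod_cast (Nat.zero_le i).trans_lt hi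
    have h0 : (c.dn : ℝ) / c.dd * c.N ≤ node c m i := by
      simp only [node]
      push_cast
      exact mul_le_mul_of_nonneg_left (le_add_of_nonneg_right (by positivity)) (by positivity)
    have h1 : (node c m (i + 1) : ℝ) ≤ (c.dn : ℝ) / c.dd * (c.N + 1) := by
      simp only [node]
      push_cast
      refine mul_le_mul_of_nonneg_left (add_le_add_right ((div_le_one hm).2 ?_) _) (by positivity)
      exact_mod_cast hi
    obtain ⟨j0, j1, j2, j3⟩ := sub_step hS hx1 hx2 hp h0 h1 hw hH hnum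
      (by push_cast; exact hI.2.1) (by push_cast; exact hI.2.2.1) (by push_cast; exact hI.2.2.2)
    push_cast at j1 j2 j3
    refine ⟨fun t ht => ?_, j1, j2, j3⟩
    rcases le_total t (node c m i) with h | h
    · exact hI.1 t ⟨ht.1, h⟩
    · exact j0 t ⟨h, ht.2⟩

lemma b_fn0 {c : Pc} (hn : 0 < c.dn) (hd : 0 < c.dd) (l : List ℤ) :
    c.fn l ((c.dn : ℝ) / c.dd * c.N) = pev l 0 / ONE := by
  have h1 : (c.dn : ℝ) ≠ 0 := by positivity
  have h2 : (c.dd : ℝ) ≠ 0 := by positivity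
  unfold Pc.fn
  congr 2
  field_simp
  ring

lemma b_fn1 {c : Pc} (hn : 0 < c.dn) (hd : 0 < c.dd) (l : List ℤ) :
    c.fn l ((c.dn : ℝ) / c.dd * (c.N + 1)) = pone l / ONE := by
  have h1 : (c.dn : ℝ) ≠ 0 := by positivity
  have h2 : (c.dd : ℝ) ≠ 0 := by positivity
  unfold Pc.fn
  rw [← pev_one]
  congr 2
  field_simp
  ring

/-- Induction on the list of sub-steps with `sub_step`; at the ends `Pc.fn3` takes the values
`st.p.val`, ... (`pev_pint_zero`) and `st'.p.val`, ... (`pev_one`). -/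
theorem piece_sound {c : Pc} {B : V3} {st st' : St} (h1 : chkPoly c B st st' = true)
    (h2 : chkSubs c st st' = true) {a x1 x2 y y' : ℝ} {S : ℝ → ℝ} (hx1 : |x1| ≤ 1) (hx2 : |x2| ≤ 1)
    (hS : IsSol a (B.val x1 x2) S) (hy : y = (c.dn : ℝ) / c.dd * c.N)
    (hy' : y' = (c.dn : ℝ) / c.dd * (c.N + 1)) (h : Inv S x1 x2 y st) : Inv S x1 x2 y' st' := by
  subst hy hy'
  unfold chkPoly chkPoly1 chkPoly2 at h1
  have hp := chkPoly3_sound h1 hx1 hx2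
  simp only [chkPoly3, Bool.and_eq_true, decide_eq_true_eq] at h1
  obtain ⟨⟨⟨⟨⟨⟨⟨⟨⟨⟨⟨hn, hd⟩, -⟩, -⟩, -⟩, -⟩, -⟩, -⟩, hL⟩, e1⟩, e2⟩, e3⟩ := h1
  simp only [chkSubs, Bool.and_eq_true, decide_eq_true_eq] at h2
  have hm : (c.subs.length : ℝ) ≠ 0 := by exact_mod_cast h2.1.ne'
  have n0 : (node c c.subs.length 0 : ℝ) = (c.dn : ℝ) / c.dd * c.N := by simp [node]
  have n1 : (node c c.subs.length c.subs.length : ℝ) = (c.dn : ℝ) / c.dd * (c.N + 1) := by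
    simp only [node]
    push_cast
    rw [div_self hm]
  have v : ∀ (a b d : ℤ), (a : ℝ) / ONE + x1 * (b / ONE) + x2 * (d / ONE) = (a + x1 * b + x2 * d) / ONE :=
    fun a b d => by ring
  have := b_loop hS hx1 hx2 hp hn hd hL _ 0 st.e h2.2 (by
    rw [n0]
    simp only [bInv, Pc.fn3, b_fn0 hn hd, pP, rP, sP, pev_pint_zero, v]
    exact h)
  rw [n1] at this
  simp only [bInv, Pc.fn3, b_fn1 hn hd, v] at this
  simp only [Inv, e1, e2, e3, V3.val]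
  exact this

/-! The first piece `[0,1]` (`y = u`); only `w0 w1 w2 R1 R2 R3 S0 S12 P L` of the record are used, and
`dn = dd = 1`. -/

def chkFirst1 (c : Pc) (B : V3) (st' : St) (s0 s1 s2 r0 r1 r2 g0 g1 g2 : List ℤ) : Bool :=
  decide (c.dn = 1) && decide (c.dd = 1) &&
  decide (pabs (psub (pderA 10 (pderA 11 g0)) s0) + pabs (psub (pderA 10 (pderA 11 g1)) s1) +
    pabs (psub (pderA 10 (pderA 11 g2)) s2) ≤ c.R1) &&
  decide (pabs (psub (pderA 10 r0) s0) + pabs (psub (pderA 10 r1) s1) +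
    pabs (psub (pderA 10 r2) s2) ≤ c.R2) &&
  decide (res3 c s0 B.a c.w0 + res3 c s1 B.b c.w1 + res3 c s2 B.c c.w2 ≤ c.R3 * 2) &&
  decide (pabs (psub (pmul c.w0 (psub [ONE] (0 :: g0))) [ONE * ONE]) ≤ c.S0 * ONE) &&
  decide (pabs (psub (pmul c.w1 (psub [ONE] (0 :: g0))) (pmul c.w0 (0 :: g1))) +
    pabs (psub (pmul c.w2 (psub [ONE] (0 :: g0))) (pmul c.w0 (0 :: g2))) ≤ c.S12 * ONE) &&
  decide (pabs g1 + pabs g2 ≤ c.P) && decide (pabs (pder c.w0) ≤ c.L) && decide (c.N = 0) &&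
  decide (st'.p = ⟨pone g0, pone g1, pone g2⟩) && decide (st'.r = ⟨pone r0, pone r1, pone r2⟩) &&
  decide (st'.s = ⟨pone s0, pone s1, pone s2⟩) &&
  rngOK 1 (wLo c 1 0) (wHi c 1 0) && decide (0 ≤ st'.e.c) && decide ((c.S0 / ONE : ℚ) ≤ 1 / 2 ^ 30) &&
  decide ((c.P / ONE + st'.e.a / ONE : ℚ) ≤ 1 / 2 ^ 30) &&
  decide (((st'.e.c / ONE + c.R1 / ONE) / 110 : ℚ) ≤ st'.e.a / ONE) &&
  decide (((st'.e.c / ONE + c.R2 / ONE) / 10 : ℚ) ≤ st'.e.b / ONE) &&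
  decide ((wHi c 1 0 ^ 2 / 2 * (st'.e.a / ONE) + (c.R3 / ONE + ((c.P / ONE + st'.e.a / ONE) ^ 2 *
    wHi c 1 0 ^ 3 + (c.S0 / ONE + c.S12 / ONE) * wHi c 1 0 + c.P / ONE * (c.S0 / ONE) * wHi c 1 0 ^ 2) / 2)
    : ℚ) < st'.e.c / ONE)

def chkFirst0 (c : Pc) (B : V3) (st' : St) (s0 s1 s2 r0 r1 r2 : List ℤ) : Bool :=
  chkFirst1 c B st' s0 s1 s2 r0 r1 r2 (pdivA 1 1 11 r0) (pdivA 1 1 11 r1) (pdivA 1 1 11 r2)
def chkFirst (c : Pc) (A B : V3) (st' : St) : Bool :=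
  chkFirst0 c B st' (sP c A.a B.a c.w0) (sP c A.b B.b c.w1) (sP c A.c B.c c.w2)
    (pdivA 1 1 10 (sP c A.a B.a c.w0)) (pdivA 1 1 10 (sP c A.b B.b c.w1))
    (pdivA 1 1 10 (sP c A.c B.c c.w2))

lemma Chkc_lin {ω f0 f1 f2 : ℝ → ℝ} (hω : Continuous ω) (h0 : Continuous f0) (h1 : Continuous f1)
    (h2 : Continuous f2) (x1 x2 O y : ℝ) :
    ∫ s in (0:ℝ)..1, ω s * ((f0 (s * y) + x1 * f1 (s * y) + x2 * f2 (s * y)) / O) =
      ((∫ s in (0:ℝ)..1, ω s * f0 (s * y)) + x1 * (∫ s in (0:ℝ)..1, ω s * f1 (s * y))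
        + x2 * ∫ s in (0:ℝ)..1, ω s * f2 (s * y)) / O := by
  have c0 : Continuous fun s => ω s * f0 (s * y) := by fun_prop
  have c1 : Continuous fun s => x1 * (ω s * f1 (s * y)) := by fun_prop
  have c2 : Continuous fun s => x2 * (ω s * f2 (s * y)) := by fun_prop
  rw [← intervalIntegral.integral_const_mul, ← intervalIntegral.integral_const_mul,
    ← intervalIntegral.integral_add (c0.intervalIntegrable _ _) (c1.intervalIntegrable _ _),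
    ← intervalIntegral.integral_add ((c0.fun_add c1).intervalIntegrable _ _) (c2.intervalIntegrable _ _),
    ← intervalIntegral.integral_div]
  refine intervalIntegral.integral_congr fun s _ => ?_
  ring

lemma Chkc_abs3 (l0 l1 l2 : List ℤ) {x1 x2 u : ℝ} (hx1 : |x1| ≤ 1) (hx2 : |x2| ≤ 1) (hu : |u| ≤ 1) :
    |pev l0 u + x1 * pev l1 u + x2 * pev l2 u| ≤ ((pabs l0 + pabs l1 + pabs l2 : ℤ) : ℝ) := by
  have a0 := abs_pev_le l0 hu
  have a1 := abs_pev_le l1 hu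
  have a2 := abs_pev_le l2 hu
  have b1 : |x1 * pev l1 u| ≤ |pev l1 u| := by
    rw [abs_mul]; exact mul_le_of_le_one_left (abs_nonneg _) hx1
  have b2 : |x2 * pev l2 u| ≤ |pev l2 u| := by
    rw [abs_mul]; exact mul_le_of_le_one_left (abs_nonneg _) hx2
  have := abs_add_three (pev l0 u) (x1 * pev l1 u) (x2 * pev l2 u)
  push_cast
  linarith

lemma Chkc_first1 {c : Pc} {B : V3} {st' : St} {s0 s1 s2 r0 r1 r2 g0 g1 g2 : List ℤ}
    (h : chkFirst1 c B st' s0 s1 s2 r0 r1 r2 g0 g1 g2 = true) {a x1 x2 : ℝ} {S : ℝ → ℝ}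
    (hx1 : |x1| ≤ 1) (hx2 : |x2| ≤ 1) (hS : IsSol a (B.val x1 x2) S)
    (h0 : (pev s0 0 + x1 * pev s1 0 + x2 * pev s2 0) / ONE = a) : Inv S x1 x2 1 st' := by
  simp only [chkFirst1, Bool.and_eq_true, decide_eq_true_eq] at h
  obtain ⟨⟨⟨⟨⟨⟨⟨⟨⟨⟨⟨⟨⟨⟨⟨⟨⟨⟨⟨hdn, hdd⟩, k1⟩, k2⟩, k3⟩, k4⟩, k5⟩, k6⟩, kL⟩, hN⟩, ep⟩, er⟩, es⟩, krng⟩,
    n0⟩, n1⟩, n2⟩, n3⟩, n4⟩, n5⟩ := h
  have hO : (0 : ℝ) < ONE := by norm_num [ONE]
  have hOq : (0 : ℚ) < ONE := by norm_num [ONE]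
  have hy1 : ∀ y ∈ Icc (0:ℝ) 1, |y| ≤ 1 := fun y hy => by rw [abs_of_nonneg hy.1]; exact hy.2
  have hcast : ∀ z : ℤ, (((z : ℚ) / ONE : ℚ) : ℝ) = (z : ℝ) / ONE := fun z => by push_cast; rfl
  obtain ⟨whi, hH, hw⟩ := w_range (c := c) (by omega) (by omega) kL (m := 1) (i := 0) one_pos
  have nd0 : (node c 1 0 : ℝ) = 0 := by simp [node, hN]
  have nd1 : (node c 1 (0 + 1) : ℝ) = 1 := by simp [node, hN, hdn, hdd]
  have hfn : ∀ y, c.fn c.w0 y = pev c.w0 y / ONE := fun y => by simp [Pc.fn, hN, hdn, hdd]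
  rw [nd0, nd1] at hw
  simp only [hfn] at hw
  have hKg : ∀ y, Kg (fun y => (pev (pderA 10 (pderA 11 g0)) y + x1 * pev (pderA 10 (pderA 11 g1)) y
      + x2 * pev (pderA 10 (pderA 11 g2)) y) / ONE) y =
      (pev g0 y + x1 * pev g1 y + x2 * pev g2 y) / ONE := fun y => by
    rw [← Kg_pderA g0, ← Kg_pderA g1, ← Kg_pderA g2]
    exact Chkc_lin (ω := fun s => s ^ 9 - s ^ 10) (by fun_prop) (continuous_pev _) (continuous_pev _)
      (continuous_pev _) x1 x2 _ y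
  have hKr : ∀ y, Kr (fun y => (pev (pderA 10 r0) y + x1 * pev (pderA 10 r1) y
      + x2 * pev (pderA 10 r2) y) / ONE) y =
      (pev r0 y + x1 * pev r1 y + x2 * pev r2 y) / ONE := fun y => by
    rw [← Kr_pderA r0, ← Kr_pderA r1, ← Kr_pderA r2]
    exact Chkc_lin (ω := fun s => s ^ 9) (by fun_prop) (continuous_pev _) (continuous_pev _)
      (continuous_pev _) x1 x2 _ y
  have cont : ∀ l0 l1 l2 : List ℤ,
      Continuous fun y => (pev l0 y + x1 * pev l1 y + x2 * pev l2 y) / (ONE : ℝ) := fun l0 l1 l2 => by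
    have := continuous_pev l0
    have := continuous_pev l1
    have := continuous_pev l2
    fun_prop
  have dif : ∀ (l0 l1 l2 : List ℤ) (R : ℤ),
      pabs (psub l0 s0) + pabs (psub l1 s1) + pabs (psub l2 s2) ≤ R → ∀ y ∈ Icc (0:ℝ) 1,
      |(pev l0 y + x1 * pev l1 y + x2 * pev l2 y) / (ONE : ℝ)
        - (pev s0 y + x1 * pev s1 y + x2 * pev s2 y) / ONE| ≤ (((R : ℚ) / ONE : ℚ) : ℝ) := by
    intro l0 l1 l2 R hR y hy
    have a1 := (Chkc_abs3 (psub l0 s0) (psub l1 s1) (psub l2 s2) hx1 hx2 (hy1 y hy)).trans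
      (Int.cast_le.2 hR)
    simp only [pev_psub] at a1
    rw [hcast, ← sub_div, abs_div, abs_of_pos hO]
    refine div_le_div_of_nonneg_right (le_of_eq_of_le ?_ a1) hO.le
    congr 1; ring
  have key := first_step (S := S) (a := a) (b := B.val x1 x2) (x1 := x1) (x2 := x2)
    (st := fun y => (pev s0 y + x1 * pev s1 y + x2 * pev s2 y) / ONE)
    (hg := fun y => (pev (pderA 10 (pderA 11 g0)) y + x1 * pev (pderA 10 (pderA 11 g1)) y
      + x2 * pev (pderA 10 (pderA 11 g2)) y) / ONE)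
    (hr := fun y => (pev (pderA 10 r0) y + x1 * pev (pderA 10 r1) y + x2 * pev (pderA 10 r2) y) / ONE)
    (g0 := fun y => pev g0 y / ONE) (g1 := fun y => pev g1 y / ONE) (g2 := fun y => pev g2 y / ONE)
    (w0 := fun y => pev c.w0 y / ONE) (w1 := fun y => pev c.w1 y / ONE)
    (w2 := fun y => pev c.w2 y / ONE) (wlo := wLo c 1 0) (H := wHi c 1 0)
    (W1 := st'.e.a / ONE) (W2 := st'.e.b / ONE) (W3 := st'.e.c / ONE) (ρg := c.R1 / ONE)
    (ρr := c.R2 / ONE) (ρ3 := c.R3 / ONE) (S0 := c.S0 / ONE) (S12 := c.S12 / ONE) (P := c.P / ONE)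
    (whi := whi) hS hx1 hx2 (cont _ _ _) (cont _ _ _) h0 (fun y _ => by rw [hKg]; ring)
    (dif _ _ _ _ k1) (dif _ _ _ _ k2) ?_ ?_ ?_ ?_ hw hH krng
    (div_nonneg (by exact_mod_cast n0) hOq.le) n1 n2 n3 n4 n5
  · obtain ⟨q0, q1, q2, q3⟩ := key
    rw [hKg, hcast] at q1
    rw [hKr, hcast] at q2
    rw [hcast] at q3
    simp only [pev_one] at q1 q2 q3
    refine ⟨q0, ?_, ?_, ?_⟩
    · rw [ep]; exact q1
    · rw [er]; exact q2
    · rw [es]; exact q3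
  · intro y hy
    refine ⟨_, (((hasDerivAt_pev s0 y).add ((hasDerivAt_pev s1 y).const_mul x1)).add
      ((hasDerivAt_pev s2 y).const_mul x2)).div_const _, ?_⟩
    have a1 := (Chkc_abs3 _ _ _ hx1 hx2 (hy1 y hy)).trans (Int.cast_le.2 k3)
    simp only [pev_psub, pev_psm, pev_cons, pev_nil, hdn, hdd] at a1
    push_cast at a1
    have e : (pev (pder s0) y + x1 * pev (pder s1) y + x2 * pev (pder s2) y) / ONE -
        (B.val x1 x2 - (pev c.w0 y / ONE + x1 * (pev c.w1 y / ONE) + x2 * (pev c.w2 y / ONE)) / 2) =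
        (2 * pev (pder s0) y - 1 * (2 * B.a + y * 0 - pev c.w0 y) +
          x1 * (2 * pev (pder s1) y - 1 * (2 * B.b + y * 0 - pev c.w1 y)) +
          x2 * (2 * pev (pder s2) y - 1 * (2 * B.c + y * 0 - pev c.w2 y))) / (2 * ONE) := by
      unfold V3.val; field_simp; ring
    rw [hcast, e, abs_div, abs_of_pos (by positivity : (0:ℝ) < 2 * ONE), div_le_div_iff₀ (by positivity) hO]
    nlinarith
  · intro y hy
    have a1 := (abs_pev_le _ (hy1 y hy)).trans (Int.cast_le.2 k4)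
    simp only [pev_psub, pev_pmul, pev_cons, pev_nil] at a1
    push_cast at a1
    have e : (1 - y * (pev g0 y / ONE)) * (pev c.w0 y / ONE) - 1 =
        (pev c.w0 y * (ONE + y * 0 - (0 + y * pev g0 y)) - (ONE * ONE + y * 0)) / (ONE * ONE) := by
      field_simp; ring
    rw [hcast, e, abs_div, abs_of_pos (by positivity : (0:ℝ) < ONE * ONE),
      div_le_div_iff₀ (by positivity) hO]
    nlinarith
  · intro y hy
    have a1 := abs_pev_le (psub (pmul c.w1 (psub [ONE] (0 :: g0))) (pmul c.w0 (0 :: g1))) (hy1 y hy)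
    have a2 := abs_pev_le (psub (pmul c.w2 (psub [ONE] (0 :: g0))) (pmul c.w0 (0 :: g2))) (hy1 y hy)
    have a3 : _ ≤ ((c.S12 * ONE : ℤ) : ℝ) := Int.cast_le.2 k5
    simp only [pev_psub, pev_pmul, pev_cons, pev_nil] at a1 a2
    push_cast at a1 a2 a3
    have e : ∀ w g : ℝ, (1 - y * (pev g0 y / ONE)) * (w / ONE) - y * (g / ONE) * (pev c.w0 y / ONE) =
        (w * (ONE + y * 0 - (0 + y * pev g0 y)) - pev c.w0 y * (0 + y * g)) / (ONE * ONE) := by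
      intro w g; field_simp; ring
    rw [hcast, e, e, abs_div, abs_div, abs_of_pos (by positivity : (0:ℝ) < ONE * ONE), ← add_div,
      div_le_div_iff₀ (by positivity) hO]
    nlinarith
  · intro y hy
    have a1 := abs_pev_le g1 (hy1 y hy)
    have a2 := abs_pev_le g2 (hy1 y hy)
    have a3 : _ ≤ ((c.P : ℤ) : ℝ) := Int.cast_le.2 k6
    push_cast at a3
    rw [hcast, abs_div, abs_div, abs_of_pos hO, ← add_div]
    exact div_le_div_of_nonneg_right (by linarith) hO.le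

/-- `first_step` with `st`, `hg`, `hr` the combinations `(pev l0 + x1 pev l1 + x2 pev l2)/ONE` of
`s_j`, `pderA 10 (pderA 11 g_j)`, `pderA 10 r_j`; linearity of `Kg`, `Kr`; `Kg_pderA`, `Kr_pderA`,
`w_range` (`m = 1`, `i = 0`) -/
theorem first_sound {c : Pc} {A B : V3} {st' : St} (h : chkFirst c A B st' = true) {x1 x2 : ℝ}
    {S : ℝ → ℝ} (hx1 : |x1| ≤ 1) (hx2 : |x2| ≤ 1) (hS : IsSol (A.val x1 x2) (B.val x1 x2) S) :
    Inv S x1 x2 1 st' := by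
  refine Chkc_first1 h hx1 hx2 hS ?_
  simp only [sP, pev_pint_zero, V3.val]

end Crest.Agent.R213.Ea
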