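import Crest.Agent.R213.Ea.Defs

/-! Row 213, shrinker: the cone lemma for perturbations of `X''' = -X`.
`u = X0 - X1 + X2`, `v = (X0 + X1, X1 + X2)`, `n = v1² - v1 v2 + v2²`.  Then
`X0 = (u + 2 v1 - v2)/3`, `X1 = (-u + v1 + v2)/3`, `X2 = (u - v1 + 2 v2)/3`, and
`(2 v1 - v2)², (v1 + v2)², (2 v2 - v1)² ≤ 4 n`, so `|X_i| ≤ μ` whenever `|u| ≤ μ`, `n ≤ μ²`.
`u' = w (-u + e2 - e1)`, `n' = w (n + (2 v1 - v2) e1 + (2 v2 - v1) (e1 + e2))`.  With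
`μ = √(max (u², n, R²))`: `n' ≥ w n/10` if `μ² = n`, `(u²)' ≤ -w u²` if `μ² = u²`. -/

set_option autoImplicit false
open Set Filter Topology

noncomputable section
namespace Crest.Agent.R213.Ea

def cu (x0 x1 x2 : ℝ) : ℝ := x0 - x1 + x2
def cn (x0 x1 x2 : ℝ) : ℝ := (x0 + x1) ^ 2 - (x0 + x1) * (x1 + x2) + (x1 + x2) ^ 2
def InCone (R x0 x1 x2 : ℝ) : Prop := R ^ 2 ≤ cn x0 x1 x2 ∧ cu x0 x1 x2 ^ 2 ≤ cn x0 x1 x2

structure ConeSys (Y0 Y1 Y2 w : ℝ → ℝ) (a R : ℝ) : Prop where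
  R_pos : 0 < R
  w_pos : ∀ y, a ≤ y → 0 < w y
  der : ∀ y, a ≤ y → ∃ e1 e2, HasDerivAt Y0 (w y * Y1 y) y ∧ HasDerivAt Y1 (w y * (Y2 y + e1)) y ∧
    HasDerivAt Y2 (w y * (-Y0 y + e2)) y ∧
    ∀ μ, |Y0 y| ≤ μ → |Y1 y| ≤ μ → |Y2 y| ≤ μ → R ≤ μ → 2 * |e1| + |e2| ≤ 9 / 20 * μ

variable {Y0 Y1 Y2 w : ℝ → ℝ} {a R : ℝ}

lemma a_v {x0 x1 x2 μ : ℝ} (hμ : 0 ≤ μ) (hn : cn x0 x1 x2 ≤ μ ^ 2) :
    |2 * (x0 + x1) - (x1 + x2)| ≤ 2 * μ ∧ |(x0 + x1) + (x1 + x2)| ≤ 2 * μ ∧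
      |2 * (x1 + x2) - (x0 + x1)| ≤ 2 * μ := by
  unfold cn at hn
  generalize x0 + x1 = p at *
  generalize x1 + x2 = q at *
  refine ⟨abs_le_of_sq_le_sq ?_ (by linarith), abs_le_of_sq_le_sq ?_ (by linarith),
    abs_le_of_sq_le_sq ?_ (by linarith)⟩
  · nlinarith [sq_nonneg q]
  · nlinarith [sq_nonneg (p - q)]
  · nlinarith [sq_nonneg p]

lemma a_coord {x0 x1 x2 μ : ℝ} (hμ : 0 ≤ μ) (hu : cu x0 x1 x2 ^ 2 ≤ μ ^ 2) (hn : cn x0 x1 x2 ≤ μ ^ 2) :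
    |x0| ≤ μ ∧ |x1| ≤ μ ∧ |x2| ≤ μ := by
  obtain ⟨h1, h2, h3⟩ := a_v hμ hn
  have h4 := abs_le_of_sq_le_sq hu hμ
  unfold cu at h4
  simp only [abs_le] at *
  refine ⟨⟨?_, ?_⟩, ⟨?_, ?_⟩, ?_, ?_⟩ <;> linarith [h1.1, h1.2, h2.1, h2.2, h3.1, h3.2, h4.1, h4.2]

/-- the derivatives of `u²` and `n` with their bounds -/
lemma ConeSys.a_der (h : ConeSys Y0 Y1 Y2 w a R) {y : ℝ} (hy : a ≤ y) : ∃ du dn,
    HasDerivAt (fun s => cu (Y0 s) (Y1 s) (Y2 s) ^ 2) du y ∧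
    HasDerivAt (fun s => cn (Y0 s) (Y1 s) (Y2 s)) dn y ∧
    (InCone R (Y0 y) (Y1 y) (Y2 y) → w y * cn (Y0 y) (Y1 y) (Y2 y) / 10 ≤ dn) ∧
    (cn (Y0 y) (Y1 y) (Y2 y) ≤ cu (Y0 y) (Y1 y) (Y2 y) ^ 2 → R ^ 2 ≤ cu (Y0 y) (Y1 y) (Y2 y) ^ 2 →
      du ≤ -(w y * cu (Y0 y) (Y1 y) (Y2 y) ^ 2)) := by
  obtain ⟨e1, e2, h0, h1, h2, he⟩ := h.der y hy
  have hw := h.w_pos y hy
  have hR := h.R_pos
  refine ⟨w y * (2 * cu (Y0 y) (Y1 y) (Y2 y) * (-cu (Y0 y) (Y1 y) (Y2 y) + (e2 - e1))),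
    w y * (cn (Y0 y) (Y1 y) (Y2 y) + (((Y0 y + Y1 y) + (Y1 y + Y2 y)) * e1 +
      (2 * (Y1 y + Y2 y) - (Y0 y + Y1 y)) * e2)), ?_, ?_, fun hc => ?_, fun hn hu => ?_⟩
  · refine (((h0.sub h1).add h2).pow 2).congr_deriv ?_
    simp only [cu, Pi.add_apply, Pi.sub_apply]
    norm_num
    ring
  · refine ((((h0.add h1).pow 2).sub ((h0.add h1).mul (h1.add h2))).add
      ((h1.add h2).pow 2)).congr_deriv ?_
    simp only [cn, Pi.add_apply]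
    norm_num
    ring
  · have hn0 : 0 ≤ cn (Y0 y) (Y1 y) (Y2 y) := (sq_nonneg R).trans hc.1
    obtain ⟨μ, hμ, e⟩ : ∃ μ, 0 ≤ μ ∧ μ ^ 2 = cn (Y0 y) (Y1 y) (Y2 y) :=
      ⟨_, Real.sqrt_nonneg _, Real.sq_sqrt hn0⟩
    obtain ⟨c0, c1, c2⟩ := a_coord hμ (hc.2.trans e.ge) e.ge
    obtain ⟨-, v2, v3⟩ := a_v hμ e.ge
    have h3 := he μ c0 c1 c2 ((pow_le_pow_iff_left₀ hR.le hμ two_ne_zero).1 (hc.1.trans e.ge))
    have h4 := neg_abs_le (((Y0 y + Y1 y) + (Y1 y + Y2 y)) * e1)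
    have h5 := neg_abs_le ((2 * (Y1 y + Y2 y) - (Y0 y + Y1 y)) * e2)
    rw [abs_mul] at h4 h5
    have h6 := mul_le_mul_of_nonneg_right v2 (abs_nonneg e1)
    have h7 := mul_le_mul_of_nonneg_right v3 (abs_nonneg e2)
    have h8 := mul_le_mul_of_nonneg_left h3 hμ
    have h9 := mul_nonneg hμ (abs_nonneg e1)
    rw [mul_div_assoc, ← e]
    exact mul_le_mul_of_nonneg_left (by nlinarith) hw.le
  · have e := sq_abs (cu (Y0 y) (Y1 y) (Y2 y))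
    have hμ := abs_nonneg (cu (Y0 y) (Y1 y) (Y2 y))
    obtain ⟨c0, c1, c2⟩ := a_coord hμ e.ge (hn.trans e.ge)
    have h3 := he _ c0 c1 c2 ((pow_le_pow_iff_left₀ hR.le hμ two_ne_zero).1 (hu.trans e.ge))
    have h4 := le_abs_self (cu (Y0 y) (Y1 y) (Y2 y) * (e2 - e1))
    rw [abs_mul] at h4
    have h5 := mul_le_mul_of_nonneg_left (abs_sub e2 e1) hμ
    have h8 := mul_le_mul_of_nonneg_left h3 hμ
    have h9 := mul_nonneg hμ (abs_nonneg e1)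
    rw [← mul_neg]
    exact mul_le_mul_of_nonneg_left (by nlinarith) hw.le

lemma a_right {f : ℝ → ℝ} {f' x : ℝ} (hf : HasDerivAt f f' x) (h0 : 0 ≤ f x) (h1 : f x = 0 → 0 < f') :
    ∀ᶠ z in 𝓝[>] x, 0 ≤ f z := by
  rcases h0.eq_or_lt with h | h
  · have h2 := (hasDerivAt_iff_tendsto_slope_left_right.1 hf).2.eventually (lt_mem_nhds (h1 h.symm))
    filter_upwards [h2, self_mem_nhdsWithin] with z hz hxz
    rw [slope_def_field, ← h, sub_zero] at hz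
    exact ((div_pos_iff_of_pos_right (sub_pos.2 hxz)).1 hz).le
  · exact nhdsWithin_le_nhds ((hf.continuousAt.eventually (lt_mem_nhds h)).mono fun z hz => hz.le)

/-- `IsClosed.Icc_subset_of_forall_mem_nhdsWithin`-type fencing: at a point of the cone `n' > 0`, and
`(n - u²)' > 0` if `u² = n`. -/
lemma ConeSys.inv (h : ConeSys Y0 Y1 Y2 w a R) {y0 : ℝ} (h0 : a ≤ y0)
    (hc : InCone R (Y0 y0) (Y1 y0) (Y2 y0)) : ∀ y, y0 ≤ y → InCone R (Y0 y) (Y1 y) (Y2 y) := by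
  intro y hy
  have hu : ContinuousOn (fun s => cu (Y0 s) (Y1 s) (Y2 s) ^ 2) (Icc y0 y) := fun s hs => by
    obtain ⟨_, _, h1, -⟩ := h.a_der (h0.trans hs.1)
    exact h1.continuousAt.continuousWithinAt
  have hn : ContinuousOn (fun s => cn (Y0 s) (Y1 s) (Y2 s)) (Icc y0 y) := fun s hs => by
    obtain ⟨_, _, -, h1, -⟩ := h.a_der (h0.trans hs.1)
    exact h1.continuousAt.continuousWithinAt
  refine IsClosed.Icc_subset_of_forall_mem_nhdsWithin (s := {s | InCone R (Y0 s) (Y1 s) (Y2 s)}) ?_ hc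
    (fun x hx => ?_) (right_mem_Icc.2 hy)
  · convert (isClosed_Icc.isClosed_le (continuousOn_const (c := R ^ 2)) hn).inter
      (isClosed_Icc.isClosed_le hu hn) using 1
    ext s
    simp only [InCone, mem_inter_iff, mem_ofPred_eq]
    tauto
  · obtain ⟨du, dn, h1, h2, h3, h4⟩ := h.a_der (h0.trans hx.2.1)
    have hw := h.w_pos x (h0.trans hx.2.1)
    have h5 : 0 < cn (Y0 x) (Y1 x) (Y2 x) := (pow_pos h.R_pos 2).trans_le hx.1.1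
    have h6 : 0 < dn := lt_of_lt_of_le (by positivity) (h3 hx.1)
    filter_upwards [a_right (h2.sub_const (R ^ 2)) (sub_nonneg.2 hx.1.1) fun _ => h6,
      a_right (h2.sub h1) (sub_nonneg.2 hx.1.2) fun e => by
        have e' := sub_eq_zero.1 e
        have h7 := h4 e'.le (hx.1.1.trans e'.le)
        have h8 := mul_nonneg hw.le (sq_nonneg (cu (Y0 x) (Y1 x) (Y2 x)))
        linarith] with z hz1 hz2
    exact ⟨sub_nonneg.1 hz1, sub_nonneg.1 hz2⟩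

/-- outside the cone `n ≤ max (u², R²)`, and `u²` decreases whenever `u² ≥ R²` (fencing) -/
lemma ConeSys.trap (h : ConeSys Y0 Y1 Y2 w a R) {T : ℝ}
    (hn : ∀ y ∈ Icc a T, ¬ InCone R (Y0 y) (Y1 y) (Y2 y)) :
    ∀ y ∈ Icc a T, |Y0 y| ≤ max |cu (Y0 a) (Y1 a) (Y2 a)| R := by
  obtain ⟨M, hM⟩ : ∃ M, M = max |cu (Y0 a) (Y1 a) (Y2 a)| R := ⟨_, rfl⟩
  have hR : R ≤ M := hM ▸ le_max_right _ _
  have hM0 : 0 < M := h.R_pos.trans_le hR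
  have hR2 : R ^ 2 ≤ M ^ 2 := pow_le_pow_left₀ h.R_pos.le hR 2
  have h1 : ∀ y ∈ Icc a T, cu (Y0 y) (Y1 y) (Y2 y) ^ 2 ≤ M ^ 2 →
      cn (Y0 y) (Y1 y) (Y2 y) ≤ M ^ 2 := fun y hy hu => by
    rcases not_and_or.1 (hn y hy) with h2 | h2
    · exact (not_le.1 h2).le.trans hR2
    · exact (not_le.1 h2).le.trans hu
  have hu : ContinuousOn (fun s => cu (Y0 s) (Y1 s) (Y2 s) ^ 2) (Icc a T) := fun s hs => by
    obtain ⟨_, _, h1, -⟩ := h.a_der hs.1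
    exact h1.continuousAt.continuousWithinAt
  have h2 : Icc a T ⊆ {s | cu (Y0 s) (Y1 s) (Y2 s) ^ 2 ≤ M ^ 2} := by
    refine IsClosed.Icc_subset_of_forall_mem_nhdsWithin ?_ ?_ fun x hx => ?_
    · rw [inter_comm]
      exact isClosed_Icc.isClosed_le hu continuousOn_const
    · rw [mem_ofPred_eq, ← sq_abs]
      exact pow_le_pow_left₀ (abs_nonneg _) (hM ▸ le_max_left _ _) 2
    · obtain ⟨du, dn, h3, -, -, h4⟩ := h.a_der hx.2.1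
      have hw := h.w_pos x hx.2.1
      filter_upwards [a_right (h3.const_sub (M ^ 2)) (sub_nonneg.2 hx.1) fun e => by
        have e' := sub_eq_zero.1 e
        have h5 := h4 ((h1 x (Ico_subset_Icc_self hx.2) hx.1).trans e'.le) (hR2.trans e'.le)
        rw [← e'] at h5
        have h6 : 0 < w x * M ^ 2 := by positivity
        linarith] with z hz
      exact sub_nonneg.1 hz
  exact fun y hy => hM ▸ (a_coord hM0.le (h2 hy) (h1 y hy (h2 hy))).1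

lemma coneb_der (h : ConeSys Y0 Y1 Y2 w a R) {y : ℝ} (hy : a ≤ y) (hi : InCone R (Y0 y) (Y1 y) (Y2 y)) :
    ∃ d, HasDerivAt (fun s => cn (Y0 s) (Y1 s) (Y2 s)) d y ∧ w y * cn (Y0 y) (Y1 y) (Y2 y) / 10 ≤ d := by
  obtain ⟨e1, e2, d0, d1, d2, he⟩ := h.der y hy
  refine ⟨_, (((d0.add d1).pow 2).sub ((d0.add d1).mul (d1.add d2))).add ((d1.add d2).pow 2), ?_⟩
  obtain ⟨i1, i2⟩ := hi
  simp only [Pi.add_apply]
  generalize Y0 y = x0 at *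
  generalize Y1 y = x1 at *
  generalize Y2 y = x2 at *
  have hn : 0 ≤ cn x0 x1 x2 := (sq_nonneg _).trans i1
  have hμ := Real.sq_sqrt hn
  have hμ0 := Real.sqrt_nonneg (cn x0 x1 x2)
  have hR : R ≤ √(cn x0 x1 x2) := Real.le_sqrt_of_sq_le i1
  have hu : |cu x0 x1 x2| ≤ √(cn x0 x1 x2) := Real.abs_le_sqrt i2
  generalize √(cn x0 x1 x2) = μ at *
  have b1 : |2 * (x0 + x1) - (x1 + x2)| ≤ 2 * μ :=
    abs_le_of_sq_le_sq (by rw [mul_pow, hμ, cn]; nlinarith [sq_nonneg (x1 + x2)]) (by positivity)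
  have b2 : |x0 + x1 + (x1 + x2)| ≤ 2 * μ :=
    abs_le_of_sq_le_sq (by rw [mul_pow, hμ, cn]; nlinarith [sq_nonneg (x0 - x2)]) (by positivity)
  have b3 : |2 * (x1 + x2) - (x0 + x1)| ≤ 2 * μ :=
    abs_le_of_sq_le_sq (by rw [mul_pow, hμ, cn]; nlinarith [sq_nonneg (x0 + x1)]) (by positivity)
  rw [cu] at hu
  have k := he μ
    (abs_le.2 ⟨by linarith [(abs_le.1 b1).1, (abs_le.1 hu).1], by linarith [(abs_le.1 b1).2, (abs_le.1 hu).2]⟩)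
    (abs_le.2 ⟨by linarith [(abs_le.1 b2).1, (abs_le.1 hu).2], by linarith [(abs_le.1 b2).2, (abs_le.1 hu).1]⟩)
    (abs_le.2 ⟨by linarith [(abs_le.1 b3).1, (abs_le.1 hu).1], by linarith [(abs_le.1 b3).2, (abs_le.1 hu).2]⟩) hR
  have c1 : |(x0 + x1 + (x1 + x2)) * e1| ≤ 2 * μ * |e1| := by
    rw [abs_mul]; exact mul_le_mul_of_nonneg_right b2 (abs_nonneg _)
  have c2 : |(2 * (x1 + x2) - (x0 + x1)) * e2| ≤ 2 * μ * |e2| := by
    rw [abs_mul]; exact mul_le_mul_of_nonneg_right b3 (abs_nonneg _)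
  have c3 : 2 * μ * |e1| + 2 * μ * |e2| ≤ 9 / 10 * cn x0 x1 x2 := by
    nlinarith [mul_nonneg hμ0 (abs_nonneg e1), mul_le_mul_of_nonneg_left k hμ0]
  have c4 : 0 ≤ 9 / 10 * cn x0 x1 x2 + (x0 + x1 + (x1 + x2)) * e1 + (2 * (x1 + x2) - (x0 + x1)) * e2 := by
    linarith [(abs_le.1 c1).1, (abs_le.1 c2).1]
  have c5 := mul_nonneg (h.w_pos y hy).le c4
  unfold cn at c5 ⊢
  norm_num
  linarith

/-- in the cone `n' ≥ (w/10) n ≥ (2N+1) n` for large `s`, contradicting `n ≤ 12 C² exp (2 N s)`;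
so the cone is never entered and `trap` applies -/
lemma ConeSys.liouville (h : ConeSys Y0 Y1 Y2 w a R) (hw : Tendsto w atTop atTop) {C N : ℝ}
    (hp : ∀ s, a ≤ s → |Y0 s| ≤ C * Real.exp (N * s) ∧ |Y1 s| ≤ C * Real.exp (N * s) ∧
      |Y2 s| ≤ C * Real.exp (N * s)) : ∃ C', ∀ s, a ≤ s → |Y0 s| ≤ C' := by
  by_cases hc : ∃ y0, a ≤ y0 ∧ InCone R (Y0 y0) (Y1 y0) (Y2 y0)
  swap
  · exact ⟨_, fun s hs => h.trap (T := s) (fun y hy hi => hc ⟨y, hy.1, hi⟩) s ⟨hs, le_rfl⟩⟩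
  exfalso
  obtain ⟨y0, h0, hc⟩ := hc
  obtain ⟨s1, hs1⟩ := eventually_atTop.1 (hw.eventually_ge_atTop (10 * (2 * N + 1)))
  set g : ℝ → ℝ := fun s => cn (Y0 s) (Y1 s) (Y2 s) * Real.exp (-(2 * N + 1) * s) with hg
  have hd : ∀ s, max y0 s1 ≤ s → ∃ d, HasDerivAt g d s ∧ 0 ≤ d := fun s hs => by
    have hi := h.inv h0 hc s ((le_max_left _ _).trans hs)
    obtain ⟨d, hd, hd'⟩ := coneb_der h (h0.trans ((le_max_left _ _).trans hs)) hi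
    have he := ((hasDerivAt_id s).const_mul (-(2 * N + 1))).exp
    refine ⟨_, hd.mul he, ?_⟩
    have h1 := hs1 s ((le_max_right _ _).trans hs)
    have h2 : 0 ≤ cn (Y0 s) (Y1 s) (Y2 s) := (sq_nonneg _).trans hi.1
    have h3 := mul_le_mul_of_nonneg_right h1 h2
    have h4 := Real.exp_pos (-(2 * N + 1) * s)
    simp only [id]
    nlinarith [mul_nonneg h4.le (show 0 ≤ d - (2 * N + 1) * cn (Y0 s) (Y1 s) (Y2 s) by linarith)]
  have hm : MonotoneOn g (Ici (max y0 s1)) :=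
    monotoneOn_of_deriv_nonneg (convex_Ici _)
      (fun s hs => (hd s hs).choose_spec.1.continuousAt.continuousWithinAt)
      (fun s hs => (hd s (interior_subset hs)).choose_spec.1.differentiableAt.differentiableWithinAt)
      fun s hs => by
        obtain ⟨d, h1, h2⟩ := hd s (interior_subset hs)
        rwa [h1.deriv]
  have hpos : 0 < g (max y0 s1) :=
    mul_pos ((pow_pos h.R_pos 2).trans_le (h.inv h0 hc _ (le_max_left _ _)).1) (Real.exp_pos _)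
  have hlim : Tendsto (fun s => 12 * C ^ 2 * Real.exp (-s)) atTop (𝓝 0) := by
    simpa using Real.tendsto_exp_neg_atTop_nhds_zero.const_mul (12 * C ^ 2)
  refine hpos.not_ge (ge_of_tendsto hlim ?_)
  filter_upwards [eventually_ge_atTop (max y0 s1)] with s hs
  refine (hm self_mem_Ici hs hs).trans ?_
  obtain ⟨p0, p1, p2⟩ := hp s (h0.trans ((le_max_left _ _).trans hs))
  have e : Real.exp (-s) = Real.exp (N * s) ^ 2 * Real.exp (-(2 * N + 1) * s) := by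
    rw [sq, ← Real.exp_add, ← Real.exp_add]; congr 1; ring
  rw [e, ← mul_assoc]
  refine mul_le_mul_of_nonneg_right ?_ (Real.exp_pos _).le
  rw [mul_assoc, ← mul_pow]
  generalize C * Real.exp (N * s) = M at p0 p1 p2
  have q1 : (Y0 s + Y1 s) ^ 2 ≤ (2 * M) ^ 2 :=
    sq_le_sq' (by linarith [(abs_le.1 p0).1, (abs_le.1 p1).1]) (by linarith [(abs_le.1 p0).2, (abs_le.1 p1).2])
  have q2 : (Y1 s + Y2 s) ^ 2 ≤ (2 * M) ^ 2 :=
    sq_le_sq' (by linarith [(abs_le.1 p2).1, (abs_le.1 p1).1]) (by linarith [(abs_le.1 p2).2, (abs_le.1 p1).2])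
  unfold cn
  nlinarith [sq_nonneg (Y0 s + Y1 s + (Y1 s + Y2 s))]

end Crest.Agent.R213.Ea
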