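import Crest.Agent.R213.Ea.Defs

/-! Row 213, shrinker: the clamped equation, its solutions and their differential equations. -/

set_option autoImplicit false
open Set Filter Topology

noncomputable section
namespace Crest.Agent.R213.Ea

lemma exa_inv {lo hi p q : ℝ} (h0 : 0 < lo) (hp : lo ≤ p ∧ p ≤ hi) (hq : lo ≤ q ∧ q ≤ hi) :
    1 / hi ^ 2 ≤ 1 / (p * q) ∧ 1 / (p * q) ≤ 1 / lo ^ 2 :=
  ⟨one_div_le_one_div_of_le (mul_pos (h0.trans_le hp.1) (h0.trans_le hq.1))
      (by nlinarith [hp.1, hp.2, hq.1, hq.2]),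
    one_div_le_one_div_of_le (by positivity) (by nlinarith [hp.1, hq.1])⟩

lemma exa_slope {lo hi : ℝ} (h0 : 0 < lo) (h : lo ≤ hi) {F G : ℝ} (hGF : G ≤ F) :
    ∃ V, 1 / hi ^ 2 ≤ V ∧ V ≤ 1 / lo ^ 2 ∧ tl lo hi F - tl lo hi G = -V * (F - G) := by
  have hc : ∀ F, lo ≤ max lo (min F hi) ∧ max lo (min F hi) ≤ hi := fun F =>
    ⟨le_max_left _ _, max_le h (min_le_right _ _)⟩
  have key : max lo (min F hi) = max lo (min G hi) ∨
      (G < F ∧ G ≤ max lo (min G hi) ∧ max lo (min G hi) ≤ max lo (min F hi) ∧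
        max lo (min F hi) ≤ F) := by
    rcases hGF.eq_or_lt with rfl | hlt
    · exact Or.inl rfl
    rcases le_total F lo with h1 | h1
    · exact Or.inl (by rw [max_eq_left ((min_le_left _ _).trans h1),
        max_eq_left ((min_le_left _ _).trans (hGF.trans h1))])
    rcases le_total hi G with h2 | h2
    · exact Or.inl (by rw [min_eq_right h2, min_eq_right (h2.trans hGF)])
    · exact Or.inr ⟨hlt, by rw [min_eq_left h2]; exact le_max_right _ _,
        max_le_max le_rfl (min_le_min hGF le_rfl), max_le h1 (min_le_left _ _)⟩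
  unfold tl
  have hp := hc F
  have hq := hc G
  generalize max lo (min F hi) = p at key hp
  generalize max lo (min G hi) = q at key hq
  have p0 := (h0.trans_le hp.1).ne'
  have q0 := (h0.trans_le hq.1).ne'
  rcases key with rfl | ⟨k0, k1, k2, k3⟩
  · exact ⟨_, (exa_inv h0 hp hp).1, (exa_inv h0 hp hp).2, by field_simp; ring⟩
  · obtain ⟨a1, a2⟩ := exa_inv h0 hp hq
    obtain ⟨b1, b2⟩ := exa_inv h0 hp hp
    obtain ⟨c1, c2⟩ := exa_inv h0 hq hq
    have d0 := sub_pos.2 k0
    have d1 := sub_nonneg.2 k1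
    have d2 := sub_nonneg.2 k2
    have d3 := sub_nonneg.2 k3
    refine ⟨(1 / (p * q) * (p - q) + 1 / (p * p) * (F - p) + 1 / (q * q) * (q - G)) / (F - G),
      ?_, ?_, by field_simp; ring⟩
    · rw [le_div_iff₀ d0]
      linarith [mul_le_mul_of_nonneg_right a1 d2, mul_le_mul_of_nonneg_right b1 d3,
        mul_le_mul_of_nonneg_right c1 d1]
    · rw [div_le_iff₀ d0]
      linarith [mul_le_mul_of_nonneg_right a2 d2, mul_le_mul_of_nonneg_right b2 d3,
        mul_le_mul_of_nonneg_right c2 d1]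

lemma exa_cont {lo hi : ℝ} (h0 : 0 < lo) : Continuous (tl lo hi) := by
  have h1 : ∀ F, max lo (min F hi) ≠ 0 := fun F => (h0.trans_le (le_max_left _ _)).ne'
  unfold tl
  exact (continuous_const.div (by fun_prop) h1).sub
    (Continuous.div (by fun_prop) (by fun_prop) fun F => pow_ne_zero 2 (h1 F))

lemma exa_abs {w : ℝ → ℝ} (hw : Continuous w) (hw0 : ∀ s ∈ Icc (0:ℝ) 1, 0 ≤ w s) {S T : ℝ → ℝ}
    (hS : Continuous S) (hT : Continuous T) {y M : ℝ} (hy : 0 ≤ y)
    (h : ∀ t ∈ Icc 0 y, |S t - T t| ≤ M) :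
    |(∫ s in (0:ℝ)..1, w s * S (s * y)) - ∫ s in (0:ℝ)..1, w s * T (s * y)| ≤
      (∫ s in (0:ℝ)..1, w s) * M := by
  have c1 : Continuous fun s => w s * S (s * y) := by fun_prop
  have c2 : Continuous fun s => w s * T (s * y) := by fun_prop
  rw [← intervalIntegral.integral_sub (c1.intervalIntegrable _ _) (c2.intervalIntegrable _ _),
    ← intervalIntegral.integral_mul_const]
  refine (intervalIntegral.abs_integral_le_integral_abs zero_le_one).trans
    (intervalIntegral.integral_mono_on zero_le_one ((c1.sub c2).abs.intervalIntegrable _ _)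
      ((hw.mul continuous_const).intervalIntegrable _ _) fun s hs => ?_)
  rw [← mul_sub, abs_mul, abs_of_nonneg (hw0 s hs)]
  exact mul_le_mul_of_nonneg_left
    (h _ ⟨mul_nonneg hs.1 hy, mul_le_of_le_one_left hy hs.2⟩) (hw0 s hs)

lemma tl_eq {lo hi F : ℝ} (h1 : lo ≤ F) (h2 : F ≤ hi) : tl lo hi F = 1 / F := by
  simp [tl, min_eq_left h2, max_eq_right h1]
/-- slopes of `tl` lie in `[-1/lo², -1/hi²]` -/
lemma tl_slope {lo hi : ℝ} (h0 : 0 < lo) (h : lo ≤ hi) (F G : ℝ) :
    ∃ V, 1 / hi ^ 2 ≤ V ∧ V ≤ 1 / lo ^ 2 ∧ tl lo hi F - tl lo hi G = -V * (F - G) := by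
  rcases le_total G F with h1 | h1
  · exact exa_slope h0 h h1
  · obtain ⟨V, h2, h3, h4⟩ := exa_slope h0 h h1
    exact ⟨V, h2, h3, by linarith⟩
lemma psi_eq {y F : ℝ} (h : Rng y F) : psi y F = 1 / F := by
  rcases le_total 50 y with h1 | h1
  · rw [psi, tl_eq h.1 h.2.1, tl_eq (h.2.2 h1).1 (h.2.2 h1).2]
    ring
  · rw [psi, tl_eq h.1 h.2.1, tau, max_eq_left ((min_le_right _ _).trans (by linarith))]
    ring
lemma psi_tail {y : ℝ} (h : 64 ≤ y) (F : ℝ) : psi y F = tl (7 / 10) (18 / 25) F := by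
  rw [psi, tau, min_eq_left (by linarith), max_eq_right zero_le_one]
  ring
lemma psi_lip (y F G : ℝ) : |psi y F - psi y G| ≤ 45 * |F - G| := by
  obtain ⟨V, a1, a2, a3⟩ := tl_slope (lo := 3 / 20) (hi := 2) (by norm_num) (by norm_num) F G
  obtain ⟨W, b1, b2, b3⟩ := tl_slope (lo := 7 / 10) (hi := 18 / 25) (by norm_num) (by norm_num) F G
  have t0 : 0 ≤ tau y := le_max_left _ _
  have t1 : 0 ≤ 1 - tau y := sub_nonneg.2 (max_le zero_le_one (min_le_left _ _))
  have e : psi y F - psi y G = -((1 - tau y) * V + tau y * W) * (F - G) := by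
    unfold psi
    linear_combination (1 - tau y) * a3 + tau y * b3
  norm_num at a1 a2 b1 b2
  rw [e, abs_mul, abs_neg]
  refine mul_le_mul_of_nonneg_right (abs_le.2 ⟨?_, ?_⟩) (abs_nonneg _) <;> nlinarith
lemma continuous_psi : Continuous fun p : ℝ × ℝ => psi p.1 p.2 := by
  have h1 := exa_cont (lo := 3 / 20) (hi := 2) (by norm_num)
  have h2 := exa_cont (lo := 7 / 10) (hi := 18 / 25) (by norm_num)
  unfold psi tau
  fun_prop

lemma continuous_Kg {S : ℝ → ℝ} (h : Continuous S) : Continuous (Kg S) := by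
  exact intervalIntegral.continuous_parametric_intervalIntegral_of_continuous'
    (f := fun y s : ℝ => (s ^ 9 - s ^ 10) * S (s * y)) (by fun_prop) 0 1
lemma continuous_Kr {S : ℝ → ℝ} (h : Continuous S) : Continuous (Kr S) := by
  exact intervalIntegral.continuous_parametric_intervalIntegral_of_continuous'
    (f := fun y s : ℝ => s ^ 9 * S (s * y)) (by fun_prop) 0 1
lemma continuous_FF {S : ℝ → ℝ} (h : Continuous S) : Continuous (FF S) := by
  exact continuous_const.sub (continuous_id.mul (continuous_Kg h))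
/-- `∫ (s⁹ - s¹⁰) = 1/110` -/
lemma abs_Kg_sub {S T : ℝ → ℝ} (hS : Continuous S) (hT : Continuous T) {y M : ℝ} (hy : 0 ≤ y)
    (h : ∀ t ∈ Icc 0 y, |S t - T t| ≤ M) : |Kg S y - Kg T y| ≤ M / 110 := by
  refine (exa_abs (w := fun s => s ^ 9 - s ^ 10) (by fun_prop) (fun s hs =>
    sub_nonneg.2 (pow_le_pow_of_le_one hs.1 hs.2 (by norm_num))) hS hT hy h).trans_eq ?_
  rw [intervalIntegral.integral_sub (intervalIntegral.intervalIntegrable_pow 9)
    (intervalIntegral.intervalIntegrable_pow 10), integral_pow, integral_pow]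
  ring
lemma abs_Kr_sub {S T : ℝ → ℝ} (hS : Continuous S) (hT : Continuous T) {y M : ℝ} (hy : 0 ≤ y)
    (h : ∀ t ∈ Icc 0 y, |S t - T t| ≤ M) : |Kr S y - Kr T y| ≤ M / 10 := by
  refine (exa_abs (w := fun s => s ^ 9) (by fun_prop) (fun s hs => pow_nonneg hs.1 9)
    hS hT hy h).trans_eq ?_
  rw [integral_pow]
  ring

lemma exb_sub {S : ℝ → ℝ} (n : ℕ) (y : ℝ) :
    y ^ (n + 1) * ∫ s in (0:ℝ)..1, s ^ n * S (s * y) = ∫ t in (0:ℝ)..y, t ^ n * S t := by
  have h := intervalIntegral.smul_integral_comp_mul_right (fun t => t ^ n * S t) (a := 0) (b := 1) y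
  simp only [zero_mul, one_mul, smul_eq_mul] at h
  rw [← h, pow_succ', mul_assoc, ← intervalIntegral.integral_const_mul]
  congr 1
  refine intervalIntegral.integral_congr fun s _ => ?_
  simp only [mul_pow]
  ring

lemma exb_der {S : ℝ → ℝ} (h : Continuous S) (n : ℕ) (y : ℝ) :
    HasDerivAt (fun y => ∫ t in (0:ℝ)..y, t ^ n * S t) (y ^ n * S y) y :=
  (((continuous_pow n).mul h).integral_hasStrictDerivAt 0 y).hasDerivAt

/-- for `y > 0`: `rr S y = ∫_0^y t⁹ S t`, `pp S y = y rr S y - ∫_0^y t¹⁰ S t` (substitution `t = s y`) -/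
lemma hasDerivAt_rr {S : ℝ → ℝ} (h : Continuous S) {y : ℝ} (hy : 0 < y) :
    HasDerivAt (rr S) (y ^ 9 * S y) y := by
  refine (exb_der h 9 y).congr_of_eventuallyEq ?_
  filter_upwards [lt_mem_nhds hy] with z hz
  exact exb_sub 9 z
lemma hasDerivAt_pp {S : ℝ → ℝ} (h : Continuous S) {y : ℝ} (hy : 0 < y) :
    HasDerivAt (pp S) (rr S y) y := by
  have h1 := ((hasDerivAt_id y).mul (hasDerivAt_rr h hy)).sub (exb_der h 10 y)
  refine (h1.congr_deriv (by simp only [id]; ring)).congr_of_eventuallyEq ?_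
  filter_upwards [lt_mem_nhds hy] with z hz
  have e : Kg S z = Kr S z - ∫ s in (0:ℝ)..1, s ^ 10 * S (s * z) := by
    rw [Kg, Kr, ← intervalIntegral.integral_sub (Continuous.intervalIntegrable (by fun_prop) _ _)
      (Continuous.intervalIntegrable (by fun_prop) _ _)]
    simp only [sub_mul]
  simp only [Pi.sub_apply, Pi.mul_apply, id, pp, rr, e, ← exb_sub (S := S) 10 z]
  ring
lemma FF_eq_pp (S : ℝ → ℝ) {y : ℝ} (hy : 0 < y) : FF S y = 1 - pp S y / y ^ 10 := by
  rw [FF, pp]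
  field_simp
lemma F1_eq (S : ℝ → ℝ) {y : ℝ} (hy : 0 < y) : F1 S y = -((y * rr S y - 10 * pp S y) / y ^ 10) := by
  rw [F1, pp, rr]
  field_simp
lemma exb_int {b : ℝ} {S : ℝ → ℝ} (h : Continuous S) (a y : ℝ) :
    HasDerivAt (fun y => a + ∫ t in (0:ℝ)..y, (b - psi t (FF S t) / 2)) (b - psi y (FF S y) / 2) y := by
  have hc : Continuous fun t => b - psi t (FF S t) / 2 :=
    continuous_const.sub ((continuous_psi.comp (continuous_id.prodMk (continuous_FF h))).div_const 2)
  exact (hc.integral_hasStrictDerivAt 0 y).hasDerivAt.const_add a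

lemma IsSol.hasDerivAt {a b : ℝ} {S : ℝ → ℝ} (h : IsSol a b S) {y : ℝ} (hy : 0 < y) :
    HasDerivAt S (b - psi y (FF S y) / 2) y := by
  refine (exb_int h.1 a y).congr_of_eventuallyEq ?_
  filter_upwards [lt_mem_nhds hy] with z hz
  exact h.2 z hz.le
lemma IsSol.hasDerivWithinAt {a b : ℝ} {S : ℝ → ℝ} (h : IsSol a b S) {y : ℝ} (hy : 0 ≤ y) :
    HasDerivWithinAt S (b - psi y (FF S y) / 2) (Ici 0) y :=
  (exb_int h.1 a y).hasDerivWithinAt.congr (fun z hz => h.2 z hz) (h.2 y hy)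
lemma IsSol.zero {a b : ℝ} {S : ℝ → ℝ} (h : IsSol a b S) : S 0 = a := by
  simpa using h.2 0 le_rfl
lemma hasDerivAt_FF {S : ℝ → ℝ} (h : Continuous S) {y : ℝ} (hy : 0 < y) :
    HasDerivAt (FF S) (F1 S y / y) y := by
  have h1 := ((hasDerivAt_pp h hy).div (hasDerivAt_pow 10 y) (pow_pos hy 10).ne').const_sub 1
  refine (h1.congr_deriv ?_).congr_of_eventuallyEq ?_
  · rw [F1_eq S hy]
    norm_num
    field_simp
  · filter_upwards [lt_mem_nhds hy] with z hz
    exact FF_eq_pp S hz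
lemma hasDerivAt_F1 {S : ℝ → ℝ} (h : Continuous S) {y : ℝ} (hy : 0 < y) :
    HasDerivAt (F1 S) (F2 S y / y) y := by
  have h1 := ((((hasDerivAt_id y).mul (hasDerivAt_rr h hy)).sub ((hasDerivAt_pp h hy).const_mul 10)).div
    (hasDerivAt_pow 10 y) (pow_pos hy 10).ne').neg
  refine (h1.congr_deriv ?_).congr_of_eventuallyEq ?_
  · rw [F2, F1_eq S hy, FF_eq_pp S hy]
    norm_num
    field_simp
    ring
  · filter_upwards [lt_mem_nhds hy] with z hz
    exact F1_eq S hz
lemma IsSol.hasDerivAt_F2 {a b : ℝ} {S : ℝ → ℝ} (h : IsSol a b S) {y : ℝ} (hy : 0 < y) :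
    HasDerivAt (F2 S) ((-18 * F2 S y - 71 * F1 S y + 90 * FF S y - 90 +
      y ^ 2 * (psi y (FF S y) / 2 - b)) / y) y := by
  have h1 := ((((hasDerivAt_FF h.1 hy).const_sub 1).const_mul 90).sub
    ((hasDerivAt_F1 h.1 hy).const_mul 19)).sub ((hasDerivAt_id y).mul (h.hasDerivAt hy))
  refine h1.congr_deriv ?_
  have e : S y = (90 * (1 - FF S y) - 19 * F1 S y - F2 S y) / y := by
    rw [F2]
    field_simp
    ring
  rw [e]
  simp only [id]
  field_simp
  ring

lemma exc_wt (y : ℝ) : Real.exp (-y ^ 2) ≤ 1 ∧ Real.exp (-y ^ 2) * max y 0 ≤ 1 ∧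
    Real.exp (-y ^ 2) * Real.exp (max y 0 ^ 2) ≤ 1 := by
  refine ⟨Real.exp_le_one_iff.2 (neg_nonpos.2 (sq_nonneg y)), ?_, ?_⟩
  · rw [Real.exp_neg, inv_mul_le_iff₀ (Real.exp_pos _), mul_one]
    exact (max_le (by nlinarith [sq_nonneg (y - 1)]) (by positivity)).trans (Real.add_one_le_exp _)
  · rw [← Real.exp_add, Real.exp_le_one_iff]
    rcases le_total y 0 with h | h
    · rw [max_eq_right h]; nlinarith [sq_nonneg y]
    · rw [max_eq_left h]; linarith

lemma exc_fix (Φ : (ℝ → ℝ) → ℝ → ℝ) {C : ℝ} (hc : ∀ S, Continuous S → Continuous (Φ S))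
    (hl : ∀ S T, Continuous S → Continuous T → ∀ y M, 0 ≤ y → (∀ t ∈ Icc 0 y, |S t - T t| ≤ M) →
      |Φ S y - Φ T y| ≤ y * M) (h0 : ∀ y, |Φ (fun _ => 0) y| ≤ C) :
    ∃ S : ℝ × ℝ → ℝ → ℝ, Continuous (fun z : (ℝ × ℝ) × ℝ => S z.1 z.2) ∧
      ∀ p y, 0 ≤ y → S p y = p.1 + p.2 * y - ∫ t in (0:ℝ)..y, Φ (S p) t := by
  have key : ∀ S T, Continuous S → Continuous T → ∀ M y : ℝ, 0 ≤ M →
      (∀ t, |S t - T t| ≤ M * Real.exp (t ^ 2)) → Real.exp (-y ^ 2) *
        |(∫ t in (0:ℝ)..max y 0, Φ S t) - ∫ t in (0:ℝ)..max y 0, Φ T t| ≤ M / 2 := by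
    intro S T hS hT M y hM h
    have h1 : ∫ t in (0:ℝ)..max y 0, t * (M * Real.exp (t ^ 2)) =
        M / 2 * Real.exp (max y 0 ^ 2) - M / 2 * Real.exp (0 ^ 2) :=
      intervalIntegral.integral_eq_sub_of_hasDerivAt (f := fun t => M / 2 * Real.exp (t ^ 2))
        (fun t _ => (((hasDerivAt_pow 2 t).exp).const_mul (M / 2)).congr_deriv (by simp; ring))
        (Continuous.intervalIntegrable (by fun_prop) _ _)
    have h2 := intervalIntegral.norm_integral_le_of_norm_le (μ := MeasureTheory.volume)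
      (f := fun t => Φ S t - Φ T t) (g := fun t => t * (M * Real.exp (t ^ 2))) (le_max_right y 0)
      (Eventually.of_forall fun t ht => hl S T hS hT t _ ht.1.le fun s hs => (h s).trans (by
        have := hs.1; have := hs.2; gcongr)) (Continuous.intervalIntegrable (by fun_prop) _ _)
    rw [h1, intervalIntegral.integral_sub ((hc S hS).intervalIntegrable _ _)
      ((hc T hT).intervalIntegrable _ _)] at h2
    have h3 := mul_le_mul_of_nonneg_left (h2.trans (sub_le_self _ (by positivity)))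
      (Real.exp_pos (-y ^ 2)).le
    rw [mul_left_comm] at h3
    exact h3.trans (mul_le_of_le_one_right (by positivity) (exc_wt y).2.2)
  have hs : ∀ σ : BoundedContinuousFunction ℝ ℝ, Continuous fun t : ℝ => Real.exp (t ^ 2) * σ t :=
    fun σ => by fun_prop
  have hC : 0 ≤ C := (abs_nonneg _).trans (h0 0)
  let T : ℝ × ℝ → BoundedContinuousFunction ℝ ℝ → BoundedContinuousFunction ℝ ℝ := fun p σ =>
    .ofNormedAddCommGroup (fun y => Real.exp (-y ^ 2) * (p.1 + p.2 * max y 0 -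
      ∫ t in (0:ℝ)..max y 0, Φ (fun t => Real.exp (t ^ 2) * σ t) t))
      (Continuous.mul (by fun_prop) (Continuous.sub (by fun_prop) ((intervalIntegral.continuous_primitive
        (fun _ _ => (hc _ (hs σ)).intervalIntegrable _ _) 0).comp (by fun_prop))))
      (|p.1| + |p.2| + C + ‖σ‖ / 2) fun y => by
      have a1 := key _ (fun _ => 0) (hs σ) continuous_const ‖σ‖ y (norm_nonneg _) fun t => by
        rw [sub_zero, abs_mul, abs_of_pos (Real.exp_pos _), mul_comm]
        exact mul_le_mul_of_nonneg_right (σ.norm_coe_le_norm t) (Real.exp_pos _).le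
      have a2 := intervalIntegral.norm_integral_le_of_norm_le_const (a := 0) (b := max y 0)
        (f := Φ fun _ => 0) fun t _ => h0 t
      rw [sub_zero, abs_of_nonneg (le_max_right y 0), Real.norm_eq_abs] at a2
      obtain ⟨b1, b2, -⟩ := exc_wt y
      have b0 := (Real.exp_pos (-y ^ 2)).le
      rw [Real.norm_eq_abs, abs_mul, abs_of_nonneg b0]
      generalize (∫ t in (0:ℝ)..max y 0, Φ (fun t => Real.exp (t ^ 2) * σ t) t) = I at a1 ⊢
      generalize (∫ t in (0:ℝ)..max y 0, Φ (fun _ => 0) t) = J at a1 a2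
      have a3 : |p.1 + p.2 * max y 0 - I| ≤ |p.1| + |p.2| * max y 0 + C * max y 0 + |I - J| := by
        have := abs_mul p.2 (max y 0)
        rw [abs_of_nonneg (le_max_right y 0)] at this
        refine abs_le.2 ⟨?_, ?_⟩ <;> linarith [le_abs_self p.1, neg_abs_le p.1, abs_le.1 a2,
          le_abs_self (p.2 * max y 0), neg_abs_le (p.2 * max y 0), le_abs_self (I - J), neg_abs_le (I - J)]
      nlinarith [mul_le_mul_of_nonneg_left a3 b0, mul_le_of_le_one_left (abs_nonneg p.1) b1,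
        mul_le_of_le_one_left (abs_nonneg p.2) b2, mul_le_of_le_one_left hC b2]
  have hT : ∀ p σ y, T p σ y = Real.exp (-y ^ 2) * (p.1 + p.2 * max y 0 -
      ∫ t in (0:ℝ)..max y 0, Φ (fun t => Real.exp (t ^ 2) * σ t) t) := fun _ _ _ => rfl
  have hK : ∀ p, ContractingWith (1 / 2) (T p) := fun p => ⟨by norm_num,
    LipschitzWith.of_dist_le_mul fun σ τ => (BoundedContinuousFunction.dist_le (by positivity)).2 fun y => by
      have a1 := key _ _ (hs τ) (hs σ) (dist σ τ) y dist_nonneg fun t => by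
        rw [← mul_sub, abs_mul, abs_of_pos (Real.exp_pos _), mul_comm, abs_sub_comm]
        exact mul_le_mul_of_nonneg_right (σ.dist_coe_le_dist (g := τ) t) (Real.exp_pos _).le
      rw [hT, hT, Real.dist_eq, ← mul_sub, sub_sub_sub_cancel_left, abs_mul, abs_of_pos (Real.exp_pos _)]
      refine a1.trans_eq ?_
      push_cast
      ring⟩
  have hL : LipschitzWith 4 fun p => (hK p).fixedPoint (T p) := LipschitzWith.of_dist_le_mul fun p p' => by
    refine ((hK p).fixedPoint_lipschitz_in_map (hK p') (C := 2 * dist p p') fun σ =>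
      (BoundedContinuousFunction.dist_le (by positivity)).2 fun y => ?_).trans_eq (by push_cast; ring)
    obtain ⟨b1, b2, -⟩ := exc_wt y
    have a1 : |p.1 - p'.1| ≤ dist p p' := le_max_left _ _
    have a2 : |p.2 - p'.2| ≤ dist p p' := le_max_right _ _
    rw [hT, hT, Real.dist_eq, ← mul_sub, sub_sub_sub_cancel_right, add_sub_add_comm, ← sub_mul, mul_add,
      two_mul]
    refine (abs_add_le _ _).trans (add_le_add ?_ ?_)
    · rw [abs_mul, abs_of_pos (Real.exp_pos _)]
      exact (mul_le_of_le_one_left (abs_nonneg _) b1).trans a1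
    · rw [mul_left_comm, abs_mul, abs_of_nonneg (mul_nonneg (Real.exp_pos _).le (le_max_right _ _))]
      exact (mul_le_of_le_one_right (abs_nonneg _) b2).trans a2
  refine ⟨fun p t => Real.exp (t ^ 2) * (hK p).fixedPoint (T p) t, Continuous.mul (by fun_prop)
    ((hL.continuous.comp continuous_fst).eval continuous_snd), fun p y hy => ?_⟩
  have h1 := hT p ((hK p).fixedPoint (T p)) y
  rw [(hK p).fixedPoint_isFixedPt, max_eq_left hy] at h1
  simp only []
  rw [h1, ← mul_assoc, ← Real.exp_add, add_neg_cancel, Real.exp_zero, one_mul]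

/-- Global solutions depending continuously on the parameters.  Banach fixed point in
`ℝ →ᵇ ℝ`: `S y = exp(y²) σ y`, `(T σ)(y) = exp(-y²) (a + ∫_0^{max y 0} (b - ψ(t, FF S t)/2))`;
`|ψ(t,F) - ψ(t,G)|/2 ≤ (45/2) t sup|S - S'|/110 ≤ (45/220) t exp(t²) ‖σ - σ'‖`, so `T` contracts with
constant `45/440`; `|ψ(t,1)| ≤ C` gives boundedness.  The fixed point is Lipschitz in `(a,b)`
(`ContractingWith.dist_fixedPoint_fixedPoint_of_dist_le'`, `(1 + y) exp(-y²) ≤ 2`). -/
theorem exists_family : ∃ S : ℝ × ℝ → ℝ → ℝ, Continuous (fun z : (ℝ × ℝ) × ℝ => S z.1 z.2) ∧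
    ∀ p, IsSol p.1 p.2 (S p) := by
  obtain ⟨S, h1, h2⟩ := exc_fix (fun S t => psi t (FF S t) / 2)
    (C := (|tl (3 / 20) 2 1| + |tl (7 / 10) (18 / 25) 1|) / 2)
    (fun S hS => (continuous_psi.comp (continuous_id.prodMk (continuous_FF hS))).div_const 2)
    (fun S T hS hT y M hy h => by
      have a1 := psi_lip y (FF S y) (FF T y)
      have a2 := mul_le_mul_of_nonneg_left (abs_Kg_sub hS hT hy h) hy
      have a3 : 0 ≤ y * M := mul_nonneg hy ((abs_nonneg _).trans (h 0 ⟨le_rfl, hy⟩))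
      rw [show FF S y - FF T y = -(y * (Kg S y - Kg T y)) by simp only [FF]; ring, abs_neg, abs_mul,
        abs_of_nonneg hy] at a1
      rw [← sub_div, abs_div, abs_two]
      linarith)
    (fun y => by
      have a0 : 0 ≤ tau y := le_max_left _ _
      have a1 : tau y ≤ 1 := max_le zero_le_one (min_le_left _ _)
      rw [show FF (fun _ => 0) y = 1 by simp [FF, Kg], abs_div, abs_two, psi]
      refine div_le_div_of_nonneg_right ((abs_add_le _ _).trans ?_) zero_le_two
      rw [abs_mul, abs_mul, abs_of_nonneg a0, abs_of_nonneg (sub_nonneg.2 a1)]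
      exact add_le_add (mul_le_of_le_one_left (abs_nonneg _) (by linarith))
        (mul_le_of_le_one_left (abs_nonneg _) a1))
  have hc : ∀ p, Continuous (S p) := fun p => h1.comp (continuous_const.prodMk continuous_id)
  refine ⟨S, h1, fun p => ⟨hc p, fun y hy => ?_⟩⟩
  have h3 : Continuous fun t => psi t (FF (S p) t) / 2 :=
    (continuous_psi.comp (continuous_id.prodMk (continuous_FF (hc p)))).div_const 2
  rw [intervalIntegral.integral_sub intervalIntegrable_const (h3.intervalIntegrable _ _), h2 p y hy]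
  simp only [intervalIntegral.integral_const, smul_eq_mul]
  ring

end Crest.Agent.R213.Ea
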