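import Crest.Agent.R213.Ea.Exist
import Crest.Agent.R213.Ea.Cone

/-! Row 213, shrinker: smoothness and symbol bounds. -/

set_option autoImplicit false
open Set Filter Topology
open scoped ContDiff

noncomputable section
namespace Crest.Agent.R213.Ea

lemma a_hasDerivAt_K {k T T' : ℝ → ℝ} (hk : Continuous k) (hT : ∀ z, HasDerivAt T (T' z) z)
    (hT' : Continuous T') (y : ℝ) :
    HasDerivAt (fun y => ∫ s in (0:ℝ)..1, k s * T (s * y))
      (∫ s in (0:ℝ)..1, (k s * s) * T' (s * y)) y := by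
  have hTc : Continuous T := continuous_iff_continuousAt.2 fun z => (hT z).continuousAt
  have hc : Continuous fun p : ℝ × ℝ => (k p.2 * p.2) * T' (p.2 * p.1) := by fun_prop
  obtain ⟨C, hC⟩ := ((isCompact_Icc (a := y - 1) (b := y + 1)).prod
    (isCompact_Icc (a := (0:ℝ)) (b := 1))).exists_bound_of_continuousOn hc.continuousOn
  refine (intervalIntegral.hasDerivAt_integral_of_dominated_loc_of_deriv_le
    (F := fun y s => k s * T (s * y)) (F' := fun y s => (k s * s) * T' (s * y))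
    (s := Icc (y - 1) (y + 1)) (bound := fun _ => C) (Icc_mem_nhds (by linarith) (by linarith))
    (Eventually.of_forall fun x => (by fun_prop : Continuous fun s => k s * T (s * x)).aestronglyMeasurable)
    ((by fun_prop : Continuous fun s => k s * T (s * y)).intervalIntegrable _ _)
    (by fun_prop : Continuous fun s => (k s * s) * T' (s * y)).aestronglyMeasurable
    (Eventually.of_forall fun t ht x hx => hC (x, t) ⟨hx, ?_⟩) intervalIntegrable_const
    (Eventually.of_forall fun t _ x _ => ?_)).2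
  · rw [uIoc_of_le zero_le_one] at ht
    exact ⟨ht.1.le, ht.2⟩
  · have := ((hT (t * x)).comp x ((hasDerivAt_id x).const_mul t)).const_mul (k t)
    refine this.congr_deriv ?_
    ring

lemma a_cont_max {S : ℝ → ℝ} (hS : ContinuousOn S (Ici 0)) : Continuous fun z => S (max z 0) :=
  hS.comp_continuous (continuous_id.max continuous_const) fun z => le_max_right z 0

lemma a_congr_K {k S T : ℝ → ℝ} (h : ∀ z, 0 ≤ z → S z = T z) {y : ℝ} (hy : 0 ≤ y) :
    ∫ s in (0:ℝ)..1, k s * S (s * y) = ∫ s in (0:ℝ)..1, k s * T (s * y) := by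
  refine intervalIntegral.integral_congr fun s hs => ?_
  rw [uIcc_of_le zero_le_one] at hs
  simp only [h _ (mul_nonneg hs.1 hy)]

/-- Induction on `n`, for all continuous kernels `k` and all `S`: with `S' = derivWithin S (Ici 0)`,
`K y = ∫ k s * S (s y)` has derivative `∫ (k s * s) * S' (s y)` within `Ici 0` (replace `S`, `S'` by
`S ∘ max 0`, `S' ∘ max 0`; `S z = S 0 + ∫_0^z S'`, Fubini or differentiate under the integral the `C¹`
function `z ↦ S 0 + ∫_0^z S' (max t 0)` on `ℝ`). -/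
lemma contDiffOn_K (n : ℕ) {k S : ℝ → ℝ} (hk : Continuous k) (hS : ContDiffOn ℝ n S (Ici 0)) :
    ContDiffOn ℝ n (fun y => ∫ s in (0:ℝ)..1, k s * S (s * y)) (Ici 0) := by
  induction n generalizing k S with
  | zero =>
    have hc := a_cont_max hS.continuousOn
    have h1 : Continuous fun y => ∫ s in (0:ℝ)..1, k s * S (max (s * y) 0) :=
      intervalIntegral.continuous_parametric_intervalIntegral_of_continuous'
        (f := fun y s => k s * S (max (s * y) 0))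
        ((hk.comp continuous_snd).mul (hc.comp (continuous_snd.mul continuous_fst))) 0 1
    rw [Nat.cast_zero, contDiffOn_zero]
    exact h1.continuousOn.congr fun y hy =>
      a_congr_K (T := fun z => S (max z 0)) (fun z hz => by rw [max_eq_left hz]) hy
  | succ n ih =>
    rw [Nat.cast_succ, contDiffOn_succ_iff_derivWithin (uniqueDiffOn_Ici 0)] at hS ⊢
    obtain ⟨hd, -, hS'⟩ := hS
    have hc := a_cont_max hS'.continuousOn
    set S' := derivWithin S (Ici 0) with hS'def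
    have hT : ∀ z, HasDerivAt (fun z => S 0 + ∫ t in (0:ℝ)..z, S' (max t 0)) (S' (max z 0)) z :=
      fun z => (hc.integral_hasStrictDerivAt 0 z).hasDerivAt.const_add _
    have hST : ∀ z, 0 ≤ z → S z = S 0 + ∫ t in (0:ℝ)..z, S' (max t 0) := fun z hz => by
      rw [intervalIntegral.integral_eq_sub_of_hasDerivAt_of_le hz
        (hd.continuousOn.mono Icc_subset_Ici_self) (fun x hx => ?_) (hc.intervalIntegrable _ _)]
      · ring
      · rw [max_eq_left hx.1.le]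
        exact (hd x hx.1.le).hasDerivWithinAt.hasDerivAt (Ici_mem_nhds hx.1)
    have key : ∀ y ∈ Ici (0:ℝ), HasDerivWithinAt (fun y => ∫ s in (0:ℝ)..1, k s * S (s * y))
        (∫ s in (0:ℝ)..1, (k s * s) * S' (s * y)) (Ici 0) y := fun y hy => by
      have h1 := (a_hasDerivAt_K hk hT hc y).hasDerivWithinAt (s := Ici 0)
      rw [← a_congr_K (S := S') (T := fun z => S' (max z 0))
        (fun z hz => by rw [max_eq_left hz]) hy] at h1
      exact h1.congr (fun x hx => a_congr_K hST hx) (a_congr_K hST hy)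
    refine ⟨fun y hy => (key y hy).differentiableWithinAt, by simp, ?_⟩
    exact (ih (hk.mul continuous_id) hS').congr fun y hy =>
      (key y hy).derivWithin (uniqueDiffOn_Ici 0 y hy)

/-- bootstrap `S' = b - 1/(2 FF S)` (`IsSol.hasDerivWithinAt`, `psi_eq`, `contDiffOn_K`) -/
lemma TrueSol.smooth {a b : ℝ} {S : ℝ → ℝ} (h : TrueSol a b S) :
    ContDiffOn ℝ ∞ S (Ici 0) ∧ ContDiffOn ℝ ∞ (Kg S) (Ici 0) := by
  have hk : Continuous fun s : ℝ => s ^ 9 - s ^ 10 := by fun_prop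
  have key : ∀ n : ℕ, ContDiffOn ℝ n S (Ici 0) := by
    intro n
    induction n with
    | zero => rw [Nat.cast_zero, contDiffOn_zero]; exact h.1.1.continuousOn
    | succ n ih =>
      rw [Nat.cast_succ, contDiffOn_succ_iff_derivWithin (uniqueDiffOn_Ici 0)]
      refine ⟨fun y hy => (h.1.hasDerivWithinAt hy).differentiableWithinAt, by simp, ?_⟩
      have h1 : ContDiffOn ℝ n (FF S) (Ici 0) :=
        contDiffOn_const.sub (contDiffOn_id.mul (contDiffOn_K n hk ih))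
      have h2 : ContDiffOn ℝ n (fun y => b - 1 / FF S y / 2) (Ici 0) :=
        contDiffOn_const.sub ((contDiffOn_const.div h1 fun y hy => by
          have := (h.2.2 y hy).1; linarith).div_const 2)
      exact h2.congr fun y hy => by
        rw [(h.1.hasDerivWithinAt hy).derivWithin (uniqueDiffOn_Ici 0 y hy), psi_eq (h.2.2 y hy)]
  exact ⟨contDiffOn_infty.2 key, contDiffOn_infty.2 fun n => contDiffOn_K n hk (key n)⟩

/-- polynomials in `1/Φ` and the derivatives of order `≤ n` -/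
inductive Alg (Φ : ℝ → ℝ) (n : ℕ) : (ℝ → ℝ) → Prop
  | const (c : ℝ) : Alg Φ n (fun _ => c)
  | inv : Alg Φ n (fun s => (Φ s)⁻¹)
  | jet (j : ℕ) (hj : j ≤ n) : Alg Φ n (iteratedDeriv j Φ)
  | add {f g : ℝ → ℝ} : Alg Φ n f → Alg Φ n g → Alg Φ n (fun s => f s + g s)
  | mul {f g : ℝ → ℝ} : Alg Φ n f → Alg Φ n g → Alg Φ n (fun s => f s * g s)

lemma Alg.succ {Φ f : ℝ → ℝ} {n : ℕ} (h : Alg Φ n f) : Alg Φ (n + 1) f := by
  induction h with
  | const c => exact .const c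
  | inv => exact .inv
  | jet j hj => exact .jet j (hj.trans n.le_succ)
  | add _ _ h1 h2 => exact h1.add h2
  | mul _ _ h1 h2 => exact h1.mul h2

lemma b_jet {Φ : ℝ → ℝ} (hs : ContDiff ℝ ∞ Φ) (j : ℕ) (s : ℝ) :
    HasDerivAt (iteratedDeriv j Φ) (iteratedDeriv (j + 1) Φ s) s := by
  rw [iteratedDeriv_succ]
  exact (hs.differentiable_iteratedDeriv j (by exact_mod_cast ENat.natCast_lt_top j) s).hasDerivAt

lemma b_inv {Φ : ℝ → ℝ} (hs : ContDiff ℝ ∞ Φ) (h0 : ∀ s, 0 < Φ s) (s : ℝ) :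
    HasDerivAt (fun s => (Φ s)⁻¹) (-1 * (iteratedDeriv 1 Φ s * ((Φ s)⁻¹ * (Φ s)⁻¹))) s := by
  refine ((b_jet hs 0 s).fun_inv (h0 s).ne').congr_deriv ?_
  rw [iteratedDeriv_zero, div_eq_mul_inv, ← inv_pow]
  ring

lemma Alg.deriv {Φ f : ℝ → ℝ} {n : ℕ} (hs : ContDiff ℝ ∞ Φ) (h0 : ∀ s, 0 < Φ s) (h : Alg Φ n f) :
    ∃ f', Alg Φ (n + 1) f' ∧ ∀ s, HasDerivAt f (f' s) s := by
  induction h with
  | const c => exact ⟨_, .const 0, fun s => hasDerivAt_const s c⟩
  | inv => exact ⟨_, (Alg.const (-1)).mul ((Alg.jet 1 (by omega)).mul (Alg.inv.mul .inv)), b_inv hs h0⟩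
  | jet j hj => exact ⟨_, .jet (j + 1) (by omega), b_jet hs j⟩
  | add _ _ h1 h2 =>
    obtain ⟨f', a1, a2⟩ := h1
    obtain ⟨g', b1, b2⟩ := h2
    exact ⟨_, a1.add b1, fun s => (a2 s).fun_add (b2 s)⟩
  | mul hf hg h1 h2 =>
    obtain ⟨f', a1, a2⟩ := h1
    obtain ⟨g', b1, b2⟩ := h2
    exact ⟨_, (a1.mul hg.succ).add (hf.succ.mul b1), fun s => (a2 s).fun_mul (b2 s)⟩

/-- the differentiated equations: `Q_1 = 1/Φ - 2b`,
`Q_{i+1} = -Φ^{(i)}/Φ² + 2 Q_i + Φ' Φ^{(i)}/Φ³ + Q_i'`; `Alg n f → Differentiable f ∧ Alg (n+1) f'` -/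
lemma diff_eq {Φ : ℝ → ℝ} {b : ℝ} (hs : ContDiff ℝ ∞ Φ) (h0 : ∀ s, 0 < Φ s)
    (ode : ∀ s, iteratedDeriv 3 Φ s + 18 * iteratedDeriv 2 Φ s + 71 * iteratedDeriv 1 Φ s - 90 * Φ s + 90 =
      Real.exp (2 * s) * (1 / (2 * Φ s) - b)) (i : ℕ) :
    ∃ Q, Alg Φ i Q ∧ ∀ s, iteratedDeriv (i + 4) Φ s + 18 * iteratedDeriv (i + 3) Φ s +
      71 * iteratedDeriv (i + 2) Φ s - 90 * iteratedDeriv (i + 1) Φ s =
      Real.exp (2 * s) * (-iteratedDeriv (i + 1) Φ s / (2 * Φ s ^ 2) + Q s) := by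
  have J := b_jet hs
  have I := b_inv hs h0
  have hE : ∀ s, HasDerivAt (fun s => Real.exp (2 * s)) (Real.exp (2 * s) * (2 * 1)) s := fun s =>
    ((hasDerivAt_id' s).const_mul 2).exp
  induction i with
  | zero =>
    refine ⟨_, Alg.inv.add (.const (-2 * b)), fun s => ?_⟩
    have d1 := (((((J 3 s).fun_add ((J 2 s).const_mul 18)).fun_add ((J 1 s).const_mul 71)).fun_sub
      ((J 0 s).const_mul 90)).add_const 90)
    have d2 := (hE s).fun_mul (((I s).const_mul (1 / 2)).sub_const b)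
    refine (d1.unique (d2.congr_of_eventuallyEq (Eventually.of_forall fun t => ?_))).trans ?_
    · exact (ode t).trans (by rw [one_div, mul_inv, one_div])
    · have := (h0 s).ne'
      field_simp
      ring
  | succ i ih =>
    obtain ⟨Q, hQ, H⟩ := ih
    obtain ⟨Q', hQ', dQ⟩ := hQ.deriv hs h0
    have j1 : Alg Φ (i + 1) _ := .jet (i + 1) le_rfl
    refine ⟨_, ((((Alg.const (-1)).mul (j1.mul (Alg.inv.mul .inv))).add
      ((Alg.const 2).mul hQ.succ)).add (((Alg.jet 1 (by omega)).mul j1).mul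
        (Alg.inv.mul (Alg.inv.mul .inv)))).add hQ', fun s => ?_⟩
    have d1 := (((J (i + 4) s).fun_add ((J (i + 3) s).const_mul 18)).fun_add
      ((J (i + 2) s).const_mul 71)).fun_sub ((J (i + 1) s).const_mul 90)
    have d2 := (hE s).fun_mul ((((J (i + 1) s).fun_mul ((I s).fun_mul (I s))).const_mul
      (-1 / 2)).fun_add (dQ s))
    refine (d1.unique (d2.congr_of_eventuallyEq (Eventually.of_forall fun t => ?_))).trans ?_
    · have := (h0 t).ne'
      refine (H t).trans ?_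
      field_simp
    · have := (h0 s).ne'
      field_simp
      ring

/-- growth at most `C exp (N s)` on `[0,∞)`; `N = 0` if `p` -/
def c_EG (p : Prop) (f : ℝ → ℝ) : Prop :=
  ∃ C N : ℝ, 0 ≤ C ∧ 0 ≤ N ∧ (p → N = 0) ∧ ∀ s, 0 ≤ s → |f s| ≤ C * Real.exp (N * s)

lemma c_of_bd {p : Prop} {f : ℝ → ℝ} {C : ℝ} (h : ∀ s, 0 ≤ s → |f s| ≤ C) : c_EG p f :=
  ⟨C, 0, (abs_nonneg _).trans (h 0 le_rfl), le_rfl, fun _ => rfl, fun s hs => by simpa using h s hs⟩

lemma c_EG.bd {f : ℝ → ℝ} (h : c_EG True f) : ∃ C, 0 ≤ C ∧ ∀ s, 0 ≤ s → |f s| ≤ C := by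
  obtain ⟨C, N, hC, -, hN, h⟩ := h
  exact ⟨C, hC, fun s hs => by simpa [hN trivial] using h s hs⟩

lemma c_const (p : Prop) (c : ℝ) : c_EG p fun _ => c := c_of_bd fun _ _ => le_refl |c|

lemma c_EG.add {p : Prop} {f g : ℝ → ℝ} (hf : c_EG p f) (hg : c_EG p g) :
    c_EG p fun s => f s + g s := by
  obtain ⟨C, N, hC, hN, hp, h⟩ := hf
  obtain ⟨C', N', hC', hN', hp', h'⟩ := hg
  refine ⟨C + C', N + N', by positivity, by positivity, fun q => by rw [hp q, hp' q, add_zero],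
    fun s hs => (abs_add_le _ _).trans ?_⟩
  rw [add_mul C]
  refine add_le_add ((h s hs).trans ?_) ((h' s hs).trans ?_)
  · gcongr; linarith
  · gcongr; linarith

lemma c_EG.mul {p : Prop} {f g : ℝ → ℝ} (hf : c_EG p f) (hg : c_EG p g) :
    c_EG p fun s => f s * g s := by
  obtain ⟨C, N, hC, hN, hp, h⟩ := hf
  obtain ⟨C', N', hC', hN', hp', h'⟩ := hg
  refine ⟨C * C', N + N', by positivity, by positivity, fun q => by rw [hp q, hp' q, add_zero],
    fun s hs => ?_⟩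
  rw [abs_mul, add_mul, Real.exp_add, mul_mul_mul_comm]
  exact mul_le_mul (h s hs) (h' s hs) (abs_nonneg _) (by positivity)

lemma c_EG.abs {p : Prop} {f : ℝ → ℝ} (hf : c_EG p f) : c_EG p fun s => |f s| := by
  obtain ⟨C, N, hC, hN, hp, h⟩ := hf
  exact ⟨C, N, hC, hN, hp, fun s hs => by rw [abs_abs]; exact h s hs⟩

lemma c_EG.congr {p : Prop} {f g : ℝ → ℝ} (hf : c_EG p f) (h : ∀ s, g s = f s) : c_EG p g := by
  rwa [show g = f from funext h]

lemma c_exp : c_EG False fun s => Real.exp (2 * s) :=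
  ⟨1, 2, zero_le_one, zero_le_two, False.elim, fun s _ => by rw [one_mul, abs_of_pos (Real.exp_pos _)]⟩

lemma c_inv (p : Prop) {Φ : ℝ → ℝ} (h0 : ∀ s, 3 / 20 ≤ Φ s ∧ Φ s ≤ 2) : c_EG p fun s => (Φ s)⁻¹ := by
  refine c_of_bd (C := (3 / 20)⁻¹) fun s _ => ?_
  have h := (h0 s).1
  rw [abs_of_pos (inv_pos.2 (by linarith))]
  exact inv_anti₀ (by norm_num) h

lemma c_zero (p : Prop) {Φ : ℝ → ℝ} (h0 : ∀ s, 3 / 20 ≤ Φ s ∧ Φ s ≤ 2) :
    c_EG p (iteratedDeriv 0 Φ) := by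
  refine c_of_bd (C := 2) fun s _ => ?_
  rw [iteratedDeriv_zero, abs_le]
  exact ⟨by linarith [(h0 s).1], (h0 s).2⟩

lemma c_alg {p : Prop} {Φ Q : ℝ → ℝ} {n : ℕ} (h0 : ∀ s, 3 / 20 ≤ Φ s ∧ Φ s ≤ 2)
    (h : ∀ j ≤ n, c_EG p (iteratedDeriv j Φ)) (hQ : Alg Φ n Q) : c_EG p Q := by
  induction hQ with
  | const c => exact c_const p c
  | inv => exact c_inv p h0
  | jet j hj => exact h j hj
  | add _ _ a b => exact a.add b
  | mul _ _ a b => exact a.mul b

lemma c_growth {Φ : ℝ → ℝ} {b C N : ℝ} (hs : ContDiff ℝ ∞ Φ) (h0 : ∀ s, 3 / 20 ≤ Φ s ∧ Φ s ≤ 2)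
    (ode : ∀ s, iteratedDeriv 3 Φ s + 18 * iteratedDeriv 2 Φ s + 71 * iteratedDeriv 1 Φ s - 90 * Φ s + 90 =
      Real.exp (2 * s) * (1 / (2 * Φ s) - b))
    (hg : ∀ s, 0 ≤ s → |iteratedDeriv 1 Φ s| ≤ C * Real.exp (N * s) ∧
      |iteratedDeriv 2 Φ s| ≤ C * Real.exp (N * s)) (i : ℕ) : c_EG False (iteratedDeriv i Φ) := by
  have hC : 0 ≤ C := by simpa using (abs_nonneg _).trans (hg 0 le_rfl).1
  have hm : ∀ s, 0 ≤ s → C * Real.exp (N * s) ≤ C * Real.exp (|N| * s) := fun s hs => by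
    gcongr
    exact le_abs_self N
  have g1 : c_EG False (iteratedDeriv 1 Φ) :=
    ⟨C, |N|, hC, abs_nonneg _, False.elim, fun s hs => (hg s hs).1.trans (hm s hs)⟩
  have g2 : c_EG False (iteratedDeriv 2 Φ) :=
    ⟨C, |N|, hC, abs_nonneg _, False.elim, fun s hs => (hg s hs).2.trans (hm s hs)⟩
  have g0 := c_zero False h0
  have gi := c_inv False h0
  induction i using Nat.strong_induction_on with
  | _ i ih =>
    match i, ih with
    | 0, _ => exact g0
    | 1, _ => exact g1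
    | 2, _ => exact g2
    | 3, _ =>
      refine (((((c_const _ (-18)).mul g2).add ((c_const _ (-71)).mul g1)).add
        (((c_const _ 90).mul g0).add (c_const _ (-90)))).add
        (c_exp.mul (((c_const _ (1 / 2)).mul gi).add (c_const _ (-b))))).congr fun s => ?_
      have h := ode s
      rw [one_div, mul_inv] at h
      rw [iteratedDeriv_zero]
      linarith
    | i + 4, ih =>
      obtain ⟨Q, hQ, he⟩ := diff_eq hs (fun s => lt_of_lt_of_le (by norm_num) (h0 s).1) ode i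
      have gQ := c_alg h0 (fun j hj => ih j (by omega)) hQ
      refine (((((c_const _ (-18)).mul (ih (i + 3) (by omega))).add
        ((c_const _ (-71)).mul (ih (i + 2) (by omega)))).add
        ((c_const _ 90).mul (ih (i + 1) (by omega)))).add
        (c_exp.mul (((((c_const _ (-1 / 2)).mul (ih (i + 1) (by omega))).mul gi).mul gi).add
          gQ))).congr fun s => ?_
      have h := he s
      have e : -iteratedDeriv (i + 1) Φ s / (2 * Φ s ^ 2) =
          -1 / 2 * iteratedDeriv (i + 1) Φ s * (Φ s)⁻¹ * (Φ s)⁻¹ := by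
        rw [div_eq_mul_inv, mul_inv, sq, mul_inv]
        ring
      rw [e] at h
      linarith

lemma c_abs {c y K μ : ℝ} (hc : |c| ≤ K) (hy : |y| ≤ μ) : |c * y| ≤ K * μ := by
  rw [abs_mul]
  exact mul_le_mul hc hy (abs_nonneg _) ((abs_nonneg _).trans hc)

lemma c_err {x φ q y0 y1 y2 μ : ℝ} (hx0 : 0 ≤ x) (hx : x ≤ 1 / 100) (h1 : 7 / 10 ≤ φ) (h2 : φ ≤ 18 / 25)
    (a0 : |y0| ≤ μ) (a1 : |y1| ≤ μ) (a2 : |y2| ≤ μ) (hq : |q| ≤ μ / 20) :
    2 * |-(2 / 3 * x) * y1| +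
      |(1 - 1 / (2 * φ ^ 2) + 90 * x ^ 3) * y0 + -(71 * x ^ 2) * y1 + -(58 / 3 * x) * y2 + q| ≤
      9 / 20 * μ := by
  have hμ : 0 ≤ μ := (abs_nonneg _).trans a0
  have x2 : x ^ 2 ≤ (1 / 100) ^ 2 := pow_le_pow_left₀ hx0 hx 2
  have x3 : x ^ 3 ≤ (1 / 100) ^ 3 := pow_le_pow_left₀ hx0 hx 3
  have x2' : 0 ≤ x ^ 2 := by positivity
  have x3' : 0 ≤ x ^ 3 := by positivity
  have p1 : 1 / (2 * φ ^ 2) ≤ 21 / 20 := by
    rw [div_le_iff₀ (by positivity)]
    nlinarith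
  have p2 : 19 / 20 ≤ 1 / (2 * φ ^ 2) := by
    rw [le_div_iff₀ (by positivity)]
    nlinarith
  have b1 := c_abs (c := -(2 / 3 * x)) (K := 1 / 100) (abs_le.2 ⟨by linarith, by linarith⟩) a1
  have b2 := c_abs (c := 1 - 1 / (2 * φ ^ 2) + 90 * x ^ 3) (K := 1 / 10)
    (abs_le.2 ⟨by linarith, by linarith⟩) a0
  have b3 := c_abs (c := -(71 * x ^ 2)) (K := 1 / 100) (abs_le.2 ⟨by linarith, by linarith⟩) a1
  have b4 := c_abs (c := -(58 / 3 * x)) (K := 1 / 5) (abs_le.2 ⟨by linarith, by linarith⟩) a2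
  have b5 := (abs_add_le _ q).trans (add_le_add (abs_add_three _ _ _ |>.trans
    (add_le_add (add_le_add b2 b3) b4)) hq)
  linarith

lemma c_step {Φ Q Z0 Z1 Z2 Z3 : ℝ → ℝ} {s0 M : ℝ} (hM : 0 ≤ M)
    (h1 : ∀ s, s0 ≤ s → 7 / 10 ≤ Φ s ∧ Φ s ≤ 18 / 25) (hQ : ∀ s, 0 ≤ s → |Q s| ≤ M)
    (d0 : ∀ s, HasDerivAt Z0 (Z1 s) s) (d1 : ∀ s, HasDerivAt Z1 (Z2 s) s)
    (d2 : ∀ s, HasDerivAt Z2 (Z3 s) s)
    (he : ∀ s, Z3 s + 18 * Z2 s + 71 * Z1 s - 90 * Z0 s =
      Real.exp (2 * s) * (-Z0 s / (2 * Φ s ^ 2) + Q s))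
    (g0 : c_EG False Z0) (g1 : c_EG False Z1) (g2 : c_EG False Z2) : c_EG True Z0 := by
  obtain ⟨E, hE⟩ : ∃ E : ℝ → ℝ, E = fun s => Real.exp (-(2 / 3 * s)) := ⟨_, rfl⟩
  have dE : ∀ s, HasDerivAt E (-(2 / 3) * E s) s := fun s => by
    rw [hE]
    simpa [mul_comm] using (((hasDerivAt_id s).const_mul (2 / 3)).neg).exp
  have E0 : ∀ s, 0 < E s := fun s => by rw [hE]; exact Real.exp_pos _
  have E1 : ∀ s, 0 ≤ s → E s ≤ 1 := fun s hs => by
    rw [hE]
    exact Real.exp_le_one_iff.2 (by linarith)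
  have Ew : ∀ s, Real.exp (2 / 3 * s) = (E s)⁻¹ := fun s => by rw [hE, ← Real.exp_neg, neg_neg]
  have E3 : ∀ s, Real.exp (2 * s) = (E s)⁻¹ ^ 3 := fun s => by
    rw [← Ew, ← Real.exp_nat_mul]
    congr 1
    push_cast
    ring
  have E2 : ∀ s, 150 ≤ s → E s ≤ 1 / 100 := fun s hs => by
    have h := Real.add_one_le_exp (2 / 3 * s)
    rw [Ew] at h
    rw [one_div]
    exact le_inv_of_le_inv₀ (by norm_num) (by linarith)
  have H : ConeSys Z0 (fun s => Z1 s * E s) (fun s => Z2 s * E s ^ 2) (fun s => Real.exp (2 / 3 * s))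
      (max s0 150) (20 * M + 1) := by
    refine ⟨by positivity, fun _ _ => Real.exp_pos _, fun y hy => ?_⟩
    have hy0 := (le_max_left _ _).trans hy
    have hy1 := (le_max_right _ _).trans hy
    have e0 := E0 y
    have hφ : 0 < Φ y := lt_of_lt_of_le (by norm_num) (h1 y hy0).1
    refine ⟨-(2 / 3 * E y) * (Z1 y * E y), (1 - 1 / (2 * Φ y ^ 2) + 90 * E y ^ 3) * Z0 y +
      -(71 * E y ^ 2) * (Z1 y * E y) + -(58 / 3 * E y) * (Z2 y * E y ^ 2) + Q y, ?_, ?_, ?_,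
      fun μ a0 a1 a2 hμ => c_err e0.le (E2 y hy1) (h1 y hy0).1 (h1 y hy0).2 a0 a1 a2 ?_⟩
    · refine (d0 y).congr_deriv ?_
      rw [Ew]
      field_simp
    · refine ((d1 y).fun_mul (dE y)).congr_deriv ?_
      rw [Ew]
      field_simp
    · refine ((d2 y).fun_mul ((dE y).fun_pow 2)).congr_deriv ?_
      have h := he y
      rw [E3] at h
      rw [Ew, show Z3 y = (E y)⁻¹ ^ 3 * (-Z0 y / (2 * Φ y ^ 2) + Q y) - 18 * Z2 y - 71 * Z1 y +
        90 * Z0 y by linarith]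
      push_cast
      field_simp
      ring
    · linarith [hQ y (by linarith)]
  obtain ⟨C, N, -, -, -, hC⟩ := (g0.abs.add g1.abs).add g2.abs
  obtain ⟨C', hC'⟩ := H.liouville
    (Real.tendsto_exp_atTop.comp (tendsto_id.const_mul_atTop (by norm_num))) (C := C) (N := N)
    fun s hs => by
      have s0 : 0 ≤ s := by linarith [(le_max_right _ _).trans hs]
      have h := (le_abs_self _).trans (hC s s0)
      have a0 := abs_nonneg (Z0 s)
      have a1 := abs_nonneg (Z1 s)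
      have a2 := abs_nonneg (Z2 s)
      have b1 : |Z1 s * E s| ≤ |Z1 s| * 1 :=
        c_abs le_rfl ((abs_of_pos (E0 s)).trans_le (E1 s s0))
      have b2 : |Z2 s * E s ^ 2| ≤ |Z2 s| * 1 :=
        c_abs le_rfl ((abs_of_pos (pow_pos (E0 s) 2)).trans_le (pow_le_one₀ (E0 s).le (E1 s s0)))
      exact ⟨by linarith, by linarith, by linarith⟩
  obtain ⟨C'', hC''⟩ := (isCompact_Icc (a := (0 : ℝ)) (b := max s0 150)).exists_bound_of_continuousOn
    (f := Z0) fun s _ => (d0 s).continuousAt.continuousWithinAt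
  refine c_of_bd (C := max C' C'') fun s hs => ?_
  rcases le_total s (max s0 150) with h | h
  · exact (hC'' s ⟨hs, h⟩).trans (le_max_right _ _)
  · exact (hC' s h).trans (le_max_left _ _)

/-- First all derivatives grow at most exponentially on `[0,∞)` (strong induction with `ode`,
`diff_eq`).  Then strong induction on `i`: for `Z = Φ^{(i+1)}`, `ω = exp (2s/3)`,
`Y = (Z, Z'/ω, Z''/ω²)` is a `ConeSys` on `[s1,∞)` (`ω ≥ 400`, `s1 ≥ s0`) with `R = 20 sup |Q| + 1`: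
`e1 = -2/(3ω) Y1`, `e2 = (1 - 1/(2Φ²)) Y0 - (18 + 4/3)/ω Y2 - 71/ω² Y1 + 90/ω³ Y0 + Q`;
`ConeSys.liouville`; compactness on `[0,s1]`. -/
lemma sym_bd {Φ : ℝ → ℝ} {b s0 C N : ℝ} (hs : ContDiff ℝ ∞ Φ) (h0 : ∀ s, 3 / 20 ≤ Φ s ∧ Φ s ≤ 2)
    (h1 : ∀ s, s0 ≤ s → 7 / 10 ≤ Φ s ∧ Φ s ≤ 18 / 25)
    (ode : ∀ s, iteratedDeriv 3 Φ s + 18 * iteratedDeriv 2 Φ s + 71 * iteratedDeriv 1 Φ s - 90 * Φ s + 90 =
      Real.exp (2 * s) * (1 / (2 * Φ s) - b))
    (hg : ∀ s, 0 ≤ s → |iteratedDeriv 1 Φ s| ≤ C * Real.exp (N * s) ∧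
      |iteratedDeriv 2 Φ s| ≤ C * Real.exp (N * s)) (i : ℕ) :
    ∃ C', ∀ s, 0 ≤ s → |iteratedDeriv i Φ s| ≤ C' := by
  have gr := c_growth hs h0 ode hg
  have hd : ∀ j s, HasDerivAt (iteratedDeriv j Φ) (iteratedDeriv (j + 1) Φ s) s := fun j s => by
    rw [iteratedDeriv_succ]
    exact (hs.differentiable_iteratedDeriv j (by exact_mod_cast ENat.natCast_lt_top j) s).hasDerivAt
  have key : ∀ i, c_EG True (iteratedDeriv i Φ) := fun i => by
    induction i using Nat.strong_induction_on with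
    | _ i ih =>
      match i, ih with
      | 0, _ => exact c_zero True h0
      | i + 1, ih =>
        obtain ⟨Q, hQ, he⟩ := diff_eq hs (fun s => lt_of_lt_of_le (by norm_num) (h0 s).1) ode i
        obtain ⟨M, hM, hQ'⟩ := (c_alg h0 (fun j hj => ih j (by omega)) hQ).bd
        exact c_step hM h1 hQ' (hd (i + 1)) (hd (i + 2)) (hd (i + 3)) he (gr _) (gr _) (gr _)
  obtain ⟨C', -, h⟩ := (key i).bd
  exact ⟨C', h⟩

lemma TrueSol.b_lin {a b : ℝ} {S : ℝ → ℝ} (h : TrueSol a b S) {y : ℝ} (hy : 0 ≤ y) :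
    |S y| ≤ |a| + (|b| + 4) * y := by
  rw [h.1.2 y hy]
  refine (abs_add_le _ _).trans (add_le_add le_rfl ?_)
  have := intervalIntegral.norm_integral_le_of_norm_le_const (a := 0) (b := y) (C := |b| + 4)
    (f := fun t => b - psi t (FF S t) / 2) fun t ht => by
      rw [uIoc_of_le hy] at ht
      have r := h.2.2 t ht.1.le
      have r0 : 0 < FF S t := by linarith [r.1]
      have r1 : 1 / FF S t ≤ 8 := by rw [div_le_iff₀ r0]; linarith [r.1]
      rw [psi_eq r]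
      refine (abs_sub _ _).trans (add_le_add le_rfl ?_)
      rw [abs_of_pos (by positivity)]
      linarith
  rwa [sub_zero, abs_of_nonneg hy] at this

lemma TrueSol.b_gr {a b : ℝ} {S : ℝ → ℝ} (h : TrueSol a b S) {y : ℝ} (hy : 1 ≤ y) :
    |F1 S y| ≤ (90 + 20 * (|a| + |b| + 4)) * y ^ 2 ∧ |F2 S y| ≤ (90 + 20 * (|a| + |b| + 4)) * y ^ 2 := by
  have h0 : 0 ≤ y := by linarith
  have hM : ∀ t ∈ Icc 0 y, |S t - 0| ≤ (|a| + |b| + 4) * y := fun t ht => by
    rw [sub_zero]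
    refine (h.b_lin ht.1).trans ?_
    nlinarith [abs_nonneg a, abs_nonneg b, ht.2]
  have k1 := abs_Kg_sub h.1.1 continuous_const h0 hM
  have k2 := abs_Kr_sub h.1.1 continuous_const h0 hM
  have k3 := hM y ⟨h0, le_rfl⟩
  simp only [Kg, Kr, mul_zero, intervalIntegral.integral_zero, sub_zero] at k1 k2 k3
  obtain ⟨A, hA, A0⟩ : ∃ A, |a| + |b| + 4 = A ∧ 0 ≤ A := ⟨_, rfl, by positivity⟩
  rw [hA] at k1 k2 k3 ⊢
  have f1 : |F1 S y| ≤ A * y ^ 2 := by
    rw [F1, abs_neg, abs_mul, abs_of_nonneg h0, sq, mul_left_comm]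
    refine mul_le_mul_of_nonneg_left ((abs_sub _ _).trans ?_) h0
    rw [abs_mul, abs_of_pos (by norm_num : (0:ℝ) < 10), Kg, Kr]
    linarith [mul_nonneg A0 h0]
  have f2 : |y * S y| ≤ A * y ^ 2 := by
    rw [abs_mul, abs_of_nonneg h0, sq, mul_left_comm]
    exact mul_le_mul_of_nonneg_left k3 h0
  have r := h.2.2 y h0
  have y2 : 1 ≤ y ^ 2 := one_le_pow₀ hy
  have := mul_nonneg A0 (sq_nonneg y)
  rw [abs_le] at f1 f2
  rw [F2, abs_le, abs_le]
  refine ⟨⟨?_, ?_⟩, ?_, ?_⟩ <;> linarith [f1.1, f1.2, f2.1, f2.2, r.1, r.2.1]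

/-- `Φ s = FF S (exp s)`: `Φ' = F1 ∘ exp`, `Φ'' = F2 ∘ exp` (`hasDerivAt_FF`, `hasDerivAt_F1`,
`IsSol.hasDerivAt_F2`), `|S y| ≤ C (1 + y)` because `|b - ψ/2| ≤ |b| + 4`; `sym_bd` -/
lemma TrueSol.phi_bd {a b : ℝ} {S : ℝ → ℝ} (h : TrueSol a b S) (i : ℕ) :
    ∃ C, ∀ s, 0 ≤ s → |iteratedDeriv i (fun s => FF S (Real.exp s)) s| ≤ C := by
  have r := fun s => h.2.2 _ (Real.exp_pos s).le
  have e : ∀ {F : ℝ → ℝ} {c s : ℝ}, HasDerivAt F (c / Real.exp s) (Real.exp s) →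
      deriv (fun s => F (Real.exp s)) s = c := fun {F c s} hF => by
    have := (hF.comp s (Real.hasDerivAt_exp s)).deriv
    rwa [div_mul_cancel₀ _ (Real.exp_pos s).ne'] at this
  have e1 : iteratedDeriv 1 (fun s => FF S (Real.exp s)) = fun s => F1 S (Real.exp s) := by
    rw [iteratedDeriv_one]
    exact funext fun s => e (hasDerivAt_FF h.1.1 (Real.exp_pos s))
  have e2 : iteratedDeriv 2 (fun s => FF S (Real.exp s)) = fun s => F2 S (Real.exp s) := by
    rw [iteratedDeriv_succ, e1]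
    exact funext fun s => e (hasDerivAt_F1 h.1.1 (Real.exp_pos s))
  have e3 : ∀ s, Real.exp (2 * s) = Real.exp s ^ 2 := fun s => by
    rw [two_mul, Real.exp_add, sq]
  refine sym_bd (Φ := fun s => FF S (Real.exp s)) (b := b) (s0 := Real.log 50)
    (C := 90 + 20 * (|a| + |b| + 4)) (N := 2)
    (contDiff_const.sub (Real.contDiff_exp.mul
      (h.smooth.2.comp_contDiff Real.contDiff_exp fun s => (Real.exp_pos s).le)))
    (fun s => ⟨(r s).1, (r s).2.1⟩)
    (fun s hs => (r s).2.2 ((Real.log_le_iff_le_exp (by norm_num)).1 hs)) (fun s => ?_)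
    (fun s hs => ?_) i
  · rw [iteratedDeriv_succ, e2, e1, e (h.1.hasDerivAt_F2 (Real.exp_pos s)), psi_eq (r s), e3,
      div_div, mul_comm (FF S _) 2]
    ring
  · rw [e1, e2, e3]
    exact h.b_gr (Real.one_le_exp hs)

lemma d_hd {g : ℝ → ℝ} (hg : ContDiffOn ℝ ∞ g (Ici 0)) (i : ℕ) {y : ℝ} (hy : 0 < y) :
    HasDerivAt (iteratedDerivWithin i g (Ici 0)) (iteratedDerivWithin (i + 1) g (Ici 0) y) y := by
  have hd : DifferentiableOn ℝ (iteratedDerivWithin i g (Ici 0)) (Ici 0) :=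
    hg.differentiableOn_iteratedDerivWithin (by exact_mod_cast ENat.natCast_lt_top i) (uniqueDiffOn_Ici 0)
  rw [iteratedDerivWithin_succ]
  exact ((hd y hy.le).hasDerivWithinAt).hasDerivAt (Ici_mem_nhds hy)

lemma d_cont {g : ℝ → ℝ} (hg : ContDiffOn ℝ ∞ g (Ici 0)) (i : ℕ) :
    ContinuousOn (iteratedDerivWithin i g (Ici 0)) (Ici 0) :=
  hg.continuousOn_iteratedDerivWithin (by exact_mod_cast (le_top : (i : ℕ∞) ≤ ⊤)) (uniqueDiffOn_Ici 0)

lemma d_uniq {f g : ℝ → ℝ} {f' g' y : ℝ} (hy : 0 < y) (h : ∀ z, 0 < z → f z = g z)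
    (hf : HasDerivAt f f' y) (hg : HasDerivAt g g' y) : f' = g' := by
  have : f =ᶠ[𝓝 y] g := by
    filter_upwards [Ioi_mem_nhds hy] with z hz using h z hz
  exact hf.unique (hg.congr_of_eventuallyEq this)

/-- `h_i` -/
def dH (g : ℝ → ℝ) (i : ℕ) (s : ℝ) : ℝ :=
  Real.exp (((i : ℝ) + 1) * s) * iteratedDerivWithin i g (Ici 0) (Real.exp s)

lemma d_H_succ {g : ℝ → ℝ} (hg : ContDiffOn ℝ ∞ g (Ici 0)) (i : ℕ) :
    dH g (i + 1) = fun s => deriv (dH g i) s - ((i : ℝ) + 1) * dH g i s := by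
  funext s
  have h1 : HasDerivAt (fun s => Real.exp (((i : ℝ) + 1) * s))
      (Real.exp (((i : ℝ) + 1) * s) * (((i : ℝ) + 1) * 1)) s :=
    ((hasDerivAt_id s).const_mul _).exp
  have h2 := (d_hd hg i (Real.exp_pos s)).comp s (Real.hasDerivAt_exp s)
  have h3 := h1.mul h2
  have h4 : HasDerivAt (dH g i) _ s := h3
  rw [h4.deriv]
  simp only [dH, Function.comp]
  have : Real.exp ((((i + 1 : ℕ) : ℝ) + 1) * s) = Real.exp (((i : ℝ) + 1) * s) * Real.exp s := by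
    rw [← Real.exp_add]; congr 1; push_cast; ring
  rw [this]; ring

lemma d_H_smooth {g : ℝ → ℝ} (hg : ContDiffOn ℝ ∞ g (Ici 0)) (i : ℕ) : ContDiff ℝ ∞ (dH g i) := by
  induction i with
  | zero =>
    have : dH g 0 = fun s => Real.exp s * g (Real.exp s) := by
      funext s; simp [dH]
    rw [this]
    exact Real.contDiff_exp.mul (hg.comp_contDiff Real.contDiff_exp fun s => (Real.exp_pos s).le)
  | succ i ih =>
    rw [d_H_succ hg]
    exact (contDiff_infty_iff_deriv.1 ih).2.sub (contDiff_const.mul ih)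

lemma d_H_bd {g : ℝ → ℝ} (hg : ContDiffOn ℝ ∞ g (Ici 0))
    (h0 : ∀ j, ∃ C, ∀ s, 0 ≤ s → |iteratedDeriv j (dH g 0) s| ≤ C) (i : ℕ) :
    ∀ j, ∃ C, ∀ s, 0 ≤ s → |iteratedDeriv j (dH g i) s| ≤ C := by
  induction i with
  | zero => exact h0
  | succ i ih =>
    intro j
    obtain ⟨C1, h1⟩ := ih (j + 1)
    obtain ⟨C2, h2⟩ := ih j
    refine ⟨C1 + ((i : ℝ) + 1) * C2, fun s hs => ?_⟩
    have hsm := d_H_smooth hg i
    have hj : ((j : ℕ) : WithTop ℕ∞) ≤ ∞ := by exact_mod_cast (le_top : (j : ℕ∞) ≤ ⊤)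
    have e : iteratedDeriv j (dH g (i + 1)) s =
        iteratedDeriv (j + 1) (dH g i) s - ((i : ℝ) + 1) * iteratedDeriv j (dH g i) s := by
      rw [d_H_succ hg, iteratedDeriv_succ', ← iteratedDeriv_const_mul _ (hsm.of_le hj).contDiffAt]
      exact iteratedDeriv_fun_sub ((contDiff_infty_iff_deriv.1 hsm).2.of_le hj).contDiffAt
        ((contDiff_const.mul hsm).of_le hj).contDiffAt
    rw [e]
    have hi : (0 : ℝ) ≤ (i : ℝ) + 1 := by positivity
    calc _ ≤ |iteratedDeriv (j + 1) (dH g i) s| + |((i : ℝ) + 1) * iteratedDeriv j (dH g i) s| :=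
          abs_sub _ _
      _ ≤ _ := by
          rw [abs_mul, abs_of_nonneg hi]
          exact add_le_add (h1 s hs) (mul_le_mul_of_nonneg_left (h2 s hs) hi)

/-- `h_i s = exp ((i+1) s) g_i (exp s)` is smooth, `h_0 = 1 - Φ`, `h_{i+1} = h_i' - (i+1) h_i`; by induction
on `i` all derivatives of `h_i` are bounded on `[0,∞)`; compactness on `y ∈ [0,1]`. -/
lemma TrueSol.symb {a b : ℝ} {S : ℝ → ℝ} (h : TrueSol a b S) (i : ℕ) :
    ∃ C, ∀ y, 0 ≤ y → (1 + y) ^ (i + 1) * |iteratedDerivWithin i (Kg S) (Ici 0) y| ≤ C := by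
  have hg := h.smooth.2
  have hΦ : ContDiff ℝ ∞ (fun s => FF S (Real.exp s)) := by
    have := d_H_smooth hg 0
    have e : (fun s => FF S (Real.exp s)) = fun s => 1 - dH (Kg S) 0 s := by
      funext s; simp [dH, FF]
    rw [e]; exact contDiff_const.sub this
  have h0 : ∀ j, ∃ C, ∀ s, 0 ≤ s → |iteratedDeriv j (dH (Kg S) 0) s| ≤ C := by
    intro j
    obtain ⟨C, hC⟩ := h.phi_bd j
    have e : dH (Kg S) 0 = fun s => 1 - FF S (Real.exp s) := by
      funext s; simp [dH, FF]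
    refine ⟨1 + C, fun s hs => ?_⟩
    have hj : ((j : ℕ) : WithTop ℕ∞) ≤ ∞ := by exact_mod_cast (le_top : (j : ℕ∞) ≤ ⊤)
    rw [e, iteratedDeriv_fun_sub contDiffAt_const (hΦ.of_le hj).contDiffAt]
    refine (abs_sub _ _).trans (add_le_add ?_ (hC s hs))
    rw [iteratedDeriv_const]
    split_ifs <;> simp
  obtain ⟨C1, h1⟩ := d_H_bd hg h0 i 0
  obtain ⟨C2, h2⟩ := (isCompact_Icc (a := (0:ℝ)) (b := 1)).exists_bound_of_continuousOn
    ((d_cont hg i).mono Icc_subset_Ici_self)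
  refine ⟨2 ^ (i + 1) * max C1 C2, fun y hy => ?_⟩
  rcases le_total y 1 with hy1 | hy1
  · have := h2 y ⟨hy, hy1⟩
    rw [Real.norm_eq_abs] at this
    have h3 : (1 + y) ^ (i + 1) ≤ 2 ^ (i + 1) := pow_le_pow_left₀ (by linarith) (by linarith) _
    exact mul_le_mul h3 (this.trans (le_max_right _ _)) (abs_nonneg _) (by positivity)
  · have hy0 : 0 < y := by linarith
    have := h1 (Real.log y) (Real.log_nonneg hy1)
    simp only [iteratedDeriv_zero, dH, Real.exp_log hy0] at this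
    have e : Real.exp (((i : ℝ) + 1) * Real.log y) = y ^ (i + 1) := by
      rw [show ((i : ℝ) + 1) = ((i + 1 : ℕ) : ℝ) by push_cast; ring, Real.exp_nat_mul, Real.exp_log hy0]
    rw [e, abs_mul, abs_of_pos (pow_pos hy0 _)] at this
    have h3 : (1 + y) ^ (i + 1) ≤ 2 ^ (i + 1) * y ^ (i + 1) := by
      rw [← mul_pow]; exact pow_le_pow_left₀ (by linarith) (by linarith) _
    calc _ ≤ 2 ^ (i + 1) * y ^ (i + 1) * |iteratedDerivWithin i (Kg S) (Ici 0) y| :=
          mul_le_mul_of_nonneg_right h3 (abs_nonneg _)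
      _ = 2 ^ (i + 1) * (y ^ (i + 1) * |iteratedDerivWithin i (Kg S) (Ici 0) y|) := by ring
      _ ≤ _ := mul_le_mul_of_nonneg_left (this.trans (le_max_left _ _)) (by positivity)

lemma d_ode_pos {a b : ℝ} {S : ℝ → ℝ} (h : TrueSol a b S) (y : ℝ) (hy : 0 < y) :
    iteratedDerivWithin 0 (Kg S) (Ici 0) y + y * iteratedDerivWithin 1 (Kg S) (Ici 0) y +
      2 * (1 - y * iteratedDerivWithin 0 (Kg S) (Ici 0) y) ^ 2 *
        (y ^ 2 * iteratedDerivWithin 4 (Kg S) (Ici 0) y + 26 * y * iteratedDerivWithin 3 (Kg S) (Ici 0) y +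
          156 * iteratedDerivWithin 2 (Kg S) (Ici 0) y) = 0 := by
  have hg := h.smooth.2
  have hS := h.1.1
  set G : ℕ → ℝ → ℝ := fun i => iteratedDerivWithin i (Kg S) (Ici 0) with hG
  have hd : ∀ i z, 0 < z → HasDerivAt (G i) (G (i + 1) z) z := fun i z hz => d_hd hg i hz
  have hG0 : ∀ z, G 0 z = Kg S z := fun z => by simp [hG]
  have e1 : ∀ z, 0 < z → rr S z = 11 * z ^ 10 * G 0 z + z ^ 11 * G 1 z := by
    intro z hz
    have := d_uniq (f := pp S) (g := fun z => z ^ 11 * G 0 z) hz (fun w _ => by simp [pp, hG0])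
      (hasDerivAt_pp hS hz) ((hasDerivAt_pow 11 z).mul (hd 0 z hz))
    rw [this]; norm_num
  have e2 : ∀ z, 0 < z → S z = 110 * G 0 z + 22 * z * G 1 z + z ^ 2 * G 2 z := by
    intro z hz
    have := d_uniq hz e1 (hasDerivAt_rr hS hz)
      ((((hasDerivAt_pow 10 z).const_mul 11).mul (hd 0 z hz)).add ((hasDerivAt_pow 11 z).mul (hd 1 z hz)))
    have hz9 : z ^ 9 ≠ 0 := by positivity
    apply mul_left_cancel₀ hz9
    rw [this]; norm_num; ring
  have hF : ∀ z, 0 < z → 0 < 1 - z * G 0 z := by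
    intro z hz
    have := (h.2.2 z hz.le).1
    rw [hG0]; unfold FF at this; linarith
  have e3 : ∀ z, 0 < z → b - (1 - z * G 0 z)⁻¹ / 2 = 132 * G 1 z + 24 * z * G 2 z + z ^ 2 * G 3 z := by
    intro z hz
    have := d_uniq hz e2 (h.1.hasDerivAt hz)
      ((((hd 0 z hz).const_mul 110).add (((hasDerivAt_id z).const_mul 22).mul (hd 1 z hz))).add
        ((hasDerivAt_pow 2 z).mul (hd 2 z hz)))
    rw [psi_eq (h.2.2 z hz.le)] at this
    have e : (1 - z * G 0 z)⁻¹ = 1 / FF S z := by rw [hG0, one_div]; rfl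
    rw [e, this]; norm_num; ring
  have := d_uniq hy e3
    (((((((hasDerivAt_id y).mul (hd 0 y hy)).const_sub 1).inv (hF y hy).ne')).div_const 2).const_sub b)
    ((((hd 1 y hy).const_mul 132).add (((hasDerivAt_id y).const_mul 24).mul (hd 2 y hy))).add
        ((hasDerivAt_pow 2 y).mul (hd 3 y hy)))
  have hF0 := (hF y hy).ne'
  change G 0 y + y * G 1 y + 2 * (1 - y * G 0 y) ^ 2 * (y ^ 2 * G 4 y + 26 * y * G 3 y + 156 * G 2 y) = 0
  simp only [id, Pi.mul_apply] at this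
  norm_num at this
  have hk : (1 - y * G 0 y) ^ 2 * ((1 - y * G 0 y) ^ 2)⁻¹ = 1 := mul_inv_cancel₀ (pow_ne_zero _ hF0)
  rw [div_eq_mul_inv (G 0 y + y * G 1 y)] at this
  linear_combination (-2 * (1 - y * G 0 y) ^ 2) * this - (G 0 y + y * G 1 y) * hk

/-- With `g i = iteratedDerivWithin i (Kg S) (Ici 0)`.  For `y > 0`: `(y¹¹ g)'' = y⁹ S` gives
`S = y² g 2 + 22 y g 1 + 110 g 0`; differentiate twice; `S' = b - 1/(2F)`, `S'' = F'/(2F²)`,
`F' = -(g 0 + y g 1)`.  At `y = 0` by continuity. -/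
lemma TrueSol.ode {a b : ℝ} {S : ℝ → ℝ} (h : TrueSol a b S) (y : ℝ) (hy : 0 ≤ y) :
    iteratedDerivWithin 0 (Kg S) (Ici 0) y + y * iteratedDerivWithin 1 (Kg S) (Ici 0) y +
      2 * (1 - y * iteratedDerivWithin 0 (Kg S) (Ici 0) y) ^ 2 *
        (y ^ 2 * iteratedDerivWithin 4 (Kg S) (Ici 0) y + 26 * y * iteratedDerivWithin 3 (Kg S) (Ici 0) y +
          156 * iteratedDerivWithin 2 (Kg S) (Ici 0) y) = 0 := by
  have hg := h.smooth.2
  have hc := d_cont hg
  refine EqOn.of_subset_closure (s := Ioi (0:ℝ)) (t := Ici 0) (g := fun _ => (0:ℝ))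
    (f := fun y => iteratedDerivWithin 0 (Kg S) (Ici 0) y + y * iteratedDerivWithin 1 (Kg S) (Ici 0) y +
      2 * (1 - y * iteratedDerivWithin 0 (Kg S) (Ici 0) y) ^ 2 *
        (y ^ 2 * iteratedDerivWithin 4 (Kg S) (Ici 0) y + 26 * y * iteratedDerivWithin 3 (Kg S) (Ici 0) y +
          156 * iteratedDerivWithin 2 (Kg S) (Ici 0) y))
    (fun z hz => d_ode_pos h z hz) ?_ continuousOn_const Ioi_subset_Ici_self (by simp) hy
  have h0 := hc 0
  have h1 := hc 1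
  have h2 := hc 2
  have h3 := hc 3
  have h4 := hc 4
  fun_prop

/-- `c0 = 3/20`, `Kg S 0 = a/110` -/
theorem stE_of_true {a b : ℝ} {S : ℝ → ℝ} (h : TrueSol a b S) : StE := by
  refine ⟨fun i => iteratedDerivWithin i (Kg S) (Ici 0), 3 / 20, fun i y hy => ?_, h.ode,
    by norm_num, fun y hy => ?_, h.symb, ?_⟩
  · rw [iteratedDerivWithin_succ]
    exact (h.smooth.2.differentiableOn_iteratedDerivWithin (m := i)
      (by exact_mod_cast ENat.natCast_lt_top i) (uniqueDiffOn_Ici 0) y hy).hasDerivWithinAt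
  · simpa [FF] using (h.2.2 y hy).1
  · have e : Kg S 0 = a / 110 := by
      simp only [Kg, mul_zero, h.1.zero]
      rw [intervalIntegral.integral_mul_const, intervalIntegral.integral_sub
        ((continuous_pow 9).intervalIntegrable _ _) ((continuous_pow 10).intervalIntegrable _ _)]
      simp; ring
    have := h.2.1
    simp only [iteratedDerivWithin_zero, e]
    positivity

end Crest.Agent.R213.Ea
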