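import Crest.Agent.R213.Ea.TM
import Crest.Agent.R213.Ea.Symb
import Crest.Agent.R213.Ea.D0
import Crest.Agent.R213.Ea.D1
import Crest.Agent.R213.Ea.D2
import Crest.Agent.R213.Ea.D3
import Crest.Agent.R213.Ea.D4
import Crest.Agent.R213.Ea.D5
import Crest.Agent.R213.Ea.D6
import Crest.Agent.R213.Ea.D7
import Crest.Agent.R213.Ea.D8
import Crest.Agent.R213.Ea.D9
import Crest.Agent.R213.Ea.D10
import Crest.Agent.R213.Ea.D11

/-! Row 213, shrinker: assembly (generated). -/

set_option autoImplicit false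
set_option maxRecDepth 100000

namespace Crest.Agent.R213.Ea

def cT : TM := ⟨3706975732271757086415106400006873 / ONE, 4994398868504783808116 / ONE, -23431540965555565346679 / ONE, 305317000000 / ONE⟩

theorem okFin : chkFin (1 / 16) 9 pA pB st70 cT = true := by decide +kernel

theorem inv64 (x1 x2 : ℝ) (hx1 : |x1| ≤ 1) (hx2 : |x2| ≤ 1) (S : ℝ → ℝ)
    (hS : IsSol (pA.val x1 x2) (pB.val x1 x2) S) : Inv S x1 x2 64 st70 := by
  have h0 : Inv S x1 x2 1 st0 := first_sound ok0 hx1 hx2 hS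
  have h1 : Inv S x1 x2 (5 / 4) st1 := piece_sound okp1 oks1 hx1 hx2 hS
    (by norm_num [pc1]) (by norm_num [pc1]) h0
  have h2 : Inv S x1 x2 (3 / 2) st2 := piece_sound okp2 oks2 hx1 hx2 hS
    (by norm_num [pc2]) (by norm_num [pc2]) h1
  have h3 : Inv S x1 x2 (7 / 4) st3 := piece_sound okp3 oks3 hx1 hx2 hS
    (by norm_num [pc3]) (by norm_num [pc3]) h2
  have h4 : Inv S x1 x2 2 st4 := piece_sound okp4 oks4 hx1 hx2 hS
    (by norm_num [pc4]) (by norm_num [pc4]) h3
  have h5 : Inv S x1 x2 (5 / 2) st5 := piece_sound okp5 oks5 hx1 hx2 hS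
    (by norm_num [pc5]) (by norm_num [pc5]) h4
  have h6 : Inv S x1 x2 3 st6 := piece_sound okp6 oks6 hx1 hx2 hS
    (by norm_num [pc6]) (by norm_num [pc6]) h5
  have h7 : Inv S x1 x2 (7 / 2) st7 := piece_sound okp7 oks7 hx1 hx2 hS
    (by norm_num [pc7]) (by norm_num [pc7]) h6
  have h8 : Inv S x1 x2 4 st8 := piece_sound okp8 oks8 hx1 hx2 hS
    (by norm_num [pc8]) (by norm_num [pc8]) h7
  have h9 : Inv S x1 x2 (17 / 4) st9 := piece_sound okp9 oks9 hx1 hx2 hS
    (by norm_num [pc9]) (by norm_num [pc9]) h8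
  have h10 : Inv S x1 x2 (9 / 2) st10 := piece_sound okp10 oks10 hx1 hx2 hS
    (by norm_num [pc10]) (by norm_num [pc10]) h9
  have h11 : Inv S x1 x2 (19 / 4) st11 := piece_sound okp11 oks11 hx1 hx2 hS
    (by norm_num [pc11]) (by norm_num [pc11]) h10
  have h12 : Inv S x1 x2 5 st12 := piece_sound okp12 oks12 hx1 hx2 hS
    (by norm_num [pc12]) (by norm_num [pc12]) h11
  have h13 : Inv S x1 x2 (21 / 4) st13 := piece_sound okp13 oks13 hx1 hx2 hS
    (by norm_num [pc13]) (by norm_num [pc13]) h12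
  have h14 : Inv S x1 x2 (11 / 2) st14 := piece_sound okp14 oks14 hx1 hx2 hS
    (by norm_num [pc14]) (by norm_num [pc14]) h13
  have h15 : Inv S x1 x2 (23 / 4) st15 := piece_sound okp15 oks15 hx1 hx2 hS
    (by norm_num [pc15]) (by norm_num [pc15]) h14
  have h16 : Inv S x1 x2 6 st16 := piece_sound okp16 oks16 hx1 hx2 hS
    (by norm_num [pc16]) (by norm_num [pc16]) h15
  have h17 : Inv S x1 x2 (25 / 4) st17 := piece_sound okp17 oks17 hx1 hx2 hS
    (by norm_num [pc17]) (by norm_num [pc17]) h16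
  have h18 : Inv S x1 x2 (13 / 2) st18 := piece_sound okp18 oks18 hx1 hx2 hS
    (by norm_num [pc18]) (by norm_num [pc18]) h17
  have h19 : Inv S x1 x2 (27 / 4) st19 := piece_sound okp19 oks19 hx1 hx2 hS
    (by norm_num [pc19]) (by norm_num [pc19]) h18
  have h20 : Inv S x1 x2 7 st20 := piece_sound okp20 oks20 hx1 hx2 hS
    (by norm_num [pc20]) (by norm_num [pc20]) h19
  have h21 : Inv S x1 x2 (29 / 4) st21 := piece_sound okp21 oks21 hx1 hx2 hS
    (by norm_num [pc21]) (by norm_num [pc21]) h20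
  have h22 : Inv S x1 x2 (15 / 2) st22 := piece_sound okp22 oks22 hx1 hx2 hS
    (by norm_num [pc22]) (by norm_num [pc22]) h21
  have h23 : Inv S x1 x2 (31 / 4) st23 := piece_sound okp23 oks23 hx1 hx2 hS
    (by norm_num [pc23]) (by norm_num [pc23]) h22
  have h24 : Inv S x1 x2 8 st24 := piece_sound okp24 oks24 hx1 hx2 hS
    (by norm_num [pc24]) (by norm_num [pc24]) h23
  have h25 : Inv S x1 x2 (33 / 4) st25 := piece_sound okp25 oks25 hx1 hx2 hS
    (by norm_num [pc25]) (by norm_num [pc25]) h24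
  have h26 : Inv S x1 x2 (17 / 2) st26 := piece_sound okp26 oks26 hx1 hx2 hS
    (by norm_num [pc26]) (by norm_num [pc26]) h25
  have h27 : Inv S x1 x2 (35 / 4) st27 := piece_sound okp27 oks27 hx1 hx2 hS
    (by norm_num [pc27]) (by norm_num [pc27]) h26
  have h28 : Inv S x1 x2 9 st28 := piece_sound okp28 oks28 hx1 hx2 hS
    (by norm_num [pc28]) (by norm_num [pc28]) h27
  have h29 : Inv S x1 x2 (37 / 4) st29 := piece_sound okp29 oks29 hx1 hx2 hS
    (by norm_num [pc29]) (by norm_num [pc29]) h28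
  have h30 : Inv S x1 x2 (19 / 2) st30 := piece_sound okp30 oks30 hx1 hx2 hS
    (by norm_num [pc30]) (by norm_num [pc30]) h29
  have h31 : Inv S x1 x2 (39 / 4) st31 := piece_sound okp31 oks31 hx1 hx2 hS
    (by norm_num [pc31]) (by norm_num [pc31]) h30
  have h32 : Inv S x1 x2 10 st32 := piece_sound okp32 oks32 hx1 hx2 hS
    (by norm_num [pc32]) (by norm_num [pc32]) h31
  have h33 : Inv S x1 x2 (41 / 4) st33 := piece_sound okp33 oks33 hx1 hx2 hS
    (by norm_num [pc33]) (by norm_num [pc33]) h32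
  have h34 : Inv S x1 x2 (21 / 2) st34 := piece_sound okp34 oks34 hx1 hx2 hS
    (by norm_num [pc34]) (by norm_num [pc34]) h33
  have h35 : Inv S x1 x2 (43 / 4) st35 := piece_sound okp35 oks35 hx1 hx2 hS
    (by norm_num [pc35]) (by norm_num [pc35]) h34
  have h36 : Inv S x1 x2 11 st36 := piece_sound okp36 oks36 hx1 hx2 hS
    (by norm_num [pc36]) (by norm_num [pc36]) h35
  have h37 : Inv S x1 x2 (45 / 4) st37 := piece_sound okp37 oks37 hx1 hx2 hS
    (by norm_num [pc37]) (by norm_num [pc37]) h36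
  have h38 : Inv S x1 x2 (23 / 2) st38 := piece_sound okp38 oks38 hx1 hx2 hS
    (by norm_num [pc38]) (by norm_num [pc38]) h37
  have h39 : Inv S x1 x2 (47 / 4) st39 := piece_sound okp39 oks39 hx1 hx2 hS
    (by norm_num [pc39]) (by norm_num [pc39]) h38
  have h40 : Inv S x1 x2 12 st40 := piece_sound okp40 oks40 hx1 hx2 hS
    (by norm_num [pc40]) (by norm_num [pc40]) h39
  have h41 : Inv S x1 x2 (25 / 2) st41 := piece_sound okp41 oks41 hx1 hx2 hS
    (by norm_num [pc41]) (by norm_num [pc41]) h40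
  have h42 : Inv S x1 x2 13 st42 := piece_sound okp42 oks42 hx1 hx2 hS
    (by norm_num [pc42]) (by norm_num [pc42]) h41
  have h43 : Inv S x1 x2 (27 / 2) st43 := piece_sound okp43 oks43 hx1 hx2 hS
    (by norm_num [pc43]) (by norm_num [pc43]) h42
  have h44 : Inv S x1 x2 14 st44 := piece_sound okp44 oks44 hx1 hx2 hS
    (by norm_num [pc44]) (by norm_num [pc44]) h43
  have h45 : Inv S x1 x2 (29 / 2) st45 := piece_sound okp45 oks45 hx1 hx2 hS
    (by norm_num [pc45]) (by norm_num [pc45]) h44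
  have h46 : Inv S x1 x2 15 st46 := piece_sound okp46 oks46 hx1 hx2 hS
    (by norm_num [pc46]) (by norm_num [pc46]) h45
  have h47 : Inv S x1 x2 (31 / 2) st47 := piece_sound okp47 oks47 hx1 hx2 hS
    (by norm_num [pc47]) (by norm_num [pc47]) h46
  have h48 : Inv S x1 x2 16 st48 := piece_sound okp48 oks48 hx1 hx2 hS
    (by norm_num [pc48]) (by norm_num [pc48]) h47
  have h49 : Inv S x1 x2 17 st49 := piece_sound okp49 oks49 hx1 hx2 hS
    (by norm_num [pc49]) (by norm_num [pc49]) h48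
  have h50 : Inv S x1 x2 18 st50 := piece_sound okp50 oks50 hx1 hx2 hS
    (by norm_num [pc50]) (by norm_num [pc50]) h49
  have h51 : Inv S x1 x2 19 st51 := piece_sound okp51 oks51 hx1 hx2 hS
    (by norm_num [pc51]) (by norm_num [pc51]) h50
  have h52 : Inv S x1 x2 20 st52 := piece_sound okp52 oks52 hx1 hx2 hS
    (by norm_num [pc52]) (by norm_num [pc52]) h51
  have h53 : Inv S x1 x2 21 st53 := piece_sound okp53 oks53 hx1 hx2 hS
    (by norm_num [pc53]) (by norm_num [pc53]) h52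
  have h54 : Inv S x1 x2 22 st54 := piece_sound okp54 oks54 hx1 hx2 hS
    (by norm_num [pc54]) (by norm_num [pc54]) h53
  have h55 : Inv S x1 x2 23 st55 := piece_sound okp55 oks55 hx1 hx2 hS
    (by norm_num [pc55]) (by norm_num [pc55]) h54
  have h56 : Inv S x1 x2 24 st56 := piece_sound okp56 oks56 hx1 hx2 hS
    (by norm_num [pc56]) (by norm_num [pc56]) h55
  have h57 : Inv S x1 x2 26 st57 := piece_sound okp57 oks57 hx1 hx2 hS
    (by norm_num [pc57]) (by norm_num [pc57]) h56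
  have h58 : Inv S x1 x2 28 st58 := piece_sound okp58 oks58 hx1 hx2 hS
    (by norm_num [pc58]) (by norm_num [pc58]) h57
  have h59 : Inv S x1 x2 30 st59 := piece_sound okp59 oks59 hx1 hx2 hS
    (by norm_num [pc59]) (by norm_num [pc59]) h58
  have h60 : Inv S x1 x2 32 st60 := piece_sound okp60 oks60 hx1 hx2 hS
    (by norm_num [pc60]) (by norm_num [pc60]) h59
  have h61 : Inv S x1 x2 34 st61 := piece_sound okp61 oks61 hx1 hx2 hS
    (by norm_num [pc61]) (by norm_num [pc61]) h60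
  have h62 : Inv S x1 x2 36 st62 := piece_sound okp62 oks62 hx1 hx2 hS
    (by norm_num [pc62]) (by norm_num [pc62]) h61
  have h63 : Inv S x1 x2 38 st63 := piece_sound okp63 oks63 hx1 hx2 hS
    (by norm_num [pc63]) (by norm_num [pc63]) h62
  have h64 : Inv S x1 x2 40 st64 := piece_sound okp64 oks64 hx1 hx2 hS
    (by norm_num [pc64]) (by norm_num [pc64]) h63
  have h65 : Inv S x1 x2 44 st65 := piece_sound okp65 oks65 hx1 hx2 hS
    (by norm_num [pc65]) (by norm_num [pc65]) h64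
  have h66 : Inv S x1 x2 48 st66 := piece_sound okp66 oks66 hx1 hx2 hS
    (by norm_num [pc66]) (by norm_num [pc66]) h65
  have h67 : Inv S x1 x2 52 st67 := piece_sound okp67 oks67 hx1 hx2 hS
    (by norm_num [pc67]) (by norm_num [pc67]) h66
  have h68 : Inv S x1 x2 56 st68 := piece_sound okp68 oks68 hx1 hx2 hS
    (by norm_num [pc68]) (by norm_num [pc68]) h67
  have h69 : Inv S x1 x2 60 st69 := piece_sound okp69 oks69 hx1 hx2 hS
    (by norm_num [pc69]) (by norm_num [pc69]) h68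
  have h70 : Inv S x1 x2 64 st70 := piece_sound okp70 oks70 hx1 hx2 hS
    (by norm_num [pc70]) (by norm_num [pc70]) h69
  exact h70

theorem stFin : StFin := stFin_of okFin inv64

theorem stE : StE := by
  obtain ⟨a, b, S, h⟩ := exists_true stFin
  exact stE_of_true h

end Crest.Agent.R213.Ea
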