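import Crest.Agent.R213.Ea.Exist

/-! Row 213, shrinker: polynomials as lists of integers (lowest coefficient first). -/

set_option autoImplicit false
open Set Filter Topology

namespace Crest.Agent.R213.Ea

def padd : List ℤ → List ℤ → List ℤ
  | [], b => b
  | x :: a, [] => x :: a
  | x :: a, y :: b => (x + y) :: padd a b
def psm (k : ℤ) : List ℤ → List ℤ
  | [] => []
  | x :: a => (k * x) :: psm k a
def psub (a b : List ℤ) : List ℤ := padd a (psm (-1) b)
def pmul : List ℤ → List ℤ → List ℤ
  | [], _ => []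
  | x :: a, b => padd (psm x b) (0 :: pmul a b)
/-- coefficients `(k + i) l_i`, that is `u^{1-k} (u^k l)'` -/
def pderA : ℤ → List ℤ → List ℤ
  | _, [] => []
  | k, x :: a => (k * x) :: pderA (k + 1) a
def pder : List ℤ → List ℤ
  | [] => []
  | _ :: a => pderA 1 a
def pabs : List ℤ → ℤ
  | [] => 0
  | x :: a => (x.natAbs : ℤ) + pabs a
def pone : List ℤ → ℤ
  | [] => 0
  | x :: a => x + pone a
/-- rounded inverse of `pderA` (no property needed) -/
def pdivA (num den : ℤ) : ℤ → List ℤ → List ℤ
  | _, [] => []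
  | k, x :: a => (num * x / (den * k)) :: pdivA num den (k + 1) a
def pint (c num den : ℤ) (l : List ℤ) : List ℤ := c :: pdivA num den 1 l
def ppow (N : ℤ) : ℕ → List ℤ
  | 0 => [1]
  | k + 1 => pmul [N, 1] (ppow N k)
def pevq : List ℤ → ℚ → ℚ
  | [], _ => 0
  | x :: a, u => x + u * pevq a u

noncomputable def pev : List ℤ → ℝ → ℝ
  | [], _ => 0
  | x :: a, u => x + u * pev a u

@[simp] lemma pev_nil (u : ℝ) : pev [] u = 0 := rfl
@[simp] lemma pev_cons (x : ℤ) (a : List ℤ) (u : ℝ) : pev (x :: a) u = x + u * pev a u := rfl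
lemma pev_padd (a b : List ℤ) (u : ℝ) : pev (padd a b) u = pev a u + pev b u := by
  induction a generalizing b with
  | nil => simp [padd]
  | cons x a ih =>
    cases b with
    | nil => simp [padd]
    | cons y b => simp only [padd, pev_cons, ih]; push_cast; ring
lemma pev_psm (k : ℤ) (a : List ℤ) (u : ℝ) : pev (psm k a) u = k * pev a u := by
  induction a with
  | nil => simp [psm]
  | cons x a ih => simp only [psm, pev_cons, ih]; push_cast; ring
lemma pev_psub (a b : List ℤ) (u : ℝ) : pev (psub a b) u = pev a u - pev b u := by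
  rw [psub, pev_padd, pev_psm]; push_cast; ring
lemma pev_pmul (a b : List ℤ) (u : ℝ) : pev (pmul a b) u = pev a u * pev b u := by
  induction a with
  | nil => simp [pmul]
  | cons x a ih => simp only [pmul, pev_padd, pev_psm, pev_cons, ih]; push_cast; ring
lemma pev_ppow (N : ℤ) (k : ℕ) (u : ℝ) : pev (ppow N k) u = (N + u) ^ k := by
  induction k with
  | zero => simp [ppow]
  | succ k ih => simp only [ppow, pev_pmul, pev_cons, pev_nil, ih]; push_cast; ring
lemma pev_one (a : List ℤ) : pev a 1 = pone a := by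
  induction a with
  | nil => simp [pone]
  | cons x a ih => simp only [pone, pev_cons, ih]; push_cast; ring
lemma pev_pint_zero (c num den : ℤ) (l : List ℤ) : pev (pint c num den l) 0 = c := by
  simp [pint]
lemma pevq_cast (a : List ℤ) (t : ℚ) : (pevq a t : ℝ) = pev a t := by
  induction a with
  | nil => simp [pevq]
  | cons x a ih => simp only [pevq, pev_cons, ← ih]; push_cast; ring
lemma abs_pev_le (a : List ℤ) {u : ℝ} (hu : |u| ≤ 1) : |pev a u| ≤ pabs a := by
  induction a with
  | nil => simp [pabs]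
  | cons x a ih =>
    simp only [pabs, pev_cons, Int.natCast_natAbs]
    push_cast
    refine (abs_add_le _ _).trans (add_le_add le_rfl ?_)
    rw [abs_mul]
    exact (mul_le_of_le_one_left (abs_nonneg _) hu).trans ih
lemma continuous_pev (a : List ℤ) : Continuous (pev a) := by
  induction a with
  | nil => exact continuous_const
  | cons x a ih => exact continuous_const.add (continuous_id.mul ih)
lemma Poly_deriv (a : List ℤ) (k : ℕ) (y s : ℝ) :
    HasDerivAt (fun s : ℝ => s ^ (k + 1) * pev a (s * y)) (s ^ k * pev (pderA ((k : ℤ) + 1) a) (s * y)) s := by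
  induction a generalizing k with
  | nil => simpa [pderA] using hasDerivAt_const s (0 : ℝ)
  | cons x a ih =>
    have h := ((hasDerivAt_pow (k + 1) s).mul_const (x : ℝ)).add ((ih (k + 1)).const_mul y)
    have e1 : (fun s : ℝ => s ^ (k + 1) * pev (x :: a) (s * y))
        = fun s : ℝ => s ^ (k + 1) * (x : ℝ) + y * (s ^ (k + 1 + 1) * pev a (s * y)) := by
      funext s
      rw [pev_cons]
      ring
    rw [e1]
    refine h.congr_deriv ?_
    simp only [pderA, pev_cons, Nat.add_sub_cancel]
    push_cast
    ring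
lemma hasDerivAt_pev (a : List ℤ) (u : ℝ) : HasDerivAt (pev a) (pev (pder a) u) u := by
  cases a with
  | nil => exact hasDerivAt_const u (0 : ℝ)
  | cons x a =>
    have h := (Poly_deriv a 0 1 u).const_add (x : ℝ)
    simp only [zero_add, pow_one, mul_one, pow_zero, one_mul, Nat.cast_zero] at h
    exact h
lemma pev_lip (a : List ℤ) {u v : ℝ} (hu : u ∈ Icc (0:ℝ) 1) (hv : v ∈ Icc (0:ℝ) 1) :
    |pev a u - pev a v| ≤ pabs (pder a) * |u - v| := by
  exact Convex.norm_image_sub_le_of_norm_hasDerivWithin_le (s := Icc (0 : ℝ) 1)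
    (fun x _ => (hasDerivAt_pev a x).hasDerivWithinAt)
    (fun x hx => abs_pev_le (pder a) (abs_le.2 ⟨by linarith [hx.1], hx.2⟩)) (convex_Icc 0 1) hv hu
lemma Poly_int (a : List ℤ) (k : ℕ) (y : ℝ) :
    ∫ s in (0:ℝ)..1, s ^ k * pev (pderA ((k : ℤ) + 1) a) (s * y) = pev a y := by
  rw [intervalIntegral.integral_eq_sub_of_hasDerivAt (fun s _ => Poly_deriv a k y s)
    (((continuous_pow k).mul ((continuous_pev _).comp (continuous_id.mul continuous_const))).intervalIntegrable
      _ _)]
  simp
lemma Poly_comm (a : List ℤ) (k l : ℤ) : pderA k (pderA l a) = pderA l (pderA k a) := by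
  induction a generalizing k l with
  | nil => rfl
  | cons x a ih => simp only [pderA, ih (k + 1) (l + 1), mul_left_comm k l x]
lemma Poly_succ (a : List ℤ) (k : ℤ) (y : ℝ) : pev (pderA (k + 1) a) y = pev (pderA k a) y + pev a y := by
  induction a generalizing k with
  | nil => simp [pderA]
  | cons x a ih => simp only [pderA, pev_cons, ih (k + 1)]; push_cast; ring
/-- induction on the list, generalising the start index: `∫_0^1 s^k pev (pderA (k+1) l) (s y) = pev l y` -/
lemma Kr_pderA (a : List ℤ) (y : ℝ) : Kr (pev (pderA 10 a)) y = pev a y := by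
  exact Poly_int a 9 y
lemma Kg_pderA (a : List ℤ) (y : ℝ) : Kg (pev (pderA 10 (pderA 11 a))) y = pev a y := by
  have hc : ∀ k : ℕ, IntervalIntegrable (fun s : ℝ => s ^ k * pev (pderA 10 (pderA 11 a)) (s * y))
      MeasureTheory.volume 0 1 := fun k =>
    ((continuous_pow k).mul ((continuous_pev _).comp (continuous_id.mul continuous_const))).intervalIntegrable
      _ _
  have h1 : ∫ s in (0:ℝ)..1, s ^ 9 * pev (pderA 10 (pderA 11 a)) (s * y) = pev (pderA 11 a) y :=
    Poly_int _ 9 y
  have h2 : ∫ s in (0:ℝ)..1, s ^ 10 * pev (pderA 10 (pderA 11 a)) (s * y) = pev (pderA 10 a) y := by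
    rw [Poly_comm]
    exact Poly_int _ 10 y
  have h3 : pev (pderA 11 a) y = pev (pderA 10 a) y + pev a y := Poly_succ a 10 y
  simp only [Kg, sub_mul]
  rw [intervalIntegral.integral_sub (hc 9) (hc 10), h1, h2, h3]
  ring

end Crest.Agent.R213.Ea
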