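import Crest.Agent.R213.Ea.Exist
import Crest.Agent.R213.Ea.Cone
import Crest.Agent.Lib.Brouwer.Basic

/-! Row 213, shrinker: the shooting argument. -/

set_option autoImplicit false
open Set Filter Topology

noncomputable section
namespace Crest.Agent.R213.Ea

lemma om_64 : om 64 = 16 := by
  rw [om, show (64 : ℝ) = 4 ^ (3 : ℝ) by norm_num, ← Real.rpow_mul (by norm_num)]
  norm_num
lemma om_cube {y : ℝ} (hy : 0 ≤ y) : om y ^ 3 = y ^ 2 := by
  rw [om, ← Real.rpow_natCast, ← Real.rpow_mul hy]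
  norm_num
lemma om_ge {y : ℝ} (hy : 64 ≤ y) : 16 ≤ om y := by
  rw [← om_64]
  exact Real.rpow_le_rpow (by norm_num) hy (by norm_num)
lemma hasDerivAt_om {y : ℝ} (hy : 0 < y) : HasDerivAt om (2 / 3 * om y / y) y := by
  refine (Real.hasDerivAt_rpow_const (p := 2 / 3) (Or.inl hy.ne')).congr_deriv ?_
  rw [Real.rpow_sub_one hy.ne', om, mul_div_assoc]
lemma hasDerivAt_Fa (b : ℝ) (k i : ℕ) {y : ℝ} (hy : 0 < y) :
    HasDerivAt (Fa b k i) (Fa b k (i + 1) y / y) y := by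
  have h := HasDerivAt.fun_sum (u := Finset.range (k + 1)) (x := y)
    (A := fun (j : ℕ) (y : ℝ) => (-2 * (j : ℝ)) ^ i * fc (1 / (2 * b)) j / y ^ (2 * j))
    (A' := fun j => (-2 * (j : ℝ)) ^ (i + 1) * fc (1 / (2 * b)) j / y ^ (2 * j) / y) fun j _ => by
      refine ((hasDerivAt_const y _).fun_div (hasDerivAt_pow (2 * j) y)
        (pow_pos hy _).ne').congr_deriv ?_
      rcases j with _ | j
      · simp
      · rw [show 2 * (j + 1) - 1 = 2 * j + 1 by omega]
        push_cast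
        field_simp
        ring
  rw [← Finset.sum_div] at h
  exact h

lemma sha_bd {w V r R μ x0 x1 x2 : ℝ} (hw : 16 ≤ w) (hV1 : 1 / (18 / 25) ^ 2 ≤ V)
    (hV2 : V ≤ 1 / (7 / 10) ^ 2) (hr : |r| ≤ R / 20) (h0 : |x0| ≤ μ) (h1 : |x1| ≤ μ) (h2 : |x2| ≤ μ)
    (hR : R ≤ μ) :
    2 * |-(2 / 3 / w * x1)| +
      |(1 - V / 2) * x0 + 37 / w ^ 2 * x1 + 84 / w ^ 3 * x0 - 4 / 3 / w * x2 - r| ≤ 9 / 20 * μ := by
  have hw0 : 0 < w := by linarith
  have hμ : 0 ≤ μ := (abs_nonneg _).trans h0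
  have key : ∀ {c d x : ℝ}, |c| ≤ d → |x| ≤ μ → |c * x| ≤ d * μ := fun hc hx => by
    rw [abs_mul]
    exact mul_le_mul hc hx (abs_nonneg _) ((abs_nonneg _).trans hc)
  have dv : ∀ {c : ℝ} (n : ℕ), 0 ≤ c → |c / w ^ n| ≤ c / 16 ^ n := fun n hc => by
    rw [abs_of_nonneg (by positivity)]
    exact div_le_div_of_nonneg_left hc (by positivity) (pow_le_pow_left₀ (by norm_num) hw n)
  have a1 := abs_le.1 (key (dv (c := 2 / 3) 1 (by norm_num)) h1)
  have a2 := abs_le.1 (key (c := 1 - V / 2) (d := 36 / 1000)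
    (abs_le.2 ⟨by norm_num at hV2 ⊢; linarith, by norm_num at hV1 ⊢; linarith⟩) h0)
  have a3 := abs_le.1 (key (dv (c := 37) 2 (by norm_num)) h1)
  have a4 := abs_le.1 (key (dv (c := 84) 3 (by norm_num)) h0)
  have a5 := abs_le.1 (key (dv (c := 4 / 3) 1 (by norm_num)) h2)
  have a6 := abs_le.1 hr
  simp only [pow_one] at a1 a5
  have b1 : |-(2 / 3 / w * x1)| ≤ 2 / 3 / 16 * μ := abs_le.2 ⟨by linarith, by linarith⟩
  have b2 : |(1 - V / 2) * x0 + 37 / w ^ 2 * x1 + 84 / w ^ 3 * x0 - 4 / 3 / w * x2 - r| ≤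
      1 / 3 * μ + 1 / 30 * μ := abs_le.2 ⟨by linarith, by linarith⟩
  linarith

/-- With `D0 = X0`, `D1 = ω X1`, `D2 = ω² X2`: `θ D0 = D1`, `θ D1 = D2`,
`θ D2 = 37 D1 + 84 D0 - y² (V/2) D0 - y⁶ Res` (`psi_tail`, `tl_slope`, `tl_eq` at `Fa`), `ω³ = y²`.
`e1 = -2/(3ω) X1`, `e2 = (1 - V/2) X0 + 37/ω² X1 + 84/ω³ X0 - 4/(3ω) X2 - y⁴ Res`; with `ω ≥ 16`,
`|1 - V/2| ≤ 0.0355`: total `≤ 0.4172 μ`. -/
lemma coneSys {a b R : ℝ} {k : ℕ} {S : ℝ → ℝ} (h : IsSol a b S) (hR : 0 < R) (ht : TailOK b k R) :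
    ConeSys (X0 b k S) (X1 b k S) (X2 b k S) (fun y => om y / y) 64 R := by
  refine ⟨hR, fun y hy => div_pos (by linarith [om_ge hy]) (by linarith), fun y hy => ?_⟩
  have hy0 : 0 < y := by linarith
  have hw := om_ge hy
  have hw0 : 0 < om y := by linarith
  obtain ⟨t1, t2, t3⟩ := ht y hy
  obtain ⟨V, hV1, hV2, hV⟩ := tl_slope (lo := 7 / 10) (hi := 18 / 25) (by norm_num) (by norm_num)
    (FF S y) (Fa b k 0 y)
  rw [← psi_tail hy, tl_eq (by linarith) (by linarith), sub_eq_iff_eq_add] at hV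
  have d0 := (hasDerivAt_FF h.1 hy0).fun_sub (hasDerivAt_Fa b k 0 hy0)
  have d1 := (hasDerivAt_F1 h.1 hy0).fun_sub (hasDerivAt_Fa b k 1 hy0)
  have d2 := (h.hasDerivAt_F2 hy0).fun_sub (hasDerivAt_Fa b k 2 hy0)
  have p6 := hasDerivAt_pow 6 y
  have dw := hasDerivAt_om hy0
  have hF : Fa b k 0 y ≠ 0 := by linarith
  refine ⟨_, _, ?_, ?_, ?_, fun μ h0 h1 h2 h3 => sha_bd hw hV1 hV2 t3 h0 h1 h2 h3⟩
  · refine (p6.fun_mul d0).congr_deriv ?_
    simp only [X1]
    push_cast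
    field_simp
  · refine ((p6.fun_mul ((d0.const_mul 6).fun_add d1)).fun_div dw hw0.ne').congr_deriv ?_
    simp only [X1, X2]
    push_cast
    field_simp
    ring
  · have d3 : HasDerivAt (fun y => y ^ 6 * (36 * (FF S y - Fa b k 0 y) + 12 * (F1 S y - Fa b k 1 y) +
        (F2 S y - Fa b k 2 y))) ((37 * (om y * X1 b k S y) + 84 * X0 b k S y -
          om y ^ 3 * (V / 2 * X0 b k S y) - om y ^ 3 * (y ^ 4 * (Fa b k 3 y + 18 * Fa b k 2 y +
            71 * Fa b k 1 y - 90 * Fa b k 0 y + 90 - y ^ 2 * (1 / (2 * Fa b k 0 y) - b)))) / y) y := by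
      refine (p6.fun_mul (((d0.const_mul 36).fun_add (d1.const_mul 12)).fun_add d2)).congr_deriv ?_
      rw [om_cube hy0.le, hV]
      simp only [X0, X1]
      push_cast
      field_simp
      ring
    refine (d3.fun_div (dw.fun_pow 2) (pow_pos hw0 2).ne').congr_deriv ?_
    generalize y ^ 4 * (Fa b k 3 y + 18 * Fa b k 2 y + 71 * Fa b k 1 y - 90 * Fa b k 0 y + 90 -
      y ^ 2 * (1 / (2 * Fa b k 0 y) - b)) = r
    simp only [X2]
    push_cast
    field_simp
    ring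

lemma continuous_fc (j : ℕ) : Continuous fun c : ℝ => fc c j := by
  induction j using Nat.strong_induction_on with
  | _ j ih =>
    cases j with
    | zero => simpa [fc] using continuous_id'
    | succ j =>
      simp only [fc]
      refine (continuous_const.mul continuous_id).mul
        ((continuous_const.mul (ih j (Nat.lt_succ_self j))).add (continuous_finsetSum _ fun i _ => ?_))
      exact (continuous_const.mul (ih _ (by omega))).mul (ih _ i.2)

/-- joint continuity of the tail coordinates along a continuous family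
(`intervalIntegral.continuous_parametric_intervalIntegral_of_continuous'` for `Kg`, `Kr`) -/
lemma continuousOn_X {Z : Type} [TopologicalSpace Z] {S : Z → ℝ → ℝ} {b Y : Z → ℝ} {A : Set Z}
    (hS : Continuous fun z : Z × ℝ => S z.1 z.2) (hb : Continuous b) (hY : Continuous Y)
    (hb0 : ∀ z ∈ A, 0 < b z) (hY0 : ∀ z ∈ A, 0 < Y z) (k : ℕ) :
    ContinuousOn (fun z => X0 (b z) k (S z) (Y z)) A ∧ ContinuousOn (fun z => X1 (b z) k (S z) (Y z)) A ∧
      ContinuousOn (fun z => X2 (b z) k (S z) (Y z)) A := by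
  have hc : Continuous fun p : Z × ℝ => S p.1 (p.2 * Y p.1) :=
    hS.comp (f := fun p : Z × ℝ => (p.1, p.2 * Y p.1)) (by fun_prop)
  have hg : Continuous fun z => Kg (S z) (Y z) :=
    intervalIntegral.continuous_parametric_intervalIntegral_of_continuous'
      (f := fun (z : Z) (s : ℝ) => (s ^ 9 - s ^ 10) * S z (s * Y z))
      (Continuous.mul (by fun_prop) hc) 0 1
  have hr : Continuous fun z => Kr (S z) (Y z) :=
    intervalIntegral.continuous_parametric_intervalIntegral_of_continuous'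
      (f := fun (z : Z) (s : ℝ) => s ^ 9 * S z (s * Y z)) (Continuous.mul (by fun_prop) hc) 0 1
  have hs : Continuous fun z => S z (Y z) := hS.comp (f := fun z : Z => (z, Y z)) (by fun_prop)
  have h0 : Continuous fun z => FF (S z) (Y z) := continuous_const.sub (hY.mul hg)
  have h1 : Continuous fun z => F1 (S z) (Y z) := (hY.mul (hr.sub (continuous_const.mul hg))).neg
  have h2 : Continuous fun z => F2 (S z) (Y z) :=
    ((continuous_const.mul (continuous_const.sub h0)).sub (continuous_const.mul h1)).sub (hY.mul hs)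
  have ha : ∀ i, ContinuousOn (fun z => Fa (b z) k i (Y z)) A := fun i => by
    refine continuousOn_finsetSum _ fun j _ => ContinuousOn.div ?_ (hY.pow _).continuousOn
      fun z hz => pow_ne_zero _ (hY0 z hz).ne'
    refine continuousOn_const.mul ((continuous_fc j).comp_continuousOn ?_)
    exact continuousOn_const.div (continuous_const.mul hb).continuousOn
      fun z hz => mul_ne_zero two_ne_zero (hb0 z hz).ne'
  have ho : Continuous fun z => om (Y z) := hY.rpow_const fun _ => Or.inr (by norm_num)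
  have ho0 : ∀ z ∈ A, om (Y z) ≠ 0 := fun z hz => (Real.rpow_pos_of_pos (hY0 z hz) _).ne'
  have d0 := h0.continuousOn.sub (ha 0)
  have d1 := h1.continuousOn.sub (ha 1)
  have d2 := h2.continuousOn.sub (ha 2)
  have h6 : ContinuousOn (fun z => Y z ^ 6) A := (hY.pow 6).continuousOn
  exact ⟨h6.mul d0, (h6.mul ((continuousOn_const.mul d0).add d1)).div ho.continuousOn ho0,
    (h6.mul (((continuousOn_const.mul d0).add (continuousOn_const.mul d1)).add d2)).div
      (ho.pow 2).continuousOn fun z hz => pow_ne_zero _ (ho0 z hz)⟩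

/-- Abstract shooting.  `v x y ∈ ℝ × ℝ` (sup norm) jointly continuous on `closedBall 0 1 × [64,T]`,
`‖v x 64 - lam x‖ ≤ lam/10`, `v x y ≠ 0` for `‖x‖ = 1`.  Otherwise apply
`Crest.Agent.Lib.Brouwer.false_of_homotopy` to `F x = v (ρ x) (σ x)`, `ρ x = (2 / max 1 (2‖x‖)) • x`,
`σ x = 64 + min 1 (2 - 2‖x‖) (T - 64)`, and `G x = v x 64` (on the sphere `F = G`). -/
lemma shoot_zero {v : ℝ × ℝ → ℝ → ℝ × ℝ} {lam T : ℝ} (hl : 0 < lam) (hT : 64 ≤ T)
    (hv : ContinuousOn (fun z : (ℝ × ℝ) × ℝ => v z.1 z.2) (Metric.closedBall 0 1 ×ˢ Icc 64 T))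
    (h0 : ∀ x ∈ Metric.closedBall (0 : ℝ × ℝ) 1, ‖v x 64 - lam • x‖ ≤ lam / 10)
    (h1 : ∀ x : ℝ × ℝ, ‖x‖ = 1 → ∀ y ∈ Icc 64 T, v x y ≠ 0) :
    ∃ x ∈ Metric.closedBall (0 : ℝ × ℝ) 1, v x T = 0 := by
  by_contra hne
  push Not at hne
  let ρ : ℝ × ℝ → ℝ × ℝ := fun x => (2 / max 1 (2 * ‖x‖)) • x
  let σ : ℝ × ℝ → ℝ := fun x => 64 + min 1 (2 - 2 * ‖x‖) * (T - 64)
  have hpos : ∀ x : ℝ × ℝ, 0 < max 1 (2 * ‖x‖) := fun x => lt_of_lt_of_le one_pos (le_max_left _ _)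
  have hρ : Continuous ρ :=
    Continuous.smul (Continuous.div continuous_const (by fun_prop) (fun x => (hpos x).ne')) continuous_id
  have hσ : Continuous σ := by fun_prop
  have hρn : ∀ x, ‖ρ x‖ = 2 * ‖x‖ / max 1 (2 * ‖x‖) := by
    intro x
    simp only [ρ, norm_smul, Real.norm_eq_abs]
    rw [abs_of_pos (div_pos two_pos (hpos x))]
    ring
  have hρb : ∀ x, ρ x ∈ Metric.closedBall (0 : ℝ × ℝ) 1 := fun x => by
    rw [mem_closedBall_zero_iff, hρn, div_le_one (hpos x)]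
    exact le_max_right _ _
  have hσb : ∀ x ∈ Metric.closedBall (0 : ℝ × ℝ) 1, σ x ∈ Icc 64 T := fun x hx => by
    rw [mem_closedBall_zero_iff] at hx
    have a1 : 0 ≤ min 1 (2 - 2 * ‖x‖) := le_min zero_le_one (by linarith)
    have a2 : min 1 (2 - 2 * ‖x‖) ≤ 1 := min_le_left _ _
    constructor
    · simp only [σ]; nlinarith
    · simp only [σ]; nlinarith
  have hI : (64 : ℝ) ∈ Icc 64 T := ⟨le_rfl, hT⟩
  refine Crest.Agent.Lib.Brouwer.false_of_homotopy (fun x => v (ρ x) (σ x)) (fun x => v x 64)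
    (hv.comp (f := fun x => (ρ x, σ x)) (hρ.prodMk hσ).continuousOn fun x hx => ⟨hρb x, hσb x hx⟩)
    (hv.comp (f := fun x => (x, (64 : ℝ))) (by fun_prop) fun x hx => ⟨hx, hI⟩) ?_ ?_ ?_
  · intro x hx
    rcases le_total (2 * ‖x‖) 1 with h | h
    · have e : σ x = T := by
        simp only [σ]
        rw [min_eq_left (by linarith)]
        ring
      simp only [e]
      exact hne _ (hρb x)
    · refine h1 _ ?_ _ (hσb x hx)
      rw [hρn, max_eq_right h, div_self (by linarith)]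
  · intro x hx r hr
    have e1 : ρ x = x := by
      simp only [ρ, hx]
      norm_num
    have e2 : σ x = 64 := by
      simp only [σ, hx]
      norm_num
    simp only [e1, e2]
    have : v x 64 + r • v x 64 = (1 + r) • v x 64 := by rw [add_smul, one_smul]
    rw [this]
    exact smul_ne_zero (by linarith) (h1 x hx _ hI)
  · intro x hx r hr h
    have a := h0 x (mem_closedBall_zero_iff.2 hx.le)
    have e : v x 64 - lam • x = -((lam + r) • x) := by
      rw [eq_neg_of_add_eq_zero_left h, add_smul]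
      abel
    rw [e, norm_neg, norm_smul, hx, Real.norm_eq_abs, abs_of_pos (by linarith)] at a
    linarith

lemma shootc_ne {R x0 x1 x2 : ℝ} (hR : 0 < R) (h : InCone R x0 x1 x2) :
    ((x0 + x1, x1 + x2) : ℝ × ℝ) ≠ 0 := by
  intro h0
  have h1 : x0 + x1 = 0 := congrArg Prod.fst h0
  have h2 : x1 + x2 = 0 := congrArg Prod.snd h0
  have h3 := h.1
  rw [cn, h1, h2] at h3
  nlinarith

lemma shootc_big {lam p s : ℝ} (hl : 0 < lam) (hs : |s| = 1) (h : |p - lam * s| ≤ lam / 10) :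
    (9 / 10 * lam) ^ 2 ≤ p ^ 2 := by
  have h1 := abs_sub_abs_le_abs_sub (lam * s) p
  rw [abs_mul, hs, abs_of_pos hl, abs_sub_comm] at h1
  rw [← sq_abs p]
  exact pow_le_pow_left₀ (by positivity) (by linarith) 2

lemma shootc_cone {lam x0 x1 x2 : ℝ} {x : ℝ × ℝ} (hl : 0 < lam) (hx : ‖x‖ = 1)
    (h1 : |x0 - x1 + x2| ≤ 7 / 10 * lam) (h2 : |x0 + x1 - lam * x.1| ≤ lam / 10)
    (h3 : |x1 + x2 - lam * x.2| ≤ lam / 10) : InCone (7 / 10 * lam) x0 x1 x2 := by
  have h4 : (7 / 10 * lam) ^ 2 ≤ cn x0 x1 x2 := by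
    rw [Prod.norm_def] at hx
    unfold cn
    rcases max_choice ‖x.1‖ ‖x.2‖ with h | h
    · have := shootc_big hl (h.symm.trans hx) h2
      nlinarith [sq_nonneg ((x0 + x1) / 2 - (x1 + x2)), sq_nonneg lam]
    · have := shootc_big hl (h.symm.trans hx) h3
      nlinarith [sq_nonneg ((x1 + x2) / 2 - (x0 + x1)), sq_nonneg lam]
  refine ⟨h4, le_trans ?_ h4⟩
  rw [cu, ← sq_abs]
  exact pow_le_pow_left₀ (abs_nonneg _) h1 2

/-- `exists_family` composed with the affine parametrisation; `R = 7 lam/10`.  On the sphere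
`n ≥ (3/4) max(|v1|,|v2|)² ≥ (3/4)(0.9 lam)² ≥ R² ≥ u²`, so `ConeSys.inv` gives `v ≠ 0` on `[64,T]`;
`shoot_zero` gives `x_T` with `v = 0` at `T`, which never was in the cone (`inv`), so `trap`:
`|X0| ≤ R` on `[64,T]`.  The sets `{x ∈ ball | ∀ y ∈ [64, 64+n], |X0 x y| ≤ R}` are nonempty, closed,
decreasing (`IsCompact.nonempty_iInter_of_sequence_nonempty_isCompact_isClosed`).  For the limit
`|FF - Fa| ≤ 1/64⁶`, so `Rng` holds on `[64,∞)`. -/
theorem exists_true (h : StFin) : ∃ a b S, TrueSol a b S := by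
  obtain ⟨a0, a1, a2, b0, b1, b2, lam, k, hl, hl1, H⟩ := h
  obtain ⟨S, hS, hsol⟩ := exists_family
  set A : ℝ × ℝ → ℝ := fun x => a0 + x.1 * a1 + x.2 * a2 with hA
  set B : ℝ × ℝ → ℝ := fun x => b0 + x.1 * b1 + x.2 * b2 with hB
  set K : Set (ℝ × ℝ) := Metric.closedBall 0 1 with hK
  have hKc : IsCompact K := isCompact_closedBall _ _
  have hR : 0 < 7 / 10 * lam := by positivity
  have H' : ∀ x ∈ K, 0 < A x ∧ 0 < B x ∧ TailOK (B x) k (7 / 10 * lam) ∧
      (∀ y ∈ Icc (0:ℝ) 64, Rng y (FF (S (A x, B x)) y)) ∧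
      |X0 (B x) k (S (A x, B x)) 64 - X1 (B x) k (S (A x, B x)) 64 + X2 (B x) k (S (A x, B x)) 64| ≤
        7 / 10 * lam ∧
      |X0 (B x) k (S (A x, B x)) 64 + X1 (B x) k (S (A x, B x)) 64 - lam * x.1| ≤ lam / 10 ∧
      |X1 (B x) k (S (A x, B x)) 64 + X2 (B x) k (S (A x, B x)) 64 - lam * x.2| ≤ lam / 10 := by
    intro x hx
    rw [hK, mem_closedBall_zero_iff, Prod.norm_def, max_le_iff] at hx
    obtain ⟨h1, h2, h3, h4⟩ := H x.1 x.2 hx.1 hx.2
    exact ⟨h1, h2, h3, h4 _ (hsol (A x, B x))⟩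
  have cone : ∀ x ∈ K, ConeSys (X0 (B x) k (S (A x, B x))) (X1 (B x) k (S (A x, B x)))
      (X2 (B x) k (S (A x, B x))) (fun y => om y / y) 64 (7 / 10 * lam) := fun x hx =>
    coneSys (hsol (A x, B x)) hR (H' x hx).2.2.1
  have hAc : Continuous A := by simp only [hA]; fun_prop
  have hBc : Continuous B := by simp only [hB]; fun_prop
  obtain ⟨c0, c1, c2⟩ := continuousOn_X (Z := (ℝ × ℝ) × ℝ) (S := fun z => S (A z.1, B z.1))
    (b := fun z => B z.1) (Y := fun z => z.2) (A := K ×ˢ Ici 64)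
    (hS.comp (f := fun z : ((ℝ × ℝ) × ℝ) × ℝ => ((A z.1.1, B z.1.1), z.2)) (by fun_prop))
    (hBc.comp continuous_fst) continuous_snd (fun z hz => (H' _ hz.1).2.1)
    (fun z hz => lt_of_lt_of_le (by norm_num) (mem_Ici.1 hz.2)) k
  have step : ∀ T : ℝ, 64 ≤ T → ∃ x ∈ K, ∀ y ∈ Icc 64 T,
      |X0 (B x) k (S (A x, B x)) y| ≤ 7 / 10 * lam := by
    intro T hT
    have hsub : K ×ˢ Icc 64 T ⊆ K ×ˢ Ici 64 := prod_mono Subset.rfl Icc_subset_Ici_self
    obtain ⟨x, hx, hx0⟩ := shoot_zero (lam := lam) (T := T)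
      (v := fun x y => (X0 (B x) k (S (A x, B x)) y + X1 (B x) k (S (A x, B x)) y,
        X1 (B x) k (S (A x, B x)) y + X2 (B x) k (S (A x, B x)) y)) hl hT
      (((c0.add c1).prodMk (c1.add c2)).mono hsub)
      (fun x hx => by
        rw [Prod.norm_def]
        exact max_le (H' x hx).2.2.2.2.2.1 (H' x hx).2.2.2.2.2.2)
      (fun x hx y hy => by
        have hxK : x ∈ K := mem_closedBall_zero_iff.2 hx.le
        obtain ⟨-, -, -, -, h1, h2, h3⟩ := H' x hxK
        exact shootc_ne hR ((cone x hxK).inv le_rfl (shootc_cone hl hx h1 h2 h3) y hy.1))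
    refine ⟨x, hx, fun y hy => ((cone x hx).trap (T := T) (fun y hy hc => ?_) y hy).trans
      (max_le (H' x hx).2.2.2.2.1 le_rfl)⟩
    exact shootc_ne hR ((cone x hx).inv hy.1 hc T hy.2) hx0
  set t : ℕ → Set (ℝ × ℝ) := fun n => K ∩ ⋂ y ∈ Icc (64 : ℝ) (64 + n),
    {x ∈ K | |X0 (B x) k (S (A x, B x)) y| ≤ 7 / 10 * lam} with ht
  have htc : ∀ n, IsClosed (t n) := fun n => hKc.isClosed.inter <| isClosed_biInter fun y hy =>
    hKc.isClosed.isClosed_le ((c0.comp (f := fun x : ℝ × ℝ => (x, y)) (by fun_prop)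
      fun x hx => ⟨hx, hy.1⟩).abs) continuousOn_const
  obtain ⟨x, hx⟩ := IsCompact.nonempty_iInter_of_sequence_nonempty_isCompact_isClosed t
    (fun n => inter_subset_inter_right _ (biInter_subset_biInter_left
      (Icc_subset_Icc_right (by push_cast; linarith))))
    (fun n => by
      obtain ⟨x, hx, h⟩ := step (64 + n) (le_add_of_nonneg_right n.cast_nonneg)
      exact ⟨x, hx, mem_iInter₂.2 fun y hy => ⟨hx, h y hy⟩⟩)
    (hKc.of_isClosed_subset (htc 0) inter_subset_left) htc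
  have hxK : x ∈ K := (mem_iInter.1 hx 0).1
  refine ⟨A x, B x, S (A x, B x), hsol (A x, B x), (H' x hxK).1, fun y hy => ?_⟩
  rcases le_total y 64 with h64 | h64
  · exact (H' x hxK).2.2.2.1 y ⟨hy, h64⟩
  obtain ⟨n, hn⟩ := exists_nat_ge y
  have h1 := (mem_iInter₂.1 (mem_iInter.1 hx n).2 y ⟨h64, by linarith⟩).2
  obtain ⟨h2, h3, -⟩ := (H' x hxK).2.2.1 y h64
  have h4 : (1000 : ℝ) ≤ y ^ 6 := le_trans (by norm_num) (pow_le_pow_left₀ (by norm_num) h64 6)
  rw [X0, abs_mul, abs_of_nonneg (pow_nonneg hy 6)] at h1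
  have h5 := mul_le_mul_of_nonneg_right h4 (abs_nonneg (FF (S (A x, B x)) y - Fa (B x) k 0 y))
  have h6 := abs_le.1 (show |FF (S (A x, B x)) y - Fa (B x) k 0 y| ≤ 1 / 1000 by linarith)
  exact ⟨by linarith, by linarith, fun _ => ⟨by linarith, by linarith⟩⟩

end Crest.Agent.R213.Ea
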