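import Crest.Agent.R213.Ea.Poly

/-! Row 213, shrinker: error propagation over one sub-step (real-variable lemmas). -/

set_option autoImplicit false
open Set Filter Topology

namespace Crest.Agent.R213.Ea

lemma suba_low {F w σ d whi H : ℝ} (hw : 0 < w) (h2 : w ≤ whi) (hH : whi * (1 + 1 / 2 ^ 20) ≤ H)
    (hH7 : H ≤ 7) (e : F * w = 1 + σ) (hσ : |σ| ≤ 1 / 2 ^ 30) (hd : |d| ≤ 1 / 2 ^ 30) :
    1 / H ≤ F - d := by
  have h1 := abs_le.1 hσ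
  have h3 := abs_le.1 hd
  have hF : 0 < F := (mul_pos_iff_of_pos_right hw).1 (by rw [e]; linarith [h1.1])
  have h4 : w * (1 + 1 / 2 ^ 20) ≤ H := le_trans (by gcongr) hH
  have hH0 : 0 < H := lt_of_lt_of_le (by positivity) h4
  have h5 := mul_le_mul_of_nonneg_left h4 hF.le
  have h6 := mul_le_mul h3.2 hH7 hH0.le (by positivity)
  rw [← mul_assoc, e] at h5
  rw [div_le_iff₀ hH0, sub_mul]
  linarith [h1.1]

lemma suba_core {F0 π η σ τ w0 W wlo whi H a b c0 c1 c2 : ℝ} (hlo : 0 < wlo) (h1 : wlo ≤ w0)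
    (h2 : w0 ≤ whi) (hH : whi * (1 + 1 / 2 ^ 20) ≤ H) (hH7 : H ≤ 7) (e0 : F0 * w0 = 1 + σ)
    (e1 : F0 * W = τ + π * w0) (bη : |η| ≤ a) (bd : |π + η| ≤ b) (bσ : |σ| ≤ c0) (bτ : |τ| ≤ c1)
    (bπ : |π| ≤ c2) (hc : c0 ≤ 1 / 2 ^ 30) (hb : b ≤ 1 / 2 ^ 30) :
    1 / H ≤ F0 - (π + η) ∧ F0 - (π + η) ≤ (1 + 1 / 2 ^ 30) / wlo + 1 / 2 ^ 30 ∧
      |1 / (F0 - (π + η)) - (w0 + W)| ≤ a * H ^ 2 + b ^ 2 * H ^ 3 + (c0 + c1) * H + c2 * c0 * H ^ 2 := by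
  have hw : 0 < w0 := hlo.trans_le h1
  have l1 := suba_low hw h2 hH hH7 e0 (bσ.trans hc) (bd.trans hb)
  have l0 := suba_low (d := 0) hw h2 hH hH7 e0 (bσ.trans hc) (by simp)
  rw [sub_zero] at l0
  have hH0 : 0 < H := lt_of_lt_of_le (mul_pos (hw.trans_le h2) (by positivity)) hH
  have p1 : 0 < F0 - (π + η) := (one_div_pos.2 hH0).trans_le l1
  have p0 : 0 < F0 := (one_div_pos.2 hH0).trans_le l0
  refine ⟨l1, ?_, ?_⟩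
  · have : F0 ≤ (1 + 1 / 2 ^ 30) / wlo := by
      rw [le_div_iff₀ hlo]
      linarith [mul_le_mul_of_nonneg_left h1 p0.le, (abs_le.1 (bσ.trans hc)).2]
    linarith [(abs_le.1 (bd.trans hb)).1]
  have hu : |1 / F0| ≤ H := by
    rw [abs_of_pos (one_div_pos.2 p0)]
    exact (one_div_le p0 hH0).2 l0
  have hv : |1 / (F0 - (π + η))| ≤ H := by
    rw [abs_of_pos (one_div_pos.2 p1)]
    exact (one_div_le p1 hH0).2 l1
  have ew : w0 = (1 + σ) / F0 := by rw [← e0]; field_simp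
  have eW : W = (τ + π * w0) / F0 := by rw [← e1]; field_simp
  have e : 1 / (F0 - (π + η)) - (w0 + W) = η * (1 / F0) ^ 2 +
      (π + η) ^ 2 * ((1 / F0) ^ 2 * (1 / (F0 - (π + η)))) + -((σ + τ) * (1 / F0)) +
      -(π * σ * (1 / F0) ^ 2) := by
    rw [eW, ew]
    field_simp
    ring
  have ha : 0 ≤ a := (abs_nonneg _).trans bη
  have hc2 : 0 ≤ c2 := (abs_nonneg _).trans bπ
  have hc0 : 0 ≤ c0 := (abs_nonneg _).trans bσ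
  have hc1 : 0 ≤ c1 := (abs_nonneg _).trans bτ
  have bs : |σ + τ| ≤ c0 + c1 := (abs_add_le _ _).trans (add_le_add bσ bτ)
  rw [e]
  refine (abs_add_le _ _).trans (add_le_add ((abs_add_le _ _).trans (add_le_add ((abs_add_le _ _).trans
    (add_le_add ?_ ?_)) ?_)) ?_)
  · rw [abs_mul, abs_pow]
    gcongr
  · rw [abs_mul, abs_mul, abs_pow, abs_pow, pow_succ H 2]
    gcongr
  · rw [abs_neg, abs_mul]
    gcongr
  · rw [abs_neg, abs_mul, abs_mul, abs_pow]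
    gcongr

/-- With `F0 = (q - p0)/q = (1 + s0/q)/w0`, `d = (x1 p1 + x2 p2 + e)/q`, `F = F0 - d`:
`1/F = 1/F0 + d/F0² + d²/(F0² F)`, `w0 = 1/F0 + s0/(q F0)`,
`w_j = p_j/(q F0²) + p_j s0/(q² F0²) + s_j/(q F0)`, and `1/F0, 1/F ≤ H`. -/
lemma nonlin {q ql p0 p1 p2 w0 w1 w2 x1 x2 e wlo whi S0 S12 P E H : ℝ} (hql : 0 < ql) (hq : ql ≤ q)
    (hx1 : |x1| ≤ 1) (hx2 : |x2| ≤ 1) (hlo : 0 < wlo) (h1 : wlo ≤ w0) (h2 : w0 ≤ whi)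
    (hH : whi * (1 + 1 / 2 ^ 20) ≤ H) (hH7 : H ≤ 7)
    (hs0 : |(q - p0) * w0 - q| ≤ S0)
    (hs12 : |(q - p0) * w1 - p1 * w0| + |(q - p0) * w2 - p2 * w0| ≤ S12)
    (hP : |p1| + |p2| ≤ P) (he : |e| ≤ E) (hS : S0 ≤ ql / 2 ^ 30) (hPE : P + E ≤ ql / 2 ^ 30) :
    1 / H ≤ 1 - (p0 + x1 * p1 + x2 * p2 + e) / q ∧
    1 - (p0 + x1 * p1 + x2 * p2 + e) / q ≤ (1 + 1 / 2 ^ 30) / wlo + 1 / 2 ^ 30 ∧
    |1 / (1 - (p0 + x1 * p1 + x2 * p2 + e) / q) - (w0 + x1 * w1 + x2 * w2)| ≤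
      |e| * H ^ 2 / ql + ((P + E) / ql) ^ 2 * H ^ 3 + (S0 + S12) * H / ql + P * S0 * H ^ 2 / ql ^ 2 := by
  have hq0 : 0 < q := hql.trans_le hq
  have hdiv : ∀ {a A : ℝ}, |a| ≤ A → |a / q| ≤ A / ql := fun {a A} h => by
    rw [abs_div, abs_of_pos hq0]
    exact div_le_div₀ ((abs_nonneg _).trans h) h hql hq
  have hx : ∀ a b : ℝ, |x1 * a + x2 * b| ≤ |a| + |b| := fun a b => by
    refine (abs_add_le _ _).trans (add_le_add ?_ ?_) <;> rw [abs_mul]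
    · exact mul_le_of_le_one_left (abs_nonneg _) hx1
    · exact mul_le_of_le_one_left (abs_nonneg _) hx2
  have hε : ∀ {A : ℝ}, A ≤ ql / 2 ^ 30 → A / ql ≤ 1 / 2 ^ 30 := fun h => by
    rw [div_le_iff₀ hql]
    linarith
  have eF : 1 - (p0 + x1 * p1 + x2 * p2 + e) / q = (q - p0) / q - ((x1 * p1 + x2 * p2) / q + e / q) := by
    field_simp
    ring
  have bd : |(x1 * p1 + x2 * p2) / q + e / q| ≤ (P + E) / ql := by
    rw [← add_div]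
    exact hdiv ((abs_add_le _ _).trans (add_le_add ((hx _ _).trans hP) he))
  have key := suba_core (F0 := (q - p0) / q) (π := (x1 * p1 + x2 * p2) / q) (η := e / q)
    (σ := ((q - p0) * w0 - q) / q)
    (τ := (x1 * ((q - p0) * w1 - p1 * w0) + x2 * ((q - p0) * w2 - p2 * w0)) / q)
    (W := x1 * w1 + x2 * w2) hlo h1 h2 hH hH7 (by field_simp; ring) (by field_simp; ring)
    (hdiv le_rfl) bd (hdiv hs0) (hdiv ((hx _ _).trans hs12)) (hdiv ((hx _ _).trans hP)) (hε hS) (hε hPE)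
  rw [eF, add_assoc w0]
  refine ⟨key.1, key.2.1, key.2.2.trans (le_of_eq ?_)⟩
  field_simp

lemma subb_mv {e : ℝ → ℝ} {s t y C E W : ℝ} (hy : y ∈ Ico s t)
    (h : ∀ z ∈ Icc s y, ∃ d, HasDerivAt e d z ∧ |d| ≤ C) (i : |e s| ≤ E) (c : E + (t - s) * C < W) :
    ∀ᶠ z in 𝓝[>] y, |e z| ≤ W := by
  choose! d hd hb using h
  have h0 : 0 ≤ C := (abs_nonneg _).trans (hb s ⟨le_rfl, hy.1⟩)
  have h1 : |e y - e s| ≤ C * (y - s) := norm_image_sub_le_of_norm_deriv_le_segment'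
    (fun z hz => (hd z hz).hasDerivWithinAt) (fun z hz => hb z (Ico_subset_Icc_self hz)) y ⟨hy.1, le_rfl⟩
  have h2 : |e y| < W := by
    nlinarith [abs_sub_abs_le_abs_sub (e y) (e s), mul_le_mul_of_nonneg_left hy.2.le h0]
  exact (((hd y ⟨hy.1, le_rfl⟩).continuousAt.abs.eventually_lt continuousAt_const h2).mono
    fun _ h => h.le).filter_mono nhdsWithin_le_nhds

/-- A-priori enclosure: continuity argument (the set of `y` such that the bounds hold on `[s,y]`;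
e.g. `IsClosed.Icc_subset_of_forall_mem_nhdsWithin`), mean value inequality on `[s,y]`. -/
lemma euler {e1 e2 e3 : ℝ → ℝ} {s t E1 E2 E3 W1 W2 W3 ρ1 ρ2 ρ3 A B : ℝ} (hst : s ≤ t)
    (h1 : ∀ y ∈ Icc s t, ∃ d, HasDerivAt e1 d y ∧ |d| ≤ |e2 y| + ρ1)
    (h2 : ∀ y ∈ Icc s t, ∃ d, HasDerivAt e2 d y ∧ |d| ≤ A * |e3 y| + ρ2)
    (h3 : ∀ y ∈ Icc s t, ∃ d, HasDerivAt e3 d y ∧ (|e1 y| ≤ W1 → |d| ≤ B * |e1 y| + ρ3))
    (hA : 0 ≤ A) (hB : 0 ≤ B) (i1 : |e1 s| ≤ E1) (i2 : |e2 s| ≤ E2) (i3 : |e3 s| ≤ E3)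
    (l1 : E1 ≤ W1) (l2 : E2 ≤ W2) (l3 : E3 ≤ W3)
    (c1 : E1 + (t - s) * (W2 + ρ1) < W1) (c2 : E2 + (t - s) * (A * W3 + ρ2) < W2)
    (c3 : E3 + (t - s) * (B * W1 + ρ3) < W3) :
    ∀ y ∈ Icc s t, |e1 y| ≤ W1 ∧ |e2 y| ≤ W2 ∧ |e3 y| ≤ W3 := by
  have k1 : ContinuousOn e1 (Icc s t) := fun y hy => (h1 y hy).choose_spec.1.continuousAt.continuousWithinAt
  have k2 : ContinuousOn e2 (Icc s t) := fun y hy => (h2 y hy).choose_spec.1.continuousAt.continuousWithinAt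
  have k3 : ContinuousOn e3 (Icc s t) := fun y hy => (h3 y hy).choose_spec.1.continuousAt.continuousWithinAt
  refine IsClosed.Icc_subset_of_forall_mem_nhdsGT_of_Icc_subset
    (s := {y | |e1 y| ≤ W1 ∧ |e2 y| ≤ W2 ∧ |e3 y| ≤ W3}) ?_ ⟨i1.trans l1, i2.trans l2, i3.trans l3⟩ fun y hy hs => ?_
  · rw [inter_comm]
    exact (k1.abs.prodMk (k2.abs.prodMk k3.abs)).preimage_isClosed_of_isClosed isClosed_Icc
      ((isClosed_Iic (a := W1)).prod ((isClosed_Iic (a := W2)).prod (isClosed_Iic (a := W3))))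
  have hz : ∀ z ∈ Icc s y, z ∈ Icc s t := fun z hz => ⟨hz.1, hz.2.trans hy.2.le⟩
  refine (subb_mv hy (fun z h => ?_) i1 c1).and ((subb_mv hy (fun z h => ?_) i2 c2).and
    (subb_mv hy (fun z h => ?_) i3 c3))
  · obtain ⟨d, hd, hb⟩ := h1 z (hz z h)
    exact ⟨d, hd, by linarith [(hs h).2.1]⟩
  · obtain ⟨d, hd, hb⟩ := h2 z (hz z h)
    exact ⟨d, hd, by linarith [mul_le_mul_of_nonneg_left (hs h).2.2 hA]⟩
  · obtain ⟨d, hd, hb⟩ := h3 z (hz z h)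
    exact ⟨d, hd, by linarith [mul_le_mul_of_nonneg_left (hs h).1 hB, hb (hs h).1]⟩

/-- approximate solution on `[y0,y1]` with its residual bounds -/
structure PcOK (b x1 x2 y0 y1 : ℝ) (pt rt st p0 p1 p2 w0 w1 w2 : ℝ → ℝ) (ρ1 ρ2 ρ3 S0 S12 P : ℝ) :
    Prop where
  pt_eq : ∀ y, pt y = p0 y + x1 * p1 y + x2 * p2 y
  dp : ∀ y ∈ Icc y0 y1, ∃ d, HasDerivAt pt d y ∧ |d - rt y| ≤ ρ1
  dr : ∀ y ∈ Icc y0 y1, ∃ d, HasDerivAt rt d y ∧ |d - y ^ 9 * st y| ≤ ρ2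
  ds : ∀ y ∈ Icc y0 y1, ∃ d, HasDerivAt st d y ∧ |d - (b - (w0 y + x1 * w1 y + x2 * w2 y) / 2)| ≤ ρ3
  s0 : ∀ y ∈ Icc y0 y1, |(y ^ 10 - p0 y) * w0 y - y ^ 10| ≤ S0
  s12 : ∀ y ∈ Icc y0 y1, |(y ^ 10 - p0 y) * w1 y - p1 y * w0 y| +
    |(y ^ 10 - p0 y) * w2 y - p2 y * w0 y| ≤ S12
  hP : ∀ y ∈ Icc y0 y1, |p1 y| + |p2 y| ≤ P

/-- range check of the clamp on a sub-step ending at `t` -/
def rngOK (t wlo H : ℚ) : Bool :=
  decide (0 < wlo) && decide (H ≤ 20 / 3) && decide ((1 + 1 / 2 ^ 30) / wlo + 1 / 2 ^ 30 ≤ 2) &&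
  (decide (t < 50) || (decide (H ≤ 10 / 7) && decide ((1 + 1 / 2 ^ 30) / wlo + 1 / 2 ^ 30 ≤ 18 / 25)))

/-- the numerical inequalities of a sub-step `[s,t]` -/
def numOK (s t wlo H E1 E2 E3 W1 W2 W3 ρ1 ρ2 ρ3 S0 S12 P : ℚ) : Bool :=
  decide (0 < s) && decide (s ≤ t) && rngOK t wlo H &&
  decide (S0 ≤ s ^ 10 / 2 ^ 30) && decide (P + W1 ≤ s ^ 10 / 2 ^ 30) &&
  decide (E1 ≤ W1) && decide (E2 ≤ W2) && decide (E3 ≤ W3) &&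
  decide (E1 + (t - s) * (W2 + ρ1) < W1) && decide (E2 + (t - s) * (t ^ 9 * W3 + ρ2) < W2) &&
  decide (E3 + (t - s) * (H ^ 2 / (2 * s ^ 10) * W1 + (ρ3 + (((P + W1) / s ^ 10) ^ 2 * H ^ 3 +
    (S0 + S12) * H / s ^ 10 + P * S0 * H ^ 2 / (s ^ 10) ^ 2) / 2)) < W3)

lemma rng_of {t wlo H : ℚ} (h : rngOK t wlo H = true) {y F : ℝ} (hy : y ≤ t) (hH : (0 : ℝ) < H)
    (h1 : 1 / (H : ℝ) ≤ F) (h2 : F ≤ (1 + 1 / 2 ^ 30) / (wlo : ℝ) + 1 / 2 ^ 30) : Rng y F := by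
  simp only [rngOK, Bool.and_eq_true, Bool.or_eq_true, decide_eq_true_eq] at h
  obtain ⟨⟨⟨-, a2⟩, a3⟩, a4⟩ := h
  have c : ∀ {c : ℚ}, H ≤ c → 1 / (c : ℝ) ≤ F := fun hc =>
    (one_div_le_one_div_of_le hH (Rat.cast_le.2 hc)).trans h1
  have d : ∀ {c : ℚ}, (1 + 1 / 2 ^ 30) / wlo + 1 / 2 ^ 30 ≤ c → F ≤ (c : ℝ) := fun hc => by
    have := (Rat.cast_le (K := ℝ)).2 hc
    push_cast at this
    exact h2.trans this
  have b2 := c a2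
  have b3 := d a3
  push_cast at b2 b3
  refine ⟨by linarith, b3, fun h50 => ?_⟩
  rcases a4 with a4 | ⟨a4, a5⟩
  · have := (Rat.cast_lt (K := ℝ)).2 a4
    push_cast at this
    linarith
  · have b4 := c a4
    have b5 := d a5
    push_cast at b4 b5
    exact ⟨by linarith, b5⟩

/-- `euler` for `e1 = pp S - pt`, `e2 = rr S - rt`, `e3 = S - st`; `FF_eq_pp`, `nonlin` with `q = y^10`,
`ql = s^10`, `rng_of`, `psi_eq` -/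
lemma sub_step {a b x1 x2 y0 y1 : ℝ} {S pt rt st p0 p1 p2 w0 w1 w2 : ℝ → ℝ}
    {s t wlo H E1 E2 E3 W1 W2 W3 ρ1 ρ2 ρ3 S0 S12 P : ℚ} {whi : ℝ} (hS : IsSol a b S)
    (hx1 : |x1| ≤ 1) (hx2 : |x2| ≤ 1)
    (hp : PcOK b x1 x2 y0 y1 pt rt st p0 p1 p2 w0 w1 w2 ρ1 ρ2 ρ3 S0 S12 P)
    (h0 : y0 ≤ s) (h1 : (t : ℝ) ≤ y1) (hw : ∀ y ∈ Icc (s : ℝ) t, wlo ≤ w0 y ∧ w0 y ≤ whi)
    (hH : whi * (1 + 1 / 2 ^ 20) ≤ H)
    (hn : numOK s t wlo H E1 E2 E3 W1 W2 W3 ρ1 ρ2 ρ3 S0 S12 P = true)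
    (i1 : |pp S s - pt s| ≤ E1) (i2 : |rr S s - rt s| ≤ E2) (i3 : |S s - st s| ≤ E3) :
    (∀ y ∈ Icc (s : ℝ) t, Rng y (FF S y)) ∧
      |pp S t - pt t| ≤ W1 ∧ |rr S t - rt t| ≤ W2 ∧ |S t - st t| ≤ W3 := by
  simp only [numOK, Bool.and_eq_true, decide_eq_true_eq] at hn
  obtain ⟨⟨⟨⟨⟨⟨⟨⟨⟨⟨n1, n2⟩, nr⟩, n3⟩, n4⟩, n5⟩, n6⟩, n7⟩, n8⟩, n9⟩, n10⟩ := hn
  have nr' := nr
  simp only [rngOK, Bool.and_eq_true, decide_eq_true_eq] at nr'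
  obtain ⟨⟨⟨r1, r2⟩, -⟩, -⟩ := nr'
  have hs : (0 : ℝ) < s := by exact_mod_cast n1
  have hst : (s : ℝ) ≤ t := by exact_mod_cast n2
  have hlo : (0 : ℝ) < wlo := by exact_mod_cast r1
  have hH7 : (H : ℝ) ≤ 7 := by exact_mod_cast r2.trans (by norm_num)
  have m3 : (S0 : ℝ) ≤ (s : ℝ) ^ 10 / 2 ^ 30 := by exact_mod_cast n3
  have m4 : (P : ℝ) + W1 ≤ (s : ℝ) ^ 10 / 2 ^ 30 := by exact_mod_cast n4
  have hH0 : (0 : ℝ) < H := by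
    obtain ⟨a1, a2⟩ := hw s ⟨le_rfl, hst⟩
    exact lt_of_lt_of_le (mul_pos (hlo.trans_le (a1.trans a2)) (by positivity)) hH
  have hI : ∀ y ∈ Icc (s : ℝ) t, y ∈ Icc y0 y1 := fun y hy => ⟨h0.trans hy.1, hy.2.trans h1⟩
  have key : ∀ y ∈ Icc (s : ℝ) t, |pp S y - pt y| ≤ W1 → Rng y (FF S y) ∧
      |1 / FF S y - (w0 y + x1 * w1 y + x2 * w2 y)| ≤ |pp S y - pt y| * (H : ℝ) ^ 2 / (s : ℝ) ^ 10 +
        (((P : ℝ) + W1) / (s : ℝ) ^ 10) ^ 2 * (H : ℝ) ^ 3 + ((S0 : ℝ) + S12) * H / (s : ℝ) ^ 10 +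
        P * S0 * (H : ℝ) ^ 2 / ((s : ℝ) ^ 10) ^ 2 := fun y hy he => by
    have h := nonlin (pow_pos hs 10) (pow_le_pow_left₀ hs.le hy.1 10) hx1 hx2 hlo (hw y hy).1 (hw y hy).2 hH hH7
      (hp.s0 y (hI y hy)) (hp.s12 y (hI y hy)) (hp.hP y (hI y hy)) he m3 m4
    rw [← hp.pt_eq, add_sub_cancel, ← FF_eq_pp S (hs.trans_le hy.1)] at h
    exact ⟨rng_of nr hy.2 hH0 h.1 h.2.1, h.2.2⟩
  have main := euler (e1 := fun y => pp S y - pt y) (e2 := fun y => rr S y - rt y) (e3 := fun y => S y - st y)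
    (W1 := W1) (W2 := W2) (W3 := W3) (ρ1 := ρ1) (ρ2 := ρ2) (A := (t : ℝ) ^ 9)
    (B := (H : ℝ) ^ 2 / (2 * (s : ℝ) ^ 10))
    (ρ3 := ρ3 + ((((P : ℝ) + W1) / (s : ℝ) ^ 10) ^ 2 * (H : ℝ) ^ 3 + ((S0 : ℝ) + S12) * H / (s : ℝ) ^ 10 +
        P * S0 * (H : ℝ) ^ 2 / ((s : ℝ) ^ 10) ^ 2) / 2) hst (fun y hy => ?_) (fun y hy => ?_) (fun y hy => ?_)
    (pow_nonneg (hs.le.trans hst) 9) (by positivity) i1 i2 i3 (by exact_mod_cast n5) (by exact_mod_cast n6)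
    (by exact_mod_cast n7) (by exact_mod_cast n8) (by exact_mod_cast n9) (by exact_mod_cast n10)
  · exact ⟨fun y hy => (key y hy (main y hy).1).1, main t ⟨hst, le_rfl⟩⟩
  · obtain ⟨d, hd, hb⟩ := hp.dp y (hI y hy)
    refine ⟨_, (hasDerivAt_pp hS.1 (hs.trans_le hy.1)).sub hd, ?_⟩
    linarith [abs_sub_le (rr S y) (rt y) d, abs_sub_comm d (rt y)]
  · obtain ⟨d, hd, hb⟩ := hp.dr y (hI y hy)
    refine ⟨_, (hasDerivAt_rr hS.1 (hs.trans_le hy.1)).sub hd, ?_⟩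
    have a1 := abs_sub_le (y ^ 9 * S y) (y ^ 9 * st y) d
    rw [← mul_sub, abs_mul, abs_of_pos (pow_pos (hs.trans_le hy.1) 9), abs_sub_comm (y ^ 9 * st y)] at a1
    linarith [mul_le_mul_of_nonneg_right (pow_le_pow_left₀ (hs.le.trans hy.1) hy.2 9) (abs_nonneg (S y - st y))]
  · obtain ⟨d, hd, hb⟩ := hp.ds y (hI y hy)
    refine ⟨_, (hS.hasDerivAt (hs.trans_le hy.1)).sub hd, fun he => ?_⟩
    obtain ⟨a1, a2⟩ := key y hy he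
    have a3 : (H : ℝ) ^ 2 / (2 * (s : ℝ) ^ 10) * |pp S y - pt y| =
        |pp S y - pt y| * (H : ℝ) ^ 2 / (s : ℝ) ^ 10 / 2 := by ring
    rw [psi_eq a1, a3]
    obtain ⟨b1, b2⟩ := abs_le.1 a2
    obtain ⟨b3, b4⟩ := abs_le.1 hb
    exact abs_le.2 ⟨by linarith, by linarith⟩

/-- continuity argument -/
lemma c_cont {e e' : ℝ → ℝ} {W M : ℝ} (h0 : e 0 = 0) (hW : 0 ≤ W) (hM : M < W)
    (hd : ∀ y ∈ Icc (0:ℝ) 1, HasDerivWithinAt e (e' y) (Ici 0) y)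
    (hb : ∀ y ∈ Icc (0:ℝ) 1, (∀ t ∈ Icc 0 y, |e t| ≤ W) → |e' y| ≤ M) :
    ∀ y ∈ Icc (0:ℝ) 1, |e y| ≤ W := by
  have hc : ContinuousOn e (Icc 0 1) := fun y hy => (hd y hy).continuousWithinAt.mono Icc_subset_Ici_self
  have hM0 : 0 ≤ M := (abs_nonneg _).trans (hb 0 ⟨le_rfl, zero_le_one⟩ fun t ht => by
    rw [le_antisymm ht.2 ht.1, h0, abs_zero]; exact hW)
  have hcl : IsClosed ({y | |e y| ≤ W} ∩ Icc (0:ℝ) 1) := by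
    rw [inter_comm]
    exact hc.abs.preimage_isClosed_of_isClosed isClosed_Icc isClosed_Iic
  refine hcl.Icc_subset_of_forall_mem_nhdsGT_of_Icc_subset (by simpa [h0] using hW) fun t ht hs => ?_
  have h1 := norm_image_sub_le_of_norm_deriv_right_le_segment (f := e) (f' := e') (C := M) (a := 0) (b := t)
    (hc.mono (Icc_subset_Icc_right ht.2.le))
    (fun x hx => (hd x ⟨hx.1, hx.2.le.trans ht.2.le⟩).mono (Ici_subset_Ici.2 hx.1))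
    (fun x hx => hb x ⟨hx.1, hx.2.le.trans ht.2.le⟩ fun u hu => hs ⟨hu.1, hu.2.trans hx.2.le⟩) t ⟨ht.1, le_rfl⟩
  rw [h0, sub_zero, sub_zero, Real.norm_eq_abs] at h1
  have h2 : |e t| < W := by nlinarith [ht.2]
  have h3 : ContinuousWithinAt (fun y => |e y|) (Ioi t) t :=
    ((hd t ⟨ht.1, ht.2.le⟩).continuousWithinAt.mono fun x hx => ht.1.trans (le_of_lt hx)).abs
  exact (h3.eventually (gt_mem_nhds h2)).mono fun x hx => le_of_lt hx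

/-- The singular first piece `[0,1]`.  `gt`, `g1t` approximate `Kg S`, `Kr S`: by hypothesis they are
`Kg`, `Kr` of continuous functions `hg`, `hr` close to `st`.  Continuity argument for
`|S - st| ≤ W3` on `[0,y]` (use `IsSol.hasDerivWithinAt`): then `|Kg S - gt| ≤ (W3 + ρg)/110 ≤ W1`
(`abs_Kg_sub`), `nonlin` with `q = ql = 1`, `e = y (Kg S y - gt y)`. -/
lemma first_step {a b x1 x2 : ℝ} {S st hg hr g0 g1 g2 w0 w1 w2 : ℝ → ℝ}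
    {wlo H W1 W2 W3 ρg ρr ρ3 S0 S12 P : ℚ} {whi : ℝ} (hS : IsSol a b S)
    (hx1 : |x1| ≤ 1) (hx2 : |x2| ≤ 1) (chg : Continuous hg) (chr : Continuous hr) (h0 : st 0 = a)
    (hK : ∀ y ∈ Icc (0:ℝ) 1, Kg hg y = g0 y + x1 * g1 y + x2 * g2 y)
    (dg : ∀ y ∈ Icc (0:ℝ) 1, |hg y - st y| ≤ ρg) (dr : ∀ y ∈ Icc (0:ℝ) 1, |hr y - st y| ≤ ρr)
    (ds : ∀ y ∈ Icc (0:ℝ) 1, ∃ d, HasDerivAt st d y ∧
      |d - (b - (w0 y + x1 * w1 y + x2 * w2 y) / 2)| ≤ ρ3)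
    (s0 : ∀ y ∈ Icc (0:ℝ) 1, |(1 - y * g0 y) * w0 y - 1| ≤ S0)
    (s12 : ∀ y ∈ Icc (0:ℝ) 1, |(1 - y * g0 y) * w1 y - y * g1 y * w0 y| +
      |(1 - y * g0 y) * w2 y - y * g2 y * w0 y| ≤ S12)
    (hP : ∀ y ∈ Icc (0:ℝ) 1, |g1 y| + |g2 y| ≤ P)
    (hw : ∀ y ∈ Icc (0:ℝ) 1, wlo ≤ w0 y ∧ w0 y ≤ whi) (hH : whi * (1 + 1 / 2 ^ 20) ≤ H)
    (hr' : rngOK 1 wlo H = true) (n0 : 0 ≤ W3) (n1 : S0 ≤ 1 / 2 ^ 30) (n2 : P + W1 ≤ 1 / 2 ^ 30)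
    (n3 : (W3 + ρg) / 110 ≤ W1) (n4 : (W3 + ρr) / 10 ≤ W2)
    (n5 : H ^ 2 / 2 * W1 + (ρ3 + ((P + W1) ^ 2 * H ^ 3 + (S0 + S12) * H + P * S0 * H ^ 2) / 2) < W3) :
    (∀ y ∈ Icc (0:ℝ) 1, Rng y (FF S y)) ∧
      |pp S 1 - Kg hg 1| ≤ W1 ∧ |rr S 1 - Kr hr 1| ≤ W2 ∧ |S 1 - st 1| ≤ W3 := by
  have hr2 := hr'
  simp only [rngOK, Bool.and_eq_true, decide_eq_true_eq] at hr2
  obtain ⟨⟨⟨r1, r2⟩, -⟩, -⟩ := hr2
  have r1' : (0 : ℝ) < wlo := by exact_mod_cast r1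
  have r2' : (H : ℝ) ≤ 20 / 3 := by
    have := (Rat.cast_le (K := ℝ)).2 r2
    push_cast at this
    exact this
  have n0' : (0 : ℝ) ≤ W3 := by exact_mod_cast n0
  have n1' : (S0 : ℝ) ≤ 1 / 2 ^ 30 := by
    have := (Rat.cast_le (K := ℝ)).2 n1
    push_cast at this
    exact this
  have n2' : (P : ℝ) + W1 ≤ 1 / 2 ^ 30 := by
    have := (Rat.cast_le (K := ℝ)).2 n2
    push_cast at this
    exact this
  have n3' : ((W3 : ℝ) + ρg) / 110 ≤ W1 := by exact_mod_cast (Rat.cast_le (K := ℝ)).2 n3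
  have n4' : ((W3 : ℝ) + ρr) / 10 ≤ W2 := by exact_mod_cast (Rat.cast_le (K := ℝ)).2 n4
  have n5' : (H : ℝ) ^ 2 / 2 * W1 + (ρ3 + ((P + W1) ^ 2 * H ^ 3 + (S0 + S12) * H + P * S0 * H ^ 2) / 2) < W3 := by
    exact_mod_cast (Rat.cast_lt (K := ℝ)).2 n5
  have hH0 : (0 : ℝ) < H := by
    have := hw 0 ⟨le_rfl, zero_le_one⟩
    have h2 : 0 < whi := by linarith [this.1, this.2]
    have : 0 < whi * (1 + 1 / 2 ^ 20) := by positivity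
    linarith
  choose! ds' hds using ds
  have hG : ∀ y ∈ Icc (0:ℝ) 1, (∀ t ∈ Icc 0 y, |S t - st t| ≤ W3) → |Kg S y - Kg hg y| ≤ W1 := by
    intro y hy h
    refine (abs_Kg_sub hS.1 chg hy.1 (M := W3 + ρg) fun t ht => ?_).trans n3'
    have h1 := abs_le.1 (h t ht)
    have h2 := abs_le.1 (dg t ⟨ht.1, ht.2.trans hy.2⟩)
    exact abs_le.2 ⟨by linarith, by linarith⟩
  have key : ∀ y ∈ Icc (0:ℝ) 1, (∀ t ∈ Icc 0 y, |S t - st t| ≤ W3) → Rng y (FF S y) ∧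
      |b - psi y (FF S y) / 2 - ds' y| ≤
        (H : ℝ) ^ 2 / 2 * W1 + (ρ3 + ((P + W1) ^ 2 * H ^ 3 + (S0 + S12) * H + P * S0 * H ^ 2) / 2) := by
    intro y hy h
    have hy' : |y| ≤ 1 := abs_le.2 ⟨by linarith [hy.1], hy.2⟩
    have he : |y * (Kg S y - Kg hg y)| ≤ W1 := by
      rw [abs_mul]
      nlinarith [hG y hy h, abs_nonneg y, abs_nonneg (Kg S y - Kg hg y)]
    have hp : |y * g1 y| + |y * g2 y| ≤ P := by
      rw [abs_mul, abs_mul]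
      nlinarith [hP y hy, abs_nonneg y, abs_nonneg (g1 y), abs_nonneg (g2 y)]
    have hn := nonlin (q := 1) (ql := 1) (p0 := y * g0 y) (p1 := y * g1 y) (p2 := y * g2 y) one_pos le_rfl hx1 hx2
      r1' (hw y hy).1 (hw y hy).2 hH (by linarith) (s0 y hy) (s12 y hy) hp he n1' n2'
    have e : 1 - (y * g0 y + x1 * (y * g1 y) + x2 * (y * g2 y) + y * (Kg S y - Kg hg y)) / 1 = FF S y := by
      rw [FF, hK y hy]
      ring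
    rw [e] at hn
    have hR : Rng y (FF S y) := rng_of hr' (by simpa using hy.2) hH0 hn.1 hn.2.1
    refine ⟨hR, ?_⟩
    rw [psi_eq hR]
    have h1 := hn.2.2
    simp only [div_one, one_pow] at h1
    have h2 : |y * (Kg S y - Kg hg y)| * (H : ℝ) ^ 2 ≤ W1 * H ^ 2 := by gcongr
    have h3 := abs_le.1 (hds y hy).2
    have h4 := abs_le.1 h1
    exact abs_le.2 ⟨by linarith, by linarith⟩
  have hall : ∀ y ∈ Icc (0:ℝ) 1, |S y - st y| ≤ W3 :=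
    c_cont (e := fun y => S y - st y) (e' := fun y => b - psi y (FF S y) / 2 - ds' y) (by simp [h0, hS.zero]) n0' n5'
      (fun y hy => (hS.hasDerivWithinAt hy.1).sub (hds y hy).1.hasDerivWithinAt) fun y hy h => (key y hy h).2
  refine ⟨fun y hy => (key y hy fun t ht => hall t ⟨ht.1, ht.2.trans hy.2⟩).1, ?_, ?_,
    hall 1 ⟨zero_le_one, le_rfl⟩⟩
  · simpa [pp] using hG 1 ⟨zero_le_one, le_rfl⟩ hall
  · have := (abs_Kr_sub hS.1 chr zero_le_one (M := W3 + ρr) fun t ht => by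
      have h1 := abs_le.1 (hall t ht)
      have h2 := abs_le.1 (dr t ht)
      exact abs_le.2 ⟨by linarith, by linarith⟩).trans n4'
    simpa [rr] using this

end Crest.Agent.R213.Ea
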