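import Crest.Agent.R213.Ea.Chk
import Crest.Agent.R213.Ea.Shoot

/-! Row 213, shrinker: linear Taylor models in `(x1,x2) ∈ [-1,1]²` and the final check at `y = 64`. -/

set_option autoImplicit false
open Set Filter Topology

namespace Crest.Agent.R213.Ea

structure TM where
  a : ℚ
  b : ℚ
  c : ℚ
  e : ℚ

def TM.Enc (t : TM) (x1 x2 v : ℝ) : Prop := |v - (t.a + x1 * t.b + x2 * t.c)| ≤ t.e
def TM.const (q : ℚ) : TM := ⟨q, 0, 0, 0⟩
def TM.add (s t : TM) : TM := ⟨s.a + t.a, s.b + t.b, s.c + t.c, s.e + t.e⟩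
def TM.smul (q : ℚ) (t : TM) : TM := ⟨q * t.a, q * t.b, q * t.c, |q| * t.e⟩
def TM.mag (t : TM) : ℚ := |t.a| + |t.b| + |t.c| + t.e
def TM.mul (s t : TM) : TM :=
  ⟨s.a * t.a, s.a * t.b + s.b * t.a, s.a * t.c + s.c * t.a,
    (|s.b| + |s.c|) * (|t.b| + |t.c|) + s.e * t.mag + t.e * s.mag⟩
/-- rounding to the grid `2^-140` -/
def rd (q : ℚ) : ℚ := (⌈q * 2 ^ 140⌉ : ℤ) / 2 ^ 140
def TM.round (t : TM) : TM := ⟨rd t.a, rd t.b, rd t.c, rd t.e + 3 / 2 ^ 140⟩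
def TM.ofV (v : V3) (e : ℤ) : TM := ⟨v.a / ONE, v.b / ONE, v.c / ONE, e / ONE⟩

section
variable {x1 x2 u v : ℝ} {s t : TM}
lemma TM.enc_const (q : ℚ) : (TM.const q).Enc x1 x2 q := by
  simp [TM.Enc, TM.const]
lemma TM.Enc.add (hs : s.Enc x1 x2 u) (ht : t.Enc x1 x2 v) : (s.add t).Enc x1 x2 (u + v) := by
  simp only [TM.Enc, TM.add, abs_le] at *
  push_cast
  constructor <;> linarith [hs.1, hs.2, ht.1, ht.2]
lemma TM.Enc.smul (q : ℚ) (ht : t.Enc x1 x2 v) : (TM.smul q t).Enc x1 x2 (q * v) := by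
  simp only [TM.Enc, TM.smul] at *
  push_cast
  rw [show (q : ℝ) * v - (q * t.a + x1 * (q * t.b) + x2 * (q * t.c)) =
    q * (v - (t.a + x1 * t.b + x2 * t.c)) by ring, abs_mul]
  exact mul_le_mul_of_nonneg_left ht (abs_nonneg _)
lemma tma_lin (hx1 : |x1| ≤ 1) (hx2 : |x2| ≤ 1) (b c : ℝ) : |x1 * b + x2 * c| ≤ |b| + |c| := by
  refine (abs_add_le _ _).trans ?_
  rw [abs_mul, abs_mul]
  exact add_le_add (mul_le_of_le_one_left (abs_nonneg _) hx1) (mul_le_of_le_one_left (abs_nonneg _) hx2)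
lemma TM.Enc.mag (hx1 : |x1| ≤ 1) (hx2 : |x2| ≤ 1) (ht : t.Enc x1 x2 v) : |v| ≤ t.mag := by
  simp only [TM.Enc, TM.mag] at *
  push_cast
  have h := abs_add_le (v - (t.a + x1 * t.b + x2 * t.c)) (t.a + (x1 * t.b + x2 * t.c))
  rw [show v - (t.a + x1 * t.b + x2 * t.c) + (t.a + (x1 * t.b + x2 * t.c)) = v by ring] at h
  linarith [abs_add_le (t.a : ℝ) (x1 * t.b + x2 * t.c), tma_lin hx1 hx2 (t.b : ℝ) t.c]
lemma TM.Enc.mul (hx1 : |x1| ≤ 1) (hx2 : |x2| ≤ 1) (hs : s.Enc x1 x2 u) (ht : t.Enc x1 x2 v) :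
    (s.mul t).Enc x1 x2 (u * v) := by
  have hv := ht.mag hx1 hx2
  simp only [TM.Enc, TM.mul] at *
  push_cast
  have h1 := tma_lin hx1 hx2 (s.b : ℝ) s.c
  have h2 := tma_lin hx1 hx2 (t.b : ℝ) t.c
  have hse : (0 : ℝ) ≤ s.e := (abs_nonneg _).trans hs
  have h3 : |(s.a : ℝ) + (x1 * s.b + x2 * s.c)| ≤ s.mag := by
    simp only [TM.mag]; push_cast
    linarith [abs_add_le (s.a : ℝ) (x1 * s.b + x2 * s.c)]
  rw [show u * v - (s.a * t.a + x1 * (s.a * t.b + s.b * t.a) + x2 * (s.a * t.c + s.c * t.a)) =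
    (x1 * s.b + x2 * s.c) * (x1 * t.b + x2 * t.c) + (u - (s.a + x1 * s.b + x2 * s.c)) * v +
      (v - (t.a + x1 * t.b + x2 * t.c)) * (s.a + (x1 * s.b + x2 * s.c)) by ring]
  refine (abs_add_three _ _ _).trans ?_
  rw [abs_mul, abs_mul, abs_mul]
  gcongr
  exact (abs_nonneg _).trans ht
lemma tma_rd (q : ℚ) : (q : ℝ) ≤ rd q ∧ (rd q : ℝ) ≤ q + 1 / 2 ^ 140 := by
  have h1 : q ≤ rd q := by
    rw [rd, le_div_iff₀ (by positivity)]; exact Int.le_ceil _
  have h2 : rd q ≤ q + 1 / 2 ^ 140 := by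
    rw [rd, div_le_iff₀ (by positivity), add_mul, one_div_mul_cancel (by positivity)]
    exact (Int.ceil_lt_add_one _).le
  exact ⟨Rat.cast_le.2 h1, by simpa using (Rat.cast_le (K := ℝ)).2 h2⟩
lemma TM.Enc.round (hx1 : |x1| ≤ 1) (hx2 : |x2| ≤ 1) (ht : t.Enc x1 x2 v) : t.round.Enc x1 x2 v := by
  simp only [TM.Enc, TM.round] at *
  push_cast
  have h1 := tma_rd t.a
  have h2 := tma_rd t.b
  have h3 := tma_rd t.c
  have h4 := tma_rd t.e
  have h5 := tma_lin hx1 hx2 ((t.b : ℝ) - rd t.b) (t.c - rd t.c)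
  rw [show v - (rd t.a + x1 * rd t.b + x2 * rd t.c) = (v - (t.a + x1 * t.b + x2 * t.c)) + (t.a - rd t.a) +
    (x1 * (t.b - rd t.b) + x2 * (t.c - rd t.c)) by ring]
  refine (abs_add_three _ _ _).trans ?_
  rw [abs_of_nonpos (by linarith : (t.a : ℝ) - rd t.a ≤ 0)]
  rw [abs_of_nonpos (by linarith : (t.b : ℝ) - rd t.b ≤ 0),
    abs_of_nonpos (by linarith : (t.c : ℝ) - rd t.c ≤ 0)] at h5
  linarith
lemma TM.enc_ofV {w : V3} {e : ℤ} (h : |v - w.val x1 x2| ≤ e / ONE) : (TM.ofV w e).Enc x1 x2 v := by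
  simp only [TM.Enc, TM.ofV, V3.val] at *
  push_cast
  convert h using 3
  ring
end

/-- `∑_i Pm (i0 + i) * l_i * l'_i` -/
def conv : ℕ → List TM → List TM → TM
  | i, s :: l, t :: l' => (TM.smul (Pm i) (s.mul t)).add (conv (i + 1) l l')
  | _, _, _ => TM.const 0
/-- `[f_j, ..., f_0]` (newest first) -/
def fcl (c : TM) : ℕ → List TM
  | 0 => [c]
  | j + 1 => ((TM.smul (-2) c).mul ((TM.smul 90 ((fcl c j).headD c)).add
      (conv 0 (fcl c j) (fcl c j).reverse))).round :: fcl c j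
/-- tail-recursive version, `fcl' c j [c] = fcl c j` -/
def fcl' (c : TM) : ℕ → List TM → List TM
  | 0, l => l
  | j + 1, l => fcl' c j (((TM.smul (-2) c).mul ((TM.smul 90 (l.headD c)).add
      (conv 0 l l.reverse))).round :: l)

lemma tma_fcl' (c : TM) (j : ℕ) : ∀ i, fcl' c j (fcl c i) = fcl c (i + j) := by
  induction j with
  | zero => exact fun _ => rfl
  | succ j ih => exact fun i => (ih (i + 1)).trans (by rw [add_right_comm, add_assoc])
lemma fcl'_eq (c : TM) (j : ℕ) : fcl' c j [c] = fcl c j := by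
  exact (tma_fcl' c j 0).trans (by rw [zero_add])
lemma fcl_length (c : TM) (j : ℕ) : (fcl c j).length = j + 1 := by
  induction j with
  | zero => rfl
  | succ j ih => rw [fcl, List.length_cons, ih]
lemma tma_conv {x1 x2 : ℝ} (hx1 : |x1| ≤ 1) (hx2 : |x2| ≤ 1) (c : TM) : ∀ (l l' : List TM) (i : ℕ)
    (f g : ℕ → ℝ), l.length = l'.length → (∀ n < l.length, (l.getD n c).Enc x1 x2 (f n)) →
    (∀ n < l.length, (l'.getD n c).Enc x1 x2 (g n)) →
    (conv i l l').Enc x1 x2 (∑ n ∈ Finset.range l.length, (Pm (i + n) : ℝ) * (f n * g n))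
  | [], _, i, f, g, _, _, _ => by simpa [conv] using TM.enc_const (x1 := x1) (x2 := x2) 0
  | _ :: _, [], _, _, _, h, _, _ => by simp at h
  | s :: l, t :: l', i, f, g, h, hf, hg => by
    have h1 := tma_conv hx1 hx2 c l l' (i + 1) (fun n => f (n + 1)) (fun n => g (n + 1))
      (by simpa using h) (fun n hn => hf (n + 1) (by simpa using hn))
      fun n hn => hg (n + 1) (by simpa using hn)
    have h2 := (TM.Enc.smul (Pm i) ((hf 0 (by simp)).mul hx1 hx2 (hg 0 (by simp)))).add h1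
    rw [List.length_cons, Finset.sum_range_succ', add_comm]
    simpa only [conv, List.getD_cons_zero, Rat.cast_intCast, add_zero, add_assoc, add_comm 1] using h2
lemma fcl_enc {x1 x2 v : ℝ} (hx1 : |x1| ≤ 1) (hx2 : |x2| ≤ 1) {c : TM} (hc : c.Enc x1 x2 v) (k : ℕ) :
    ∀ j ≤ k, ((fcl c k).reverse.getD j c).Enc x1 x2 (fc v j) := by
  induction k with
  | zero =>
    intro j hj
    obtain rfl : j = 0 := by omega
    simpa [fcl, fc] using hc
  | succ k ih =>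
    intro j hj
    have hl := fcl_length c k
    rw [fcl, List.reverse_cons]
    rcases Nat.lt_or_ge j (k + 1) with h | h
    · rw [List.getD_append _ _ _ _ (by rwa [List.length_reverse, hl])]
      exact ih j (by omega)
    obtain rfl : j = k + 1 := by omega
    rw [List.getD_append_right _ _ _ _ (by rw [List.length_reverse, hl]), List.length_reverse, hl,
      Nat.sub_self, List.getD_cons_zero]
    have hrev : ∀ n < k + 1, ((fcl c k).getD n c).Enc x1 x2 (fc v (k - n)) := fun n hn => by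
      have := ih (k - n) (by omega)
      rwa [List.getD_reverse _ (by omega), hl, show k + 1 - 1 - (k - n) = n by omega] at this
    have h1 := tma_conv hx1 hx2 c (fcl c k) (fcl c k).reverse 0 (fun n => fc v (k - n)) (fc v)
      List.length_reverse.symm (by rwa [hl]) fun n hn => ih n (by omega)
    have h2 : ((fcl c k).headD c).Enc x1 x2 (fc v k) := by
      rw [List.headD_eq_getD]; exact hrev 0 (by omega)
    have h3 := ((TM.Enc.smul (-2) hc).mul hx1 hx2 ((TM.Enc.smul 90 h2).add h1)).round hx1 hx2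
    rw [fc, Fin.sum_univ_eq_sum_range (fun i => (Pm i : ℝ) * fc v (k - i) * fc v i)]
    simpa only [hl, zero_add, mul_assoc, Rat.cast_neg, Rat.cast_ofNat] using h3

lemma tmb_diag (T : ℕ → ℕ → ℝ) (k : ℕ) :
    ∑ i ∈ Finset.range (k + 1), ∑ i' ∈ Finset.range (k + 1), T i i' =
      ∑ j ∈ Finset.range k, ∑ i' ∈ Finset.range (j + 1), T (j - i') i' +
        ∑ i ∈ Finset.range (k + 1), ∑ i' ∈ Finset.range (k + 1), if k ≤ i + i' then T i i' else 0 := by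
  rw [Finset.sum_range_diag_flip k fun i' i => T i i', ← sub_eq_iff_eq_add, ← Finset.sum_sub_distrib]
  simp only [← Finset.sum_sub_distrib]
  rw [Finset.sum_comm, Finset.sum_range_succ, Finset.sum_eq_zero (s := Finset.range (k + 1)) fun i _ => by
    rw [if_pos (by omega), sub_self], add_zero]
  refine Finset.sum_congr rfl fun i' _ => ?_
  symm
  refine (Finset.sum_congr rfl fun i hi => ?_).trans
    (Finset.sum_subset (Finset.range_subset_range.2 (by omega)) fun i _ hi => ?_)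
  · rw [if_neg (by rw [Finset.mem_range] at hi; omega), sub_zero]
  · rw [if_pos (by rw [Finset.mem_range] at hi; omega), sub_self]

lemma tmb_res {b : ℝ} (hb : 0 < b) (k : ℕ) {ε : ℝ} (hε : ε ≠ 0) :
    (∑ j ∈ Finset.range (k + 1), fc (1 / (2 * b)) j * ε ^ j) *
        (∑ j ∈ Finset.range (k + 1), Pm j * fc (1 / (2 * b)) j * ε ^ j) +
      90 * (∑ j ∈ Finset.range (k + 1), fc (1 / (2 * b)) j * ε ^ j) -
      ε⁻¹ * (1 / 2 - b * ∑ j ∈ Finset.range (k + 1), fc (1 / (2 * b)) j * ε ^ j) =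
    90 * fc (1 / (2 * b)) k * ε ^ k + ∑ i ∈ Finset.range (k + 1), ∑ i' ∈ Finset.range (k + 1),
      if k ≤ i + i' then Pm i' * fc (1 / (2 * b)) i * fc (1 / (2 * b)) i' * ε ^ (i + i') else 0 := by
  set f := fc (1 / (2 * b)) with hf
  have e1 : ε⁻¹ * (1 / 2 - b * ∑ j ∈ Finset.range (k + 1), f j * ε ^ j) =
      90 * ∑ j ∈ Finset.range k, f j * ε ^ j + ∑ j ∈ Finset.range k, ∑ i' ∈ Finset.range (j + 1),
        Pm i' * f (j - i') * f i' * ε ^ (j - i' + i') := by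
    have e0 : f 0 = 1 / (2 * b) := by rw [hf, fc]
    rw [Finset.sum_range_succ', e0, pow_zero, mul_one, mul_add, show b * (1 / (2 * b)) = 1 / 2 by field_simp,
      sub_add_cancel_right, mul_neg, ← neg_mul, Finset.mul_sum, Finset.mul_sum, Finset.mul_sum,
      ← Finset.sum_add_distrib]
    refine Finset.sum_congr rfl fun j _ => ?_
    have e2 : f (j + 1) = -2 * (1 / (2 * b)) * (90 * f j +
        ∑ i ∈ Finset.range (j + 1), (Pm i : ℝ) * f (j - i) * f i) := by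
      rw [hf, fc, Finset.sum_range]
    have e3 : ∑ i' ∈ Finset.range (j + 1), (Pm i' : ℝ) * f (j - i') * f i' * ε ^ (j - i' + i') =
        (∑ i ∈ Finset.range (j + 1), (Pm i : ℝ) * f (j - i) * f i) * ε ^ j := by
      rw [Finset.sum_mul]
      refine Finset.sum_congr rfl fun i hi => ?_
      rw [Nat.sub_add_cancel (by rw [Finset.mem_range] at hi; omega)]
    rw [e2, e3, pow_succ]
    field_simp
  have e4 := tmb_diag (fun i i' => Pm i' * f i * f i' * ε ^ (i + i')) k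
  have e5 : (∑ j ∈ Finset.range (k + 1), f j * ε ^ j) * (∑ j ∈ Finset.range (k + 1), Pm j * f j * ε ^ j) =
      ∑ i ∈ Finset.range (k + 1), ∑ i' ∈ Finset.range (k + 1), Pm i' * f i * f i' * ε ^ (i + i') := by
    rw [Finset.sum_mul_sum]
    refine Finset.sum_congr rfl fun i _ => Finset.sum_congr rfl fun i' _ => ?_
    ring
  rw [e1, e5, e4, Finset.sum_range_succ (fun j => f j * ε ^ j) k]
  ring

/-- The residual of the truncated formal solution.  With `ε = y⁻²`, `f = fc (1/(2b))`: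
`Fa0 * Res = Fa0 * (P(θ) Fa) + 90 Fa0 + (b/ε) (Fa0 - f 0)`, `P(θ) Fa = ∑ Pm j f_j ε^j`, and
`b f_{j+1} = -(90 f_j + ∑_{i ≤ j} Pm i f_{j-i} f_i)`; so all orders `ε^j`, `j < k`, cancel and
`Fa0 * Res = 90 f_k ε^k + ∑_{i,i' ≤ k, k ≤ i+i'} Pm i' f_i f_{i'} ε^{i+i'}`.
For the upper bound of `Fa0` use `f_1 = -180 c² (1 - c) ≤ 0` (`c = 1/(2b) ≤ 1` by `h2`). -/
lemma tailOK_of {b R : ℝ} {k : ℕ} (hb : 0 < b) (hk : 2 ≤ k) (φ : ℕ → ℝ)
    (hφ : ∀ j ≤ k, |fc (1 / (2 * b)) j| ≤ φ j)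
    (h1 : 701 / 1000 ≤ 1 / (2 * b) - ∑ j ∈ Finset.range k, φ (j + 1) / 4096 ^ (j + 1))
    (h2 : 1 / (2 * b) + ∑ j ∈ Finset.range (k - 1), φ (j + 2) / 4096 ^ (j + 2) ≤ 719 / 1000)
    (h3 : 90 * φ k / 4096 ^ (k - 2) + ∑ i ∈ Finset.range (k + 1), ∑ i' ∈ Finset.range (k + 1),
      (if k ≤ i + i' then |(Pm i' : ℝ)| * φ i * φ i' / 4096 ^ (i + i' - 2) else 0) ≤ 7 / 10 * (R / 20)) :
    TailOK b k R := by
  intro y hy
  have hy0 : 0 < y := by linarith
  set f := fc (1 / (2 * b)) with hf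
  obtain ⟨ε, hε⟩ : ∃ ε : ℝ, ε = (y ^ 2)⁻¹ := ⟨_, rfl⟩
  have hε0 : 0 < ε := by rw [hε]; positivity
  have hε1 : ε ≤ 1 / 4096 := by
    rw [hε, one_div]
    exact inv_anti₀ (by norm_num) (by nlinarith)
  have hp : ∀ j : ℕ, ε ^ j ≤ 1 / 4096 ^ j := fun j => by
    rw [← one_div_pow]
    exact pow_le_pow_left₀ hε0.le hε1 j
  have hφ0 : ∀ j ≤ k, 0 ≤ φ j := fun j hj => (abs_nonneg _).trans (hφ j hj)
  have ht : ∀ j ≤ k, ∀ n : ℕ, |f j * ε ^ n| ≤ φ j / 4096 ^ n := fun j hj n => by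
    rw [abs_mul, abs_of_pos (pow_pos hε0 n), div_eq_mul_one_div]
    exact mul_le_mul (hφ j hj) (hp n) (pow_pos hε0 n).le (hφ0 j hj)
  have eF : ∀ i, Fa b k i y = ∑ j ∈ Finset.range (k + 1), (-2 * (j : ℝ)) ^ i * f j * ε ^ j := fun i =>
    Finset.sum_congr rfl fun j _ => by rw [hε, inv_pow, ← pow_mul, div_eq_mul_inv]
  have e0 : f 0 = 1 / (2 * b) := by rw [hf, fc]
  have eA : Fa b k 0 y = ∑ j ∈ Finset.range (k + 1), f j * ε ^ j := by simp only [eF, pow_zero, one_mul]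
  have eG : Fa b k 3 y + 18 * Fa b k 2 y + 71 * Fa b k 1 y - 90 * Fa b k 0 y =
      ∑ j ∈ Finset.range (k + 1), Pm j * f j * ε ^ j := by
    simp only [eF, Finset.mul_sum, ← Finset.sum_add_distrib, ← Finset.sum_sub_distrib]
    refine Finset.sum_congr rfl fun j _ => ?_
    simp only [Pm]
    push_cast
    ring
  have lo : 701 / 1000 ≤ Fa b k 0 y := by
    rw [eA, Finset.sum_range_succ', e0, pow_zero, mul_one]
    have : -∑ j ∈ Finset.range k, φ (j + 1) / 4096 ^ (j + 1) ≤ ∑ j ∈ Finset.range k, f (j + 1) * ε ^ (j + 1) := by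
      rw [← Finset.sum_neg_distrib]
      exact Finset.sum_le_sum fun j hj => (abs_le.1 (ht _ (Finset.mem_range.1 hj) _)).1
    linarith
  refine ⟨lo, ?_, ?_⟩
  · obtain ⟨n, rfl⟩ : ∃ n, k = n + 1 := ⟨k - 1, by omega⟩
    rw [eA, Finset.sum_range_succ', Finset.sum_range_succ', e0, pow_zero, mul_one]
    rw [Nat.add_sub_cancel] at h2
    have a1 : ∑ j ∈ Finset.range n, f (j + 1 + 1) * ε ^ (j + 1 + 1) ≤
        ∑ j ∈ Finset.range n, φ (j + 2) / 4096 ^ (j + 2) :=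
      Finset.sum_le_sum fun j hj => (abs_le.1 (ht _ (by rw [Finset.mem_range] at hj; omega) _)).2
    have a2 : 0 ≤ ∑ j ∈ Finset.range n, φ (j + 2) / 4096 ^ (j + 2) := Finset.sum_nonneg fun j hj =>
      div_nonneg (hφ0 _ (by rw [Finset.mem_range] at hj; omega)) (by positivity)
    have a3 : f (0 + 1) = -(180 * (1 / (2 * b)) ^ 2 * (1 - 1 / (2 * b))) := by
      rw [hf, fc]
      simp only [Fin.sum_univ_succ, Finset.univ_eq_empty, Finset.sum_empty, Fin.val_zero, Nat.sub_zero, fc, Pm]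
      push_cast
      ring
    have a4 : f (0 + 1) * ε ^ (0 + 1) ≤ 0 := by
      refine mul_nonpos_of_nonpos_of_nonneg ?_ (by positivity)
      rw [a3, neg_nonpos]
      exact mul_nonneg (by positivity) (by linarith)
    refine (add_le_add_left (add_le_add a1 a4) _).trans ?_
    rw [add_zero, add_comm]
    exact h2
  · have hA : 0 < Fa b k 0 y := by linarith
    have key := tmb_res hb k hε0.ne'
    rw [← hf, ← eA, ← eG] at key
    have ey : y ^ 2 = ε⁻¹ := by rw [hε, inv_inv]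
    have e4 : y ^ 4 = (ε ^ 2)⁻¹ := by rw [← inv_pow, ← ey]; ring
    have eR : y ^ 4 * (Fa b k 3 y + 18 * Fa b k 2 y + 71 * Fa b k 1 y - 90 * Fa b k 0 y + 90 -
        y ^ 2 * (1 / (2 * Fa b k 0 y) - b)) = (90 * (f k * ε ^ (k - 2)) + ∑ i ∈ Finset.range (k + 1),
        ∑ i' ∈ Finset.range (k + 1), if k ≤ i + i' then Pm i' * f i' * (f i * ε ^ (i + i' - 2)) else 0) /
        Fa b k 0 y := by
      have e6 : ∀ n : ℕ, 2 ≤ n → ε ^ (n - 2) = (ε ^ 2)⁻¹ * ε ^ n := fun n hn => by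
        rw [pow_sub₀ _ hε0.ne' hn, mul_comm]
      have e7 : (∑ i ∈ Finset.range (k + 1), ∑ i' ∈ Finset.range (k + 1),
          if k ≤ i + i' then Pm i' * f i' * (f i * ε ^ (i + i' - 2)) else 0) = (ε ^ 2)⁻¹ *
          ∑ i ∈ Finset.range (k + 1), ∑ i' ∈ Finset.range (k + 1),
            if k ≤ i + i' then Pm i' * f i * f i' * ε ^ (i + i') else 0 := by
        simp only [Finset.mul_sum]
        refine Finset.sum_congr rfl fun i _ => Finset.sum_congr rfl fun i' _ => ?_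
        split_ifs with h
        · rw [e6 _ (by omega)]; ring
        · simp
      rw [e7, e6 k hk, eq_div_iff hA.ne', e4, ey, ← sub_eq_iff_eq_add'.2 key]
      field_simp
      ring
    have hb1 : |90 * (f k * ε ^ (k - 2)) + ∑ i ∈ Finset.range (k + 1), ∑ i' ∈ Finset.range (k + 1),
        if k ≤ i + i' then Pm i' * f i' * (f i * ε ^ (i + i' - 2)) else 0| ≤ 7 / 10 * (R / 20) := by
      refine (abs_add_le _ _).trans (le_trans (add_le_add ?_ ?_) h3)
      · rw [abs_mul, abs_of_pos (by norm_num : (0 : ℝ) < 90), mul_div_assoc]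
        exact mul_le_mul_of_nonneg_left (ht k le_rfl _) (by norm_num)
      · refine (Finset.abs_sum_le_sum_abs _ _).trans (Finset.sum_le_sum fun i hi => ?_)
        refine (Finset.abs_sum_le_sum_abs _ _).trans (Finset.sum_le_sum fun i' hi' => ?_)
        rw [Finset.mem_range, Nat.lt_succ_iff] at hi hi'
        split_ifs with h
        · rw [abs_mul, abs_mul, mul_right_comm _ (φ i), mul_div_assoc]
          exact mul_le_mul (mul_le_mul_of_nonneg_left (hφ i' hi') (abs_nonneg _)) (ht i hi _) (abs_nonneg _)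
            (mul_nonneg (abs_nonneg _) (hφ0 i' hi'))
        · simp
    have hR : 0 ≤ R / 20 := by linarith [(abs_nonneg _).trans hb1]
    rw [eR, abs_div, abs_of_pos hA, div_le_iff₀ hA]
    nlinarith

def sumQ (n : ℕ) (f : ℕ → ℚ) : ℚ := ((List.range n).map f).sum
def sumT (n : ℕ) (f : ℕ → TM) : TM := ((List.range n).map f).foldr TM.add (TM.const 0)

/-- model of `Fa b k i 64` -/
def FaT (c : TM) (l : List TM) (k i : ℕ) : TM :=
  sumT (k + 1) fun j => TM.smul ((-2 * (j : ℚ)) ^ i / 4096 ^ j) (l.getD j c)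

def chkFin2 (lam : ℚ) (d0 d1 d2 : TM) : Bool :=
  let y0 := TM.smul (64 ^ 6) d0
  let y1 := TM.smul (64 ^ 6 / 16) ((TM.smul 6 d0).add d1)
  let y2 := TM.smul (64 ^ 6 / 256) (((TM.smul 36 d0).add (TM.smul 12 d1)).add d2)
  decide (((y0.add (TM.smul (-1) y1)).add y2).mag ≤ 7 / 10 * lam) &&
  decide (((y0.add y1).add ⟨0, -lam, 0, 0⟩).mag ≤ lam / 10) &&
  decide (((y1.add y2).add ⟨0, 0, -lam, 0⟩).mag ≤ lam / 10)

def chkFin1 (lam : ℚ) (k : ℕ) (st : St) (c : TM) (l : List TM) : Bool :=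
  let p := TM.ofV st.p st.e.a
  let r := TM.ofV st.r st.e.b
  let s := TM.ofV st.s st.e.c
  let f0 := (TM.const 1).add (TM.smul (-1 / 64 ^ 10) p)
  let f1 := (TM.smul (-64 / 64 ^ 10) r).add (TM.smul (10 / 64 ^ 10) p)
  let f2 := ((TM.smul (90 / 64 ^ 10) p).add (TM.smul (-19) f1)).add (TM.smul (-64) s)
  chkFin2 lam (f0.add (TM.smul (-1) (FaT c l k 0))) (f1.add (TM.smul (-1) (FaT c l k 1)))
    (f2.add (TM.smul (-1) (FaT c l k 2)))

def chkTail (lam : ℚ) (k : ℕ) (c : TM) (φ : List ℚ) : Bool :=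
  decide (701 / 1000 ≤ c.a - |c.b| - |c.c| - c.e - sumQ k fun j => φ.getD (j + 1) 0 / 4096 ^ (j + 1)) &&
  decide (c.mag + (sumQ (k - 1) fun j => φ.getD (j + 2) 0 / 4096 ^ (j + 2)) ≤ 719 / 1000) &&
  decide (90 * φ.getD k 0 / 4096 ^ (k - 2) + (sumQ (k + 1) fun i => sumQ (k + 1) fun i' =>
    if k ≤ i + i' then |(Pm i' : ℚ)| * φ.getD i 0 * φ.getD i' 0 / 4096 ^ (i + i' - 2) else 0) ≤
    7 / 10 * (7 / 10 * lam / 20))

/-- `c` encloses `1/(2b)`: `|1/(2b) - c̃| = |2 b c̃ - 1|/(2b)` and `2 b ≥ 1` -/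
def chkC (B : V3) (c : TM) : Bool :=
  decide ((1 / 2 : ℚ) ≤ B.a / ONE - |(B.b / ONE : ℚ)| - |(B.c / ONE : ℚ)|) &&
  decide ((((TM.smul 2 (TM.ofV B 0)).mul ⟨c.a, c.b, c.c, 0⟩).add (TM.const (-1))).mag ≤ c.e)

def chkFin (lam : ℚ) (k : ℕ) (A B : V3) (st : St) (c : TM) : Bool :=
  decide (0 < lam) && decide (lam ≤ 1) && decide (2 ≤ k) &&
  decide (0 < A.a - |A.b| - |A.c|) && chkC B c &&
  chkTail lam k c ((fcl' c k [c]).reverse.map TM.mag) && chkFin1 lam k st c (fcl' c k [c]).reverse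

lemma chkC_sound {B : V3} {c : TM} (h : chkC B c = true) {x1 x2 : ℝ} (hx1 : |x1| ≤ 1) (hx2 : |x2| ≤ 1) :
    0 < B.val x1 x2 ∧ c.Enc x1 x2 (1 / (2 * B.val x1 x2)) := by
  simp only [chkC, Bool.and_eq_true, decide_eq_true_eq] at h
  obtain ⟨h1, h2⟩ := h
  have hB : (TM.ofV B 0).Enc x1 x2 (B.val x1 x2) := TM.enc_ofV (by simp)
  have h3 : 1 / 2 ≤ B.val x1 x2 := by
    have h4 : ((1 / 2 : ℚ) : ℝ) ≤ ((B.a / ONE - |(B.b / ONE : ℚ)| - |(B.c / ONE : ℚ)| : ℚ) : ℝ) :=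
      Rat.cast_le.2 h1
    have h5 := tma_lin hx1 hx2 ((B.b : ℝ) / ONE) (B.c / ONE)
    simp only [TM.Enc, TM.ofV] at hB
    push_cast at h4 hB
    rw [zero_div] at hB
    linarith [(abs_le.1 hB).1, (abs_le.1 h5).1]
  refine ⟨by linarith, ?_⟩
  have hc : TM.Enc ⟨c.a, c.b, c.c, 0⟩ x1 x2 (c.a + x1 * c.b + x2 * c.c) := by simp [TM.Enc]
  have h6 := ((((TM.Enc.smul 2 hB).mul hx1 hx2 hc).add (TM.enc_const (-1))).mag hx1 hx2).trans
    (Rat.cast_le.2 h2)
  have h7 : 0 < 2 * B.val x1 x2 := by linarith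
  unfold TM.Enc
  rw [show 1 / (2 * B.val x1 x2) - (c.a + x1 * c.b + x2 * c.c) =
    -((2 : ℚ) * B.val x1 x2 * (c.a + x1 * c.b + x2 * c.c) + (-1 : ℚ)) / (2 * B.val x1 x2) by
      push_cast; field_simp; ring, abs_div, abs_neg, abs_of_pos h7]
  exact (div_le_self (abs_nonneg _) (by linarith)).trans h6

lemma tmb_sumQ (n : ℕ) (f : ℕ → ℚ) : sumQ n f = ∑ j ∈ Finset.range n, f j := by
  induction n with
  | zero => simp [sumQ]
  | succ n ih =>
    rw [Finset.sum_range_succ, ← ih]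
    simp [sumQ, List.range_succ]

/-- `tailOK_of` with `φ j = (l.getD j c).mag` -/
lemma chkTail_sound {lam : ℚ} {k : ℕ} {c : TM} {l : List TM} (hk : 2 ≤ k) (hl : l.length = k + 1)
    (h : chkTail lam k c (l.map TM.mag) = true) {x1 x2 b : ℝ} (hx1 : |x1| ≤ 1) (hx2 : |x2| ≤ 1)
    (hb : 0 < b) (hc : c.Enc x1 x2 (1 / (2 * b)))
    (hf : ∀ j ≤ k, (l.getD j c).Enc x1 x2 (fc (1 / (2 * b)) j)) : TailOK b k (7 / 10 * lam) := by
  simp only [chkTail, Bool.and_eq_true, decide_eq_true_eq, tmb_sumQ] at h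
  obtain ⟨⟨h1, h2⟩, h3⟩ := h
  have g1 := (Rat.cast_le (K := ℝ)).2 h1
  have g2 := (Rat.cast_le (K := ℝ)).2 h2
  have g3 := (Rat.cast_le (K := ℝ)).2 h3
  simp only [apply_ite (Rat.cast : ℚ → ℝ), Rat.cast_sum, Rat.cast_add, Rat.cast_sub, Rat.cast_mul, Rat.cast_div,
    Rat.cast_pow, Rat.cast_abs, Rat.cast_ofNat, Rat.cast_intCast, Rat.cast_zero] at g1 g2 g3
  refine tailOK_of hb hk (fun j => ((l.map TM.mag).getD j 0 : ℚ)) (fun j hj => ?_) ?_ ?_ g3
  · have := (hf j hj).mag hx1 hx2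
    rwa [List.getD_eq_getElem _ _ (by omega), ← List.getElem_map TM.mag (h := by simp; omega),
      ← List.getD_eq_getElem _ 0] at this
  · have a1 := (abs_le.1 hc).1
    have a2 : |x1 * c.b| ≤ |(c.b : ℝ)| := by
      rw [abs_mul]; exact mul_le_of_le_one_left (abs_nonneg _) hx1
    have a3 : |x2 * c.c| ≤ |(c.c : ℝ)| := by
      rw [abs_mul]; exact mul_le_of_le_one_left (abs_nonneg _) hx2
    linarith [(abs_le.1 a2).1, (abs_le.1 a3).1]
  · linarith [(abs_le.1 (hc.mag hx1 hx2)).2]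

lemma tmc_sumT {x1 x2 : ℝ} (n : ℕ) (f : ℕ → TM) (v : ℕ → ℝ) (h : ∀ j < n, (f j).Enc x1 x2 (v j)) :
    (sumT n f).Enc x1 x2 (∑ j ∈ Finset.range n, v j) := by
  have key : ∀ (l : List ℕ), (∀ j ∈ l, (f j).Enc x1 x2 (v j)) →
      ((l.map f).foldr TM.add (TM.const 0)).Enc x1 x2 (l.map v).sum := by
    intro l
    induction l with
    | nil => intro _; simpa using TM.enc_const (x1 := x1) (x2 := x2) 0
    | cons j l ih =>
      intro hl
      simp only [List.map_cons, List.foldr_cons, List.sum_cons]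
      exact (hl j (by simp)).add (ih fun i hi => hl i (by simp [hi]))
  have := key (List.range n) fun j hj => h j (List.mem_range.1 hj)
  exact this

/-- `FF_eq_pp`, `F1_eq`, `om_64`, `64^(2j) = 4096^j` -/
lemma chkFin1_sound {lam : ℚ} {k : ℕ} {st : St} {c : TM} {l : List TM}
    (h : chkFin1 lam k st c l = true) {x1 x2 b : ℝ} {S : ℝ → ℝ} (hx1 : |x1| ≤ 1) (hx2 : |x2| ≤ 1)
    (hf : ∀ j ≤ k, (l.getD j c).Enc x1 x2 (fc (1 / (2 * b)) j)) (hI : Inv S x1 x2 64 st) :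
    |X0 b k S 64 - X1 b k S 64 + X2 b k S 64| ≤ 7 / 10 * lam ∧
      |X0 b k S 64 + X1 b k S 64 - lam * x1| ≤ lam / 10 ∧
      |X1 b k S 64 + X2 b k S 64 - lam * x2| ≤ lam / 10 := by
  obtain ⟨-, hp, hr, hs⟩ := hI
  have ep := TM.enc_ofV hp
  have er := TM.enc_ofV hr
  have es := TM.enc_ofV hs
  have hFa : ∀ i, (FaT c l k i).Enc x1 x2 (Fa b k i 64) := fun i => by
    unfold FaT Fa
    refine tmc_sumT _ _ _ fun j hj => ?_
    have := (hf j (by omega)).smul ((-2 * (j : ℚ)) ^ i / 4096 ^ j)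
    convert this using 1
    push_cast
    rw [pow_mul]
    norm_num
    ring
  have e0 : ((TM.const 1).add (TM.smul (-1 / 64 ^ 10) (TM.ofV st.p st.e.a))).Enc x1 x2 (FF S 64) := by
    have := (TM.enc_const (x1 := x1) (x2 := x2) 1).add (ep.smul (-1 / 64 ^ 10))
    convert this using 1
    rw [FF_eq_pp S (by norm_num)]; push_cast; ring
  have e1 : ((TM.smul (-64 / 64 ^ 10) (TM.ofV st.r st.e.b)).add
      (TM.smul (10 / 64 ^ 10) (TM.ofV st.p st.e.a))).Enc x1 x2 (F1 S 64) := by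
    have := (er.smul (-64 / 64 ^ 10)).add (ep.smul (10 / 64 ^ 10))
    convert this using 1
    rw [F1_eq S (by norm_num)]; push_cast; ring
  have e2 := ((ep.smul (90 / 64 ^ 10)).add (e1.smul (-19))).add (es.smul (-64))
  have hF2 : ((90 / 64 ^ 10 : ℚ) : ℝ) * pp S 64 + ((-19 : ℚ) : ℝ) * F1 S 64 + ((-64 : ℚ) : ℝ) * S 64 =
      F2 S 64 := by
    rw [F2, FF_eq_pp S (by norm_num)]; push_cast; ring
  rw [hF2] at e2
  have d0 := e0.add ((hFa 0).smul (-1))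
  have d1 := e1.add ((hFa 1).smul (-1))
  have d2 := e2.add ((hFa 2).smul (-1))
  have y0 := d0.smul (64 ^ 6)
  have y1 := ((d0.smul 6).add d1).smul (64 ^ 6 / 16)
  have y2 := (((d0.smul 36).add (d1.smul 12)).add d2).smul (64 ^ 6 / 256)
  simp only [chkFin1, chkFin2, Bool.and_eq_true, decide_eq_true_eq] at h
  obtain ⟨⟨c1, c2⟩, c3⟩ := h
  have l1 : (⟨0, -lam, 0, 0⟩ : TM).Enc x1 x2 (-(lam * x1)) := by
    simp [TM.Enc, mul_comm]
  have l2 : (⟨0, 0, -lam, 0⟩ : TM).Enc x1 x2 (-(lam * x2)) := by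
    simp [TM.Enc, mul_comm]
  have m1 := (((y0.add (y1.smul (-1))).add y2).mag hx1 hx2).trans (Rat.cast_le.2 c1)
  have m2 := (((y0.add y1).add l1).mag hx1 hx2).trans (Rat.cast_le.2 c2)
  have m3 := (((y1.add y2).add l2).mag hx1 hx2).trans (Rat.cast_le.2 c3)
  simp only [X0, X1, X2, om_64]
  push_cast at m1 m2 m3
  refine ⟨?_, ?_, ?_⟩
  · refine le_trans (le_of_eq ?_) m1
    congr 1; ring
  · refine le_trans (le_of_eq ?_) m2
    congr 1; ring
  · refine le_trans (le_of_eq ?_) m3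
    congr 1; ring

/-- assembly: `a_j = A.j/ONE`, `b_j = B.j/ONE` -/
theorem stFin_of {lam : ℚ} {k : ℕ} {A B : V3} {st : St} {c : TM} (h : chkFin lam k A B st c = true)
    (hI : ∀ x1 x2 : ℝ, |x1| ≤ 1 → |x2| ≤ 1 → ∀ S, IsSol (A.val x1 x2) (B.val x1 x2) S →
      Inv S x1 x2 64 st) : StFin := by
  simp only [chkFin, Bool.and_eq_true, decide_eq_true_eq] at h
  obtain ⟨⟨⟨⟨⟨⟨h1, h2⟩, h3⟩, h4⟩, h5⟩, h6⟩, h7⟩ := h
  rw [fcl'_eq] at h6 h7
  have hO : (0 : ℝ) < (ONE : ℝ) := by norm_num [ONE]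
  refine ⟨A.a / ONE, A.b / ONE, A.c / ONE, B.a / ONE, B.b / ONE, B.c / ONE, lam, k,
    by exact_mod_cast h1, by exact_mod_cast h2, fun x1 x2 hx1 hx2 => ?_⟩
  have ev : ∀ v : V3, (v.a : ℝ) / ONE + x1 * (v.b / ONE) + x2 * (v.c / ONE) = v.val x1 x2 := fun v => by
    rw [V3.val]; ring
  rw [ev A, ev B]
  obtain ⟨hb, hc⟩ := chkC_sound h5 hx1 hx2
  have hf := fcl_enc hx1 hx2 hc k
  refine ⟨?_, hb, chkTail_sound h3 (by rw [List.length_reverse, fcl_length]) h6 hx1 hx2 hb hc hf,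
    fun S hS => ⟨(hI x1 x2 hx1 hx2 S hS).1, chkFin1_sound h7 hx1 hx2 hf (hI x1 x2 hx1 hx2 S hS)⟩⟩
  refine div_pos ?_ hO
  have h4' : (0 : ℝ) < A.a - |(A.b : ℝ)| - |(A.c : ℝ)| := by exact_mod_cast h4
  have t1 : |x1 * A.b| ≤ |(A.b : ℝ)| := by
    rw [abs_mul]; exact mul_le_of_le_one_left (abs_nonneg _) hx1
  have t2 : |x2 * A.c| ≤ |(A.c : ℝ)| := by
    rw [abs_mul]; exact mul_le_of_le_one_left (abs_nonneg _) hx2
  linarith [neg_abs_le (x1 * A.b), neg_abs_le (x2 * A.c)]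

end Crest.Agent.R213.Ea
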